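import Mathlib

/-!
Measurable orbit relations, finite-type labelled graphs over an action, and general tools.
-/

namespace Vale.Agent.P189

open MeasureTheory Relation Filter Topology

noncomputable section

section Tools

variable {X : Type} [MeasurableSpace X] {μ : Measure X} [IsProbabilityMeasure μ]

/-- Real indicator function. -/
def ind (S : Set X) (x : X) : ℝ := S.indicator 1 x

omit [MeasurableSpace X] in
theorem ind_of_mem {S : Set X} {x : X} (h : x ∈ S) : ind S x = 1 := by simp [ind, h]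

omit [MeasurableSpace X] in
theorem ind_of_notMem {S : Set X} {x : X} (h : x ∉ S) : ind S x = 0 := by simp [ind, h]

omit [MeasurableSpace X] in
theorem ind_nonneg (S : Set X) (x : X) : 0 ≤ ind S x := by
  by_cases h : x ∈ S
  · rw [ind_of_mem h]; norm_num
  · rw [ind_of_notMem h]

theorem integrable_ind {S : Set X} (h : MeasurableSet S) : Integrable (ind S) μ :=
  (integrable_const (1 : ℝ)).indicator h

omit [IsProbabilityMeasure μ] in
theorem integral_ind {S : Set X} (h : MeasurableSet S) : ∫ x, ind S x ∂μ = μ.real S :=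
  integral_indicator_one h

theorem sum_measure_le_of_pointwise {ι : Type} [Fintype ι] (S : ι → Set X)
    (hS : ∀ i, MeasurableSet (S i)) (f : X → ℝ) (hf : Integrable f μ)
    (h : ∀ x, ∑ i, ind (S i) x ≤ f x) : ∑ i, μ.real (S i) ≤ ∫ x, f x ∂μ := by
  simp only [← integral_ind (hS _)]
  rw [← integral_finsetSum _ fun i _ => integrable_ind (hS i)]
  exact integral_mono (integrable_finsetSum _ fun i _ => integrable_ind (hS i)) hf h

theorem small_tail (B : ℕ → Set X) (hB : ∀ n, MeasurableSet (B n)) (hanti : Antitone B)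
    (h0 : μ (⋂ n, B n) = 0) {δ : ℝ} (hδ : 0 < δ) : ∃ n, μ.real (B n) ≤ δ := by
  have h := tendsto_measure_iInter_atTop (μ := μ) (fun n => (hB n).nullMeasurableSet) hanti
    ⟨0, measure_ne_top _ _⟩
  rw [h0] at h
  have h2 := (ENNReal.tendsto_toReal ENNReal.zero_ne_top).comp h
  simp only [ENNReal.toReal_zero] at h2
  obtain ⟨n, hn⟩ := (h2.eventually (ge_mem_nhds hδ)).exists
  exact ⟨n, hn⟩

theorem count_perm {C : Type} [Fintype C] [DecidableEq C] (e : C → ℕ) (he : Function.Injective e)
    (A : Finset C) (c : C) (hc : c ∈ A) :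
    A.card * (Finset.univ.filter fun σ : Equiv.Perm C => ∀ c' ∈ A, e (σ c) ≤ e (σ c')).card
      ≤ Fintype.card (Equiv.Perm C) := by
  let E : C → Finset (Equiv.Perm C) := fun d =>
    Finset.univ.filter fun σ : Equiv.Perm C => ∀ c' ∈ A, e (σ d) ≤ e (σ c')
  have h1 : ∀ d ∈ A, (E c).card ≤ (E d).card := by
    intro d hd
    refine Finset.card_le_card_of_injOn (fun σ => σ * Equiv.swap c d) ?_ ?_
    · intro σ hσ
      simp only [E, Finset.coe_filter, Finset.mem_univ, true_and, Set.mem_ofPred_eq] at hσ ⊢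
      intro c' hc'
      simp only [Equiv.Perm.mul_apply, Equiv.swap_apply_right]
      refine hσ _ ?_
      rw [Equiv.swap_apply_def]
      split_ifs <;> assumption
    · intro σ _ σ' _ h
      exact mul_right_cancel h
  have h2 : (A.biUnion E).card = ∑ d ∈ A, (E d).card := by
    refine Finset.card_biUnion fun d hd d' hd' hne => ?_
    refine Finset.disjoint_left.2 fun σ h h' => hne ?_
    simp only [E, Finset.mem_filter, Finset.mem_univ, true_and] at h h'
    exact σ.injective (he (le_antisymm (h d' hd') (h' d hd)))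
  calc A.card * (E c).card = ∑ _d ∈ A, (E c).card := by simp
    _ ≤ ∑ d ∈ A, (E d).card := Finset.sum_le_sum h1
    _ = (A.biUnion E).card := h2.symm
    _ ≤ Fintype.card (Equiv.Perm C) := Finset.card_le_univ _

theorem measurableSet_fin {C : Type} [Fintype C] (c : X → C) (Cl : X → Set C)
    (hc : ∀ c0, MeasurableSet {x | c x = c0}) (hCl : ∀ c0, MeasurableSet {x | c0 ∈ Cl x})
    (P : C → Set C → Prop) : MeasurableSet {x | P (c x) (Cl x)} := by
  have e : {x | P (c x) (Cl x)} = ⋃ (c0 : C) (A : Set C) (_ : P c0 A),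
      {x | c x = c0} ∩ ⋂ d, {x | d ∈ Cl x ↔ d ∈ A} := by
    ext x
    simp only [Set.mem_ofPred_eq, Set.mem_iUnion, Set.mem_inter_iff, Set.mem_iInter]
    constructor
    · intro h
      exact ⟨_, _, h, rfl, fun d => Iff.rfl⟩
    · rintro ⟨c0, A, h, rfl, h2⟩
      rwa [show Cl x = A from Set.ext h2]
  rw [e]
  refine MeasurableSet.iUnion fun c0 => MeasurableSet.iUnion fun A => MeasurableSet.iUnion fun _ =>
    (hc c0).inter (MeasurableSet.iInter fun d => ?_)
  by_cases hd : d ∈ A
  · simpa [hd] using hCl d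
  · have : {x | d ∈ Cl x ↔ d ∈ A} = {x | d ∈ Cl x}ᶜ := by
      ext
      simp [hd]
    rw [this]
    exact (hCl d).compl

theorem marker {C Λ : Type} [Fintype C] [Fintype Λ] (c : Λ → X → C) (Cl : Λ → X → Set C)
    (hc : ∀ l c0, MeasurableSet {x | c l x = c0}) (hCl : ∀ l c0, MeasurableSet {x | c0 ∈ Cl l x})
    (K : ℕ) (hK : 0 < K) : ∃ π : C → ℕ, Function.Injective π ∧
      ∑ l, μ.real {x | K ≤ (Cl l x).ncard ∧ c l x ∈ Cl l x ∧ ∀ c' ∈ Cl l x, π (c l x) ≤ π c'}
        ≤ Fintype.card Λ / K := by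
  classical
  let e : C → ℕ := fun c => (Fintype.equivFin C c : ℕ)
  have he : Function.Injective e := fun a b h => (Fintype.equivFin C).injective (Fin.ext h)
  let S : Equiv.Perm C → Λ → Set X := fun σ l =>
    {x | K ≤ (Cl l x).ncard ∧ c l x ∈ Cl l x ∧ ∀ c' ∈ Cl l x, e (σ (c l x)) ≤ e (σ c')}
  have hS : ∀ σ l, MeasurableSet (S σ l) := fun σ l => measurableSet_fin (c l) (Cl l) (hc l)
    (hCl l) fun c0 A => K ≤ A.ncard ∧ c0 ∈ A ∧ ∀ c' ∈ A, e (σ c0) ≤ e (σ c')
  have hKr : (0 : ℝ) < K := by exact_mod_cast hK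
  have h1 : ∀ l, ∑ σ, μ.real (S σ l) ≤ Fintype.card (Equiv.Perm C) / K := by
    intro l
    have h := sum_measure_le_of_pointwise (μ := μ) (fun σ => S σ l) (fun σ => hS σ l)
      (fun _ => (Fintype.card (Equiv.Perm C) : ℝ) / K) (integrable_const _) (fun x => ?_)
    · simpa using h
    by_cases hx : K ≤ (Cl l x).ncard ∧ c l x ∈ Cl l x
    · have h2 := count_perm e he (Cl l x).toFinset (c l x) (Set.mem_toFinset.2 hx.2)
      have h3 : ∑ σ, ind (S σ l) x = ((Finset.univ.filter fun σ : Equiv.Perm C =>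
          ∀ c' ∈ (Cl l x).toFinset, e (σ (c l x)) ≤ e (σ c')).card : ℝ) := by
        rw [Finset.card_filter]
        push_cast
        refine Finset.sum_congr rfl fun σ _ => ?_
        split_ifs with h
        · exact ind_of_mem ⟨hx.1, hx.2, fun c' hc' => h c' (Set.mem_toFinset.2 hc')⟩
        · exact ind_of_notMem fun h' => h fun c' hc' => h'.2.2 c' (Set.mem_toFinset.1 hc')
      rw [h3, le_div_iff₀ hKr]
      have h4 := hx.1
      rw [Set.ncard_eq_toFinset_card'] at h4
      have h5 := (Nat.mul_le_mul_right _ h4).trans h2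
      rw [mul_comm]
      exact_mod_cast h5
    · rw [Finset.sum_eq_zero fun σ _ => ind_of_notMem fun h' => hx ⟨h'.1, h'.2.1⟩]
      positivity
  have h2 : ∑ σ : Equiv.Perm C, ∑ l, μ.real (S σ l)
      ≤ ∑ _σ : Equiv.Perm C, (Fintype.card Λ / K : ℝ) := by
    rw [Finset.sum_comm]
    refine (Finset.sum_le_sum fun l _ => h1 l).trans (le_of_eq ?_)
    simp only [Finset.sum_const, Finset.card_univ, nsmul_eq_mul]
    ring
  obtain ⟨σ, -, hσ⟩ := Finset.exists_le_of_sum_le Finset.univ_nonempty h2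
  exact ⟨fun c => e (σ c), he.comp σ.injective, hσ⟩

end Tools

section Action

variable {Γ X : Type} [Group Γ] [MulAction Γ X] [MeasurableSpace X] [MeasurableConstSMul Γ X]

theorem measurableSet_pre {S : Set X} (h : MeasurableSet S) (g : Γ) :
    MeasurableSet {x | g • x ∈ S} := measurable_const_smul g h

omit [MeasurableConstSMul Γ X] in
theorem real_pre {μ : Measure X} [SMulInvariantMeasure Γ X μ] (S : Set X) (g : Γ) :
    μ.real {x | g • x ∈ S} = μ.real S := by
  simp only [Measure.real]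
  congr 1
  exact measure_preimage_smul μ g S

theorem exists_colour [MeasurableSpace.CountablySeparated X] {μ : Measure X}
    [IsProbabilityMeasure μ] (hfree : ∀ (g : Γ) (x : X), g • x = x → g = 1) (F : Set Γ)
    (hF : F.Finite) {δ : ℝ} (hδ : 0 < δ) : ∃ (n : ℕ) (c : X → (Fin n → Bool)),
      (∀ c0, MeasurableSet {x | c x = c0}) ∧
      MeasurableSet {x | ∃ g ∈ F, g ≠ 1 ∧ c (g • x) = c x} ∧
      μ.real {x | ∃ g ∈ F, g ≠ 1 ∧ c (g • x) = c x} ≤ δ := by
  obtain ⟨f, hf, hinj⟩ := MeasurableSpace.measurable_injection_nat_bool_of_countablySeparated X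
  let c : ∀ n : ℕ, X → (Fin n → Bool) := fun n x i => f x i
  have hc : ∀ n, Measurable (c n) := fun n =>
    measurable_pi_lambda _ fun i => (measurable_pi_apply (i : ℕ)).comp hf
  let B : ℕ → Set X := fun n => {x | ∃ g ∈ F, g ≠ 1 ∧ c n (g • x) = c n x}
  have hB : ∀ n, MeasurableSet (B n) := by
    intro n
    have e : B n = ⋃ g ∈ F, ⋃ (_ : g ≠ 1), {x | c n (g • x) = c n x} := by
      ext x
      simp only [B, Set.mem_ofPred_eq, Set.mem_iUnion, exists_prop]
    rw [e]
    exact hF.measurableSet_biUnion fun g _ => MeasurableSet.iUnion fun _ =>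
      measurableSet_eq_fun ((hc n).comp (measurable_const_smul g)) (hc n)
  have hanti : Antitone B := by
    rintro n m hnm x ⟨g, hg, h1, h2⟩
    exact ⟨g, hg, h1, funext fun i => congrFun h2 ⟨i, lt_of_lt_of_le i.2 hnm⟩⟩
  have h0 : ⋂ n, B n = ∅ := by
    ext x
    simp only [Set.mem_iInter, Set.mem_empty_iff_false, iff_false]
    intro h
    have h1 : ∀ g : Γ, g ≠ 1 → ∃ k, f (g • x) k ≠ f x k := by
      intro g hg
      by_contra h2
      push Not at h2
      exact hg (hfree g x (hinj (funext h2)))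
    choose! k hk using h1
    obtain ⟨N, hN⟩ := (hF.image k).bddAbove
    obtain ⟨g, hg, h1, h2⟩ := h (N + 1)
    exact hk g h1 (congrFun h2 ⟨k g, Nat.lt_succ_of_le (hN ⟨g, hg, rfl⟩)⟩)
  obtain ⟨n, hn⟩ := small_tail (μ := μ) B hB hanti (by rw [h0, measure_empty]) hδ
  exact ⟨n, c n, fun c0 => hc n (measurableSet_singleton c0), hB n, hn⟩

variable (Γ) in
/-- A measurable relation on `X × T` refining the orbit relation. -/
def MR {T : Type} (r : X × T → X × T → Prop) : Prop :=
  (∀ v w, r v w → ∃ g : Γ, w.1 = g • v.1) ∧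
    ∀ (g : Γ) (τ τ' : T), MeasurableSet {x | r (x, τ) (g • x, τ')}

theorem MR.symm {T : Type} {r : X × T → X × T → Prop} (h : MR Γ r) : MR Γ fun v w => r w v := by
  refine ⟨fun v w hvw => ?_, fun g τ τ' => ?_⟩
  · obtain ⟨g, hg⟩ := h.1 w v hvw
    exact ⟨g⁻¹, by rw [hg, inv_smul_smul]⟩
  · have := measurableSet_pre (h.2 g⁻¹ τ' τ) g
    simpa using this

omit [MeasurableConstSMul Γ X] in
theorem MR.or {T : Type} {r s : X × T → X × T → Prop} (h : MR Γ r) (h' : MR Γ s) :
    MR Γ fun v w => r v w ∨ s v w :=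
  ⟨fun v w hvw => hvw.elim (h.1 v w) (h'.1 v w), fun g τ τ' => (h.2 g τ τ').union (h'.2 g τ τ')⟩

omit [MeasurableConstSMul Γ X] in
theorem MR.exists {T ι : Type} [Countable ι] {r : ι → X × T → X × T → Prop}
    (h : ∀ i, MR Γ (r i)) : MR Γ fun v w => ∃ i, r i v w := by
  refine ⟨fun v w ⟨i, hi⟩ => (h i).1 v w hi, fun g τ τ' => ?_⟩
  rw [Set.ofPred_exists]
  exact MeasurableSet.iUnion fun i => (h i).2 g τ τ'

theorem MR.eqvGen [Countable Γ] {T : Type} [Countable T] {r : X × T → X × T → Prop}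
    (hfree : ∀ (g : Γ) (x : X), g • x = x → g = 1) (h : MR Γ r) : MR Γ (EqvGen r) := by
  let s : X × T → X × T → Prop := fun v w => r v w ∨ r w v
  have hs : MR Γ s := h.or h.symm
  let P : ℕ → X × T → X × T → Prop := fun n =>
    Nat.rec (fun v w => v = w) (fun _ p v w => ∃ u, p v u ∧ s u w) n
  have hP : ∀ n, MR Γ (P n) := by
    intro n
    induction n with
    | zero =>
      refine ⟨fun v w hvw => ⟨1, by rw [one_smul, show v = w from hvw]⟩, fun g τ τ' => ?_⟩
      by_cases hg : g = 1 ∧ τ = τ'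
      · have : {x : X | P 0 (x, τ) (g • x, τ')} = Set.univ := by
          ext x
          simp [P, hg.1, hg.2]
        rw [this]
        exact MeasurableSet.univ
      · have : {x : X | P 0 (x, τ) (g • x, τ')} = ∅ := by
          ext x
          simp only [P, Nat.rec_zero, Prod.mk.injEq, Set.mem_ofPred_eq, Set.mem_empty_iff_false,
            iff_false]
          exact fun h => hg ⟨hfree g x h.1.symm, h.2⟩
        rw [this]
        exact MeasurableSet.empty
    | succ n ih =>
      refine ⟨fun v w ⟨u, h1, h2⟩ => ?_, fun g τ τ' => ?_⟩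
      · obtain ⟨g, hg⟩ := ih.1 v u h1
        obtain ⟨g', hg'⟩ := hs.1 u w h2
        exact ⟨g' * g, by rw [hg', hg, mul_smul]⟩
      · have : {x : X | P (n + 1) (x, τ) (g • x, τ')} = ⋃ (k : Γ) (τ'' : T),
            {x | P n (x, τ) (k • x, τ'')} ∩
              {x | k • x ∈ {y | s (y, τ'') ((g * k⁻¹) • y, τ')}} := by
          ext x
          simp only [Set.mem_ofPred_eq, Set.mem_iUnion, Set.mem_inter_iff, mul_smul, inv_smul_smul]
          constructor
          · rintro ⟨⟨y, τ''⟩, h1, h2⟩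
            obtain ⟨k, hk⟩ := ih.1 _ _ h1
            simp only at hk
            subst hk
            exact ⟨k, τ'', h1, h2⟩
          · rintro ⟨k, τ'', h1, h2⟩
            exact ⟨_, h1, h2⟩
        rw [this]
        exact MeasurableSet.iUnion fun k => MeasurableSet.iUnion fun τ'' =>
          (ih.2 k τ τ'').inter (measurableSet_pre (hs.2 _ _ _) k)
  have e : EqvGen r = fun v w => ∃ n, P n v w := by
    ext v w
    constructor
    · intro hvw
      rw [← Relation.EqvGen.reflTransGen_symmGen] at hvw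
      induction hvw with
      | refl => exact ⟨0, rfl⟩
      | tail _ h2 ih =>
        obtain ⟨n, hn⟩ := ih
        exact ⟨n + 1, _, hn, h2⟩
    · rintro ⟨n, hn⟩
      induction n generalizing w with
      | zero => rw [show v = w from hn]; exact EqvGen.refl _
      | succ n ih =>
        obtain ⟨u, h1, h2⟩ := hn
        refine EqvGen.trans _ _ _ (ih u h1) ?_
        rcases h2 with h2 | h2
        · exact EqvGen.rel _ _ h2
        · exact EqvGen.symm _ _ (EqvGen.rel _ _ h2)
  rw [e]
  exact MR.exists hP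

end Action

end

end Vale.Agent.P189
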