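import Vale.Agent.P189.BernB

/-!
A free Bernoulli action on which `F(a,b)` has spectral gap.
-/

namespace Vale.Agent.P189

open MeasureTheory
open scoped symmDiff

namespace Bern

variable {Γ : Type} [Group Γ]

/-- countably many copies of the group -/
abbrev KK (Γ : Type) : Type := (_ : ℕ) × Γ

theorem fix_null {g : Γ} (hg : g ≠ 1) : bm (KK Γ) {x | sh g x = x} = 0 := by
  classical
  have hm : MeasurableSet {x : KK Γ → Bool | ∀ n : ℕ, x ⟨n, g⁻¹⟩ = x ⟨n, 1⟩} := by
    rw [Set.ofPred_forall]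
    exact MeasurableSet.iInter fun n =>
      measurableSet_eq_fun (measurable_pi_apply _) (measurable_pi_apply _)
  refine measure_mono_null (t := {x : KK Γ → Bool | ∀ n : ℕ, x ⟨n, g⁻¹⟩ = x ⟨n, 1⟩})
    (fun x hx n => ?_) ?_
  · have := congrFun hx ⟨n, 1⟩
    simpa [sh] using this
  set F := {x : KK Γ → Bool | ∀ n : ℕ, x ⟨n, g⁻¹⟩ = x ⟨n, 1⟩} with hF
  have key : ∀ N : ℕ, (bm (KK Γ)).real F * (N : ℝ) ^ 2 ≤ N := by
    intro N
    let J : ℕ → Finset (KK Γ) := fun n => {⟨n, g⁻¹⟩, ⟨n, 1⟩}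
    have hJ : Set.InjOn J (Finset.range N) := by
      intro n _ m _ h
      have h1 : (⟨n, 1⟩ : KK Γ) ∈ J m := by rw [← h]; simp [J]
      simp only [J, Finset.mem_insert, Finset.mem_singleton] at h1
      rcases h1 with h1 | h1 <;> exact congrArg Sigma.fst h1
    have h1 := integral_sum_sq (Finset.range N) J hJ (fun _ => 1)
    simp only [one_mul, one_pow, Finset.sum_const, Finset.card_range, nsmul_eq_mul, mul_one] at h1
    have h2 : ∀ x ∈ F, ∑ n ∈ Finset.range N, wl (J n) x = N := by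
      intro x hx
      have : ∀ n, wl (J n) x = 1 := fun n => by
        unfold wl
        rw [Finset.prod_pair (by simpa using hg), hx n, sg_mul_self]
      simp [this]
    refine le_trans ?_ h1.le
    rw [← smul_eq_mul, ← integral_indicator_const _ hm]
    refine integral_mono ((integrable_const _).indicator hm) ?_ fun x => ?_
    · simp only [sq, Finset.sum_mul_sum, wl_mul]
      exact integrable_finsetSum _ fun i _ => integrable_finsetSum _ fun j _ => integrable_wl _
    · by_cases hx : x ∈ F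
      · rw [Set.indicator_of_mem hx, h2 x hx]
      · rw [Set.indicator_of_notMem hx]
        exact sq_nonneg _
  rw [← measureReal_eq_zero_iff]
  refine le_antisymm ?_ measureReal_nonneg
  by_contra hpos
  have hpos' := not_le.1 hpos
  obtain ⟨N, hN⟩ := exists_nat_gt (1 / (bm (KK Γ)).real F)
  have hN0 : (0 : ℝ) < N := lt_trans (by positivity) hN
  rw [div_lt_iff₀ hpos'] at hN
  nlinarith [key N]

/-- the free points -/
def Fr (Γ : Type) [Group Γ] : Set (KK Γ → Bool) := {x | ∀ g : Γ, sh g x = x → g = 1}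

theorem Fr.sh_mem {x : KK Γ → Bool} (hx : x ∈ Fr Γ) (g : Γ) : sh g x ∈ Fr Γ := by
  intro h hh
  have h1 : sh (g⁻¹ * h * g) x = x := by
    rw [sh_mul, sh_mul, hh, ← sh_mul, inv_mul_cancel, sh_one]
  have h2 := hx _ h1
  rwa [mul_assoc, inv_mul_eq_one, eq_comm, mul_eq_right] at h2

variable [Countable Γ]

theorem measurableSet_Fr : MeasurableSet (Fr Γ) := by
  unfold Fr
  rw [Set.ofPred_forall]
  refine MeasurableSet.iInter fun g => ?_
  exact (measurableSet_eq_fun (measurable_sh g) measurable_id).imp (MeasurableSet.const _)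

theorem ae_Fr : ∀ᵐ x ∂bm (KK Γ), x ∈ Fr Γ := by
  refine ae_all_iff.2 fun g => ?_
  by_cases hg : g = 1
  · exact ae_of_all _ fun _ _ => hg
  · filter_upwards [measure_eq_zero_iff_ae_notMem.1 (fix_null hg)] with x hx h
    exact absurd h hx

end Bern

open Bern in
theorem bern {Γ : Type} [Group Γ] [Countable Γ] (ι : FA →* Γ) (hι : Function.Injective ι) :
    ∃ (X : Type) (_ : MeasurableSpace X) (_ : StandardBorelSpace X) (μ : Measure X)
      (_ : IsProbabilityMeasure μ) (_ : MulAction Γ X) (_ : MeasurableConstSMul Γ X)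
      (_ : SMulInvariantMeasure Γ X μ) (C : ℝ), 0 < C ∧ (∀ (g : Γ) (x : X), g • x = x → g = 1) ∧
      ∀ S : Set X, MeasurableSet S → μ.real S * (1 - μ.real S) ≤
        C * (μ.real {z | (ι fa)⁻¹ • z ∈ S ∧ z ∉ S} + μ.real {z | z ∈ S ∧ (ι fb)⁻¹ • z ∉ S}) := by
  have hm : MeasurableSet (Fr Γ) := measurableSet_Fr
  have hemb : MeasurableEmbedding (Subtype.val : Fr Γ → KK Γ → Bool) :=
    MeasurableEmbedding.subtype_coe hm
  let act : MulAction Γ (Fr Γ) :=
    { smul := fun g x => ⟨sh g x.1, Fr.sh_mem x.2 g⟩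
      one_smul := fun x => Subtype.ext (sh_one x.1)
      mul_smul := fun g h x => Subtype.ext (sh_mul g h x.1) }
  have hsm : ∀ (g : Γ) (x : Fr Γ), (g • x).1 = sh g x.1 := fun _ _ => rfl
  let μ : Measure (Fr Γ) := (bm (KK Γ)).comap Subtype.val
  have hμ : ∀ S : Set (Fr Γ), μ S = bm (KK Γ) (Subtype.val '' S) := fun S => hemb.comap_apply _ S
  have hpre : ∀ (g : Γ) (S : Set (Fr Γ)),
      Subtype.val '' ((fun x => g • x) ⁻¹' S) = sh g ⁻¹' (Subtype.val '' S) := by
    intro g S
    ext x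
    constructor
    · rintro ⟨y, hy, rfl⟩
      exact ⟨g • y, hy, rfl⟩
    · rintro ⟨y, hy, hxy⟩
      refine ⟨g⁻¹ • y, by simpa using hy, ?_⟩
      rw [hsm, hxy, ← sh_mul, inv_mul_cancel, sh_one]
  have hP : IsProbabilityMeasure μ := by
    constructor
    rw [hμ, Set.image_univ, Subtype.range_coe]
    exact (prob_compl_eq_zero_iff hm).1 (mem_ae_iff.1 ae_Fr)
  have hC : MeasurableConstSMul Γ (Fr Γ) :=
    ⟨fun g => ((measurable_sh g).comp measurable_subtype_coe).subtype_mk⟩
  have hI : SMulInvariantMeasure Γ (Fr Γ) μ := ⟨fun g S hS => by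
    rw [hμ, hμ, hpre, (mp_sh g).measure_preimage (hemb.measurableSet_image.2 hS).nullMeasurableSet]⟩
  refine ⟨Fr Γ, inferInstance, hm.standardBorel, μ, hP, act, hC, hI, 12, by norm_num,
    fun g x h => x.2 g (congrArg Subtype.val h), fun S hS => ?_⟩
  have hinv : ∀ (g : Γ) (T : Set (Fr Γ)), μ.real ((fun x => g • x) ⁻¹' T) = μ.real T :=
    fun g T => by simp only [Measure.real, measure_preimage_smul]
  have h1 := poincare (K := KK Γ) ι (fun g k h => by
    obtain ⟨n, k⟩ := k
    have h2 : ι g * k = k := by simpa using h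
    exact hι (by rw [map_one]; exact mul_eq_right.1 h2)) (hemb.measurableSet_image.2 hS)
  have h2 : ∀ g : Γ, (bm (KK Γ)).real ((sh g ⁻¹' (Subtype.val '' S)) ∆ (Subtype.val '' S)) =
      μ.real (((fun x => g⁻¹ • x) ⁻¹' S) ∆ S) := by
    intro g
    rw [← hinv g, Set.preimage_symmDiff, Set.preimage_preimage, ← hpre,
      ← Set.image_symmDiff Subtype.val_injective, symmDiff_comm]
    simp only [Measure.real, hμ, inv_smul_smul, Set.preimage_id']
  have h3 : ∀ T : Set (Fr Γ), MeasurableSet T → μ.real T = μ.real S →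
      μ.real (T ∆ S) = 2 * μ.real (T \ S) ∧ μ.real (T ∆ S) = 2 * μ.real (S \ T) := by
    intro T hT hTS
    have a1 := measureReal_symmDiff_eq (μ := μ) hT hS
    have a2 := measureReal_inter_add_sdiff (μ := μ) (s := T) hS
    have a3 := measureReal_inter_add_sdiff (μ := μ) (s := S) hT
    rw [Set.inter_comm] at a3
    constructor <;> linarith
  rw [h2, h2, (h3 _ (measurable_const_smul _ hS) (hinv _ _)).1,
    (h3 _ (measurable_const_smul _ hS) (hinv _ _)).2] at h1
  have h4 : μ.real S = (bm (KK Γ)).real (Subtype.val '' S) := by simp only [Measure.real, hμ]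
  rw [← h4] at h1
  have h5 : {z | (ι fa)⁻¹ • z ∈ S ∧ z ∉ S} = ((fun x => (ι fa)⁻¹ • x) ⁻¹' S) \ S := rfl
  have h6 : {z | z ∈ S ∧ (ι fb)⁻¹ • z ∉ S} = S \ ((fun x => (ι fb)⁻¹ • x) ⁻¹' S) := rfl
  rw [h5, h6]
  linarith

end Vale.Agent.P189
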