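import Vale.Agent.P189.Grp

/-!
Ping-pong inequality for square summable functions on a set with a free action of `F(a,b)`.
-/

namespace Vale.Agent.P189.Bern

open FreeGroup

variable {Γ A : Type} [Group Γ] [MulAction Γ A]

theorem exists_equivariant (ι : FA →* Γ) (P : A → Prop) (hP : ∀ (g : Γ) I, P I → P (g • I))
    (hfree : ∀ (g : FA) I, P I → ι g • I = I → g = 1) :
    ∃ φ : A → FA, ∀ (g : FA) I, P I → φ (ι g • I) = g * φ I := by
  let r : Setoid A :=
    { r := fun I J => ∃ g : FA, ι g • J = I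
      iseqv :=
        { refl := fun I => ⟨1, by simp⟩
          symm := by
            rintro I J ⟨g, rfl⟩
            exact ⟨g⁻¹, by simp⟩
          trans := by
            rintro I J L ⟨g, rfl⟩ ⟨h, rfl⟩
            exact ⟨g * h, by simp [mul_smul]⟩ } }
  have h1 : ∀ I : A, ∃ g : FA, ι g • (Quotient.mk r I).out = I := fun I =>
    r.symm (Quotient.mk_out (s := r) I)
  choose φ hφ using h1
  refine ⟨φ, fun g I hI => ?_⟩
  have h2 : Quotient.mk r (ι g • I) = Quotient.mk r I := Quotient.sound ⟨g, rfl⟩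
  have h3 := hφ (ι g • I)
  rw [h2] at h3
  have h4 := hφ I
  set R := (Quotient.mk r I).out
  have hR : P R := by
    have := hP (ι (φ I))⁻¹ I hI
    rwa [inv_smul_eq_iff.2 h4.symm] at this
  have h5 : ι ((g * φ I)⁻¹ * φ (ι g • I)) • R = R := by
    rw [_root_.map_mul, mul_smul, h3, _root_.map_inv, inv_smul_eq_iff, _root_.map_mul, mul_smul, h4]
  exact (inv_mul_eq_one.1 (hfree _ R hR h5)).symm

open Classical in
theorem pp_one (P : A → Prop) (φ : A → FA) (w : Fin 2 × Bool) (g : Γ)
    (hg : ∀ I, P I → φ (g • I) = FreeGroup.mk [w] * φ I) (c : A → ℝ)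
    (hc0 : ∀ I, ¬ P I → c I = 0) (hc : Summable fun I => c I ^ 2) :
    ∑' I, c I ^ 2 ≤ 4 / 3 * (∑' I, if φ I ∈ startsWith (w.1, !w.2) then c I ^ 2 else 0) +
      4 / 3 * (∑' I, if φ I ∈ startsWith w then c I ^ 2 else 0) +
      4 * ∑' I, (c (g • I) - c I) ^ 2 := by
  have hs : ∀ v : Fin 2 × Bool, Summable fun I => if φ I ∈ startsWith v then c I ^ 2 else 0 :=
    fun v => Summable.of_nonneg_of_le (fun I => by split_ifs <;> positivity)
      (fun I => by split_ifs <;> first | exact le_rfl | positivity) hc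
  have hcg : Summable fun I => c (g • I) ^ 2 :=
    ((MulAction.toPerm g : A ≃ A).summable_iff (f := fun I => c I ^ 2)).2 hc
  have hsg : Summable fun I => if φ (g • I) ∈ startsWith w then c (g • I) ^ 2 else 0 :=
    ((MulAction.toPerm g : A ≃ A).summable_iff
      (f := fun I => if φ I ∈ startsWith w then c I ^ 2 else 0)).2 (hs w)
  have hd : Summable fun I => (c (g • I) - c I) ^ 2 :=
    Summable.of_nonneg_of_le (fun I => sq_nonneg _)
      (fun I => by nlinarith [sq_nonneg (c (g • I) + c I)])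
      ((hcg.mul_left 2).add (hc.mul_left 2))
  have e : (∑' I, if φ I ∈ startsWith w then c I ^ 2 else 0) =
      ∑' I, if φ (g • I) ∈ startsWith w then c (g • I) ^ 2 else 0 :=
    ((MulAction.toPerm g : A ≃ A).tsum_eq
      (fun I => if φ I ∈ startsWith w then c I ^ 2 else 0)).symm
  rw [e, ← tsum_mul_left, ← tsum_mul_left, ← tsum_mul_left,
    ← ((hs _).mul_left _).tsum_add (hsg.mul_left _),
    ← (((hs _).mul_left _).add (hsg.mul_left _)).tsum_add (hd.mul_left _)]
  refine hc.tsum_le_tsum (fun I => ?_)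
    ((((hs _).mul_left _).add (hsg.mul_left _)).add (hd.mul_left _))
  have h1 : 0 ≤ (if φ (g • I) ∈ startsWith w then c (g • I) ^ 2 else 0) := by
    split_ifs <;> positivity
  by_cases h : φ I ∈ startsWith (w.1, !w.2)
  · rw [if_pos h]
    nlinarith [sq_nonneg (c I), sq_nonneg (c (g • I) - c I)]
  · rw [if_neg h]
    by_cases hI : P I
    · rw [if_pos (by rw [hg I hI]; exact startsWith_mk_mul _ h)]
      nlinarith [sq_nonneg (4 * c (g • I) - 3 * c I)]
    · rw [hc0 I hI]
      nlinarith [sq_nonneg (c (g • I) - 0)]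

theorem pingpong (ι : FA →* Γ) (P : A → Prop) (hP : ∀ (g : Γ) I, P I → P (g • I))
    (hfree : ∀ (g : FA) I, P I → ι g • I = I → g = 1) (c : A → ℝ)
    (hc0 : ∀ I, ¬ P I → c I = 0) (hc : Summable fun I => c I ^ 2) :
    ∑' I, c I ^ 2 ≤ 6 * (∑' I, (c (ι fa • I) - c I) ^ 2 + ∑' I, (c (ι fb • I) - c I) ^ 2) := by
  classical
  obtain ⟨φ, hφ⟩ := exists_equivariant ι P hP hfree
  have h1 := pp_one P φ (0, true) (ι fa) (fun I hI => hφ fa I hI) c hc0 hc
  have h2 := pp_one P φ (1, true) (ι fb) (fun I hI => hφ fb I hI) c hc0 hc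
  have hs : ∀ v : Fin 2 × Bool, Summable fun I => if φ I ∈ startsWith v then c I ^ 2 else 0 :=
    fun v => Summable.of_nonneg_of_le (fun I => by split_ifs <;> positivity)
      (fun I => by split_ifs <;> first | exact le_rfl | positivity) hc
  have h3 : (∑' I, if φ I ∈ startsWith (0, false) then c I ^ 2 else 0) +
      (∑' I, if φ I ∈ startsWith (0, true) then c I ^ 2 else 0) +
      ((∑' I, if φ I ∈ startsWith (1, false) then c I ^ 2 else 0) +
      (∑' I, if φ I ∈ startsWith (1, true) then c I ^ 2 else 0)) ≤ ∑' I, c I ^ 2 := by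
    rw [← (hs _).tsum_add (hs _), ← (hs _).tsum_add (hs _),
      ← ((hs _).add (hs _)).tsum_add ((hs _).add (hs _))]
    refine (((hs _).add (hs _)).add ((hs _).add (hs _))).tsum_le_tsum (fun I => ?_) hc
    simp only [startsWith, Set.mem_ofPred_eq]
    obtain ⟨o, ho⟩ : ∃ o, (φ I).toWord[0]? = o := ⟨_, rfl⟩
    simp only [ho]
    rcases o with _ | ⟨i, b⟩
    · simp [sq_nonneg]
    · fin_cases i <;> cases b <;> simp
  simp only [Bool.not_true] at h1 h2
  linarith

end Vale.Agent.P189.Bern
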