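import Vale.Agent.P189.BernA

/-!
Walsh expansion on the Bernoulli space and the Poincare inequality.
-/

namespace Vale.Agent.P189.Bern

open MeasureTheory Finset
open scoped Pointwise symmDiff

/-- sign of a bit -/
def sg (b : Bool) : ℝ := if b then 1 else -1

theorem sg_mul_self (b : Bool) : sg b * sg b = 1 := by cases b <;> simp [sg]

/-- the fair coin -/
noncomputable def coin : Measure Bool := ProbabilityTheory.uniformOn Set.univ

instance : IsProbabilityMeasure coin := by unfold coin; infer_instance

theorem integral_sg : ∫ b, sg b ∂coin = 0 := by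
  rw [integral_fintype Integrable.of_finite]
  have h : ∀ b : Bool, coin.real {b} = 1 / 2 := fun b => by
    rw [coin, Measure.real, ProbabilityTheory.uniformOn_univ]
    simp
  simp [h, sg]

variable {K : Type}

/-- the Bernoulli measure -/
noncomputable def bm (K : Type) : Measure (K → Bool) := Measure.infinitePi fun _ => coin

instance : IsProbabilityMeasure (bm K) := by unfold bm; infer_instance

/-- Walsh functions -/
def wl (I : Finset K) (x : K → Bool) : ℝ := ∏ i ∈ I, sg (x i)

theorem measurable_wl (I : Finset K) : Measurable (wl I) :=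
  Finset.measurable_prod _ fun i _ => (measurable_from_top (f := sg)).comp (measurable_pi_apply i)

theorem wl_mul_self (I : Finset K) (x : K → Bool) : wl I x * wl I x = 1 := by
  unfold wl
  rw [← Finset.prod_mul_distrib]
  simp [sg_mul_self]

theorem integrable_wl (I : Finset K) : Integrable (wl I) (bm K) :=
  Integrable.of_bound (measurable_wl I).aestronglyMeasurable 1 (ae_of_all _ fun x => by
    have := wl_mul_self I x
    rw [Real.norm_eq_abs, abs_le]
    constructor <;> nlinarith)

theorem integral_wl {I : Finset K} (hI : I.Nonempty) : ∫ x, wl I x ∂bm K = 0 := by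
  have h := integral_restrict_infinitePi (μ := fun _ : K => coin) (s := I)
    (f := fun y => ∏ i : I, sg (y i))
    (Finset.measurable_prod _ fun i _ =>
      (measurable_from_top (f := sg)).comp (measurable_pi_apply i)).aestronglyMeasurable
  have e : ∀ x : K → Bool, wl I x = ∏ i : I, sg (I.restrict x i) := fun x =>
    (Finset.prod_coe_sort I (fun i => sg (x i))).symm
  simp only [e, bm]
  rw [h, integral_fintype_prod_eq_prod (f := fun (_ : I) b => sg b)]
  obtain ⟨i, hi⟩ := hI
  exact Finset.prod_eq_zero (mem_univ ⟨i, hi⟩) integral_sg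

theorem wl_mul [DecidableEq K] (S T : Finset K) (x : K → Bool) :
    wl S x * wl T x = wl (S ∆ T) x := by
  have h1 : S = (S \ T) ∪ (S ∩ T) := (sdiff_union_inter S T).symm
  have h2 : T = (T \ S) ∪ (S ∩ T) := by rw [inter_comm]; exact (sdiff_union_inter T S).symm
  have h3 : S ∆ T = (S \ T) ∪ (T \ S) := rfl
  have e1 : wl S x = wl (S \ T) x * wl (S ∩ T) x := by
    unfold wl
    rw [← Finset.prod_union (disjoint_sdiff_inter S T), ← h1]
  have e2 : wl T x = wl (T \ S) x * wl (S ∩ T) x := by
    unfold wl
    rw [← Finset.prod_union (by rw [inter_comm]; exact disjoint_sdiff_inter T S), ← h2]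
  have e3 : wl (S ∆ T) x = wl (S \ T) x * wl (T \ S) x := by
    unfold wl
    rw [h3, Finset.prod_union disjoint_sdiff_sdiff]
  rw [e1, e2, e3]
  linear_combination (wl (S \ T) x * wl (T \ S) x) * wl_mul_self (S ∩ T) x

theorem integral_sum_sq {κ : Type} (s : Finset κ) (J : κ → Finset K) (hJ : Set.InjOn J s)
    (c : κ → ℝ) : ∫ x, (∑ i ∈ s, c i * wl (J i) x) ^ 2 ∂bm K = ∑ i ∈ s, c i ^ 2 := by
  classical
  have e : ∀ x, (∑ i ∈ s, c i * wl (J i) x) ^ 2 =
      ∑ i ∈ s, ∑ j ∈ s, c i * c j * wl (J i ∆ J j) x := by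
    intro x
    rw [sq, Finset.sum_mul_sum]
    refine Finset.sum_congr rfl fun i _ => Finset.sum_congr rfl fun j _ => ?_
    rw [← wl_mul]; ring
  simp only [e]
  rw [integral_finsetSum _ fun i _ => integrable_finsetSum _ fun j _ =>
    (integrable_wl _).const_mul _]
  refine Finset.sum_congr rfl fun i hi => ?_
  rw [integral_finsetSum _ fun j _ => (integrable_wl _).const_mul _, Finset.sum_eq_single i]
  · simp [wl, sq]
  · intro j hj hji
    rw [integral_const_mul, integral_wl, mul_zero]
    rw [Finset.nonempty_iff_ne_empty]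
    intro h
    exact hji (hJ hj hi (symmDiff_eq_bot.1 h).symm)
  · intro h
    exact absurd hi h

/-- Walsh polynomial with coefficients `c` -/
noncomputable def wp (c : Finset K →₀ ℝ) : (K → Bool) → ℝ := Finsupp.linearCombination ℝ wl c

theorem wp_apply (c : Finset K →₀ ℝ) (x : K → Bool) :
    wp c x = ∑ I ∈ c.support, c I * wl I x := by
  simp [wp, Finsupp.linearCombination_apply, Finsupp.sum]

theorem parseval (c : Finset K →₀ ℝ) : ∫ x, wp c x ^ 2 ∂bm K = ∑' I, c I ^ 2 := by
  simp only [wp_apply]
  rw [integral_sum_sq c.support (fun I => I) (Set.injOn_id _) c, tsum_eq_sum]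
  intro I hI
  simp [Finsupp.notMem_support_iff.1 hI]

theorem integral_wp (c : Finset K →₀ ℝ) : ∫ x, wp c x ∂bm K = c ∅ := by
  simp only [wp_apply]
  rw [integral_finsetSum _ fun j _ => (integrable_wl _).const_mul _, Finset.sum_eq_single ∅]
  · simp [wl]
  · intro I _ hI
    rw [integral_const_mul, integral_wl (Finset.nonempty_iff_ne_empty.2 hI), mul_zero]
  · intro h
    simp [Finsupp.notMem_support_iff.1 h]

theorem span_mul {f g : (K → Bool) → ℝ} (hf : f ∈ Submodule.span ℝ (Set.range (wl (K := K))))
    (hg : g ∈ Submodule.span ℝ (Set.range (wl (K := K)))) :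
    f * g ∈ Submodule.span ℝ (Set.range (wl (K := K))) := by
  classical
  induction hf using Submodule.span_induction with
  | mem f hf =>
    obtain ⟨S, rfl⟩ := hf
    induction hg using Submodule.span_induction with
    | mem g hg =>
      obtain ⟨T, rfl⟩ := hg
      exact Submodule.subset_span ⟨S ∆ T, funext fun x => (wl_mul S T x).symm⟩
    | zero => simp
    | add g g' _ _ h1 h2 => rw [mul_add]; exact add_mem h1 h2
    | smul c g _ h1 => rw [mul_smul_comm]; exact Submodule.smul_mem _ c h1
  | zero => simp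
  | add f f' _ _ h1 h2 => rw [add_mul]; exact add_mem h1 h2
  | smul c f _ h1 => rw [smul_mul_assoc]; exact Submodule.smul_mem _ c h1

theorem exists_wp (s : Finset K) (F : (s → Bool) → ℝ) :
    ∃ c : Finset K →₀ ℝ, ∀ x, wp c x = F (s.restrict x) := by
  classical
  have h1 : (1 : (K → Bool) → ℝ) ∈ Submodule.span ℝ (Set.range (wl (K := K))) :=
    Submodule.subset_span ⟨∅, funext fun x => by simp [wl]⟩
  have h2 : ∀ (v : s → Bool) (t : Finset s), (∏ j ∈ t, ((1 / 2 : ℝ) • (1 + sg (v j) • wl {j.1}))) ∈
      Submodule.span ℝ (Set.range (wl (K := K))) := by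
    intro v t
    induction t using Finset.induction_on with
    | empty => simpa using h1
    | insert j t hj ih =>
      rw [Finset.prod_insert hj]
      exact span_mul (Submodule.smul_mem _ _ (add_mem h1 (Submodule.smul_mem _ _
        (Submodule.subset_span ⟨_, rfl⟩)))) ih
  have h3 := Submodule.sum_mem _ (t := univ) fun v _ => Submodule.smul_mem _ (F v) (h2 v univ)
  obtain ⟨c, hc⟩ := (Finsupp.mem_span_range_iff_exists_finsupp).1 h3
  refine ⟨c, fun x => ?_⟩
  have h4 : wp c = _ := hc
  rw [h4, Finset.sum_apply, Finset.sum_eq_single (s.restrict x)]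
  · have : ∀ j : s, (1 / 2 : ℝ) * (1 + sg (x j) * sg (x j)) = 1 := fun j => by
      rw [sg_mul_self]; norm_num
    simp only [Pi.smul_apply, Finset.prod_apply, Pi.add_apply, Pi.one_apply, wl,
      Finset.prod_singleton, smul_eq_mul, Finset.restrict_def, this, Finset.prod_const_one, mul_one]
  · intro v _ hv
    obtain ⟨j, hj⟩ := Function.ne_iff.1 hv
    simp only [Pi.smul_apply, Finset.prod_apply, smul_eq_mul]
    rw [Finset.prod_eq_zero (mem_univ j), mul_zero]
    simp only [Pi.add_apply, Pi.one_apply, Pi.smul_apply, wl, Finset.prod_singleton, smul_eq_mul]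
    have hj' : v j ≠ x j := hj
    revert hj'
    cases v j <;> cases x j <;> simp [sg]
  · simp

variable {Γ : Type} [Group Γ] [MulAction Γ K]

/-- the shift -/
def sh (g : Γ) (x : K → Bool) : K → Bool := fun k => x (g⁻¹ • k)

theorem sh_one (x : K → Bool) : sh (1 : Γ) x = x := by
  funext k; simp [sh]

theorem sh_mul (g h : Γ) (x : K → Bool) : sh (g * h) x = sh g (sh h x) := by
  funext k; simp [sh, mul_smul]

theorem measurable_sh (g : Γ) : Measurable (sh g : (K → Bool) → K → Bool) :=
  measurable_pi_lambda _ fun _ => measurable_pi_apply _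

theorem mp_sh (g : Γ) : MeasurePreserving (sh g) (bm K) (bm K) := by
  refine ⟨measurable_sh g, Measure.eq_infinitePi _ fun s t ht => ?_⟩
  rw [Measure.map_apply (measurable_sh g) (MeasurableSet.pi s.countable_toSet fun i _ => ht i)]
  have e : sh g ⁻¹' Set.pi (↑s) t =
      Set.pi (↑(s.map (MulAction.toPerm g⁻¹ : K ≃ K).toEmbedding)) (fun k => t (g • k)) := by
    ext x
    simp only [sh, Set.mem_pi, Set.mem_preimage, Finset.mem_coe, Finset.forall_mem_map]
    simp
  rw [e, bm, Measure.infinitePi_pi _ fun i _ => ht _, Finset.prod_map]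
  simp

theorem wp_sh [DecidableEq K] (g : Γ) (c : Finset K →₀ ℝ) (x : K → Bool) :
    wp c (sh g x) = wp (Finsupp.equivMapDomain (MulAction.toPerm g⁻¹) c) x := by
  unfold wp
  rw [Finsupp.linearCombination_equivMapDomain]
  simp only [Finsupp.linearCombination_apply, Finsupp.sum, Finset.sum_apply, Pi.smul_apply]
  refine Finset.sum_congr rfl fun I _ => ?_
  congr 1
  simp only [wl, sh, Function.comp, MulAction.toPerm_apply]
  rw [Finset.smul_finset_def, Finset.prod_image fun a _ b _ h => MulAction.injective _ h]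

theorem energy [DecidableEq K] (g : Γ) (c : Finset K →₀ ℝ) :
    ∫ x, (wp c (sh g x) - wp c x) ^ 2 ∂bm K = ∑' I, (c (g • I) - c I) ^ 2 := by
  have e : ∀ x, wp c (sh g x) - wp c x =
      wp (Finsupp.equivMapDomain (MulAction.toPerm g⁻¹) c - c) x := fun x => by
    rw [wp_sh]; simp [wp]
  simp only [e]
  rw [parseval]
  simp

theorem poincare_cyl (ι : FA →* Γ) (hfree : ∀ (g : FA) (k : K), ι g • k = k → g = 1)
    {T : Set (K → Bool)} (hT : T ∈ measurableCylinders fun _ : K => Bool) :
    (bm K).real T * (1 - (bm K).real T) ≤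
      6 * ((bm K).real ((sh (ι fa) ⁻¹' T) ∆ T) + (bm K).real ((sh (ι fb) ⁻¹' T) ∆ T)) := by
  classical
  have hm : MeasurableSet T := MeasurableSet.of_mem_measurableCylinders hT
  obtain ⟨s, S, -, rfl⟩ := (mem_measurableCylinders _).1 hT
  set T : Set (K → Bool) := cylinder (α := fun _ : K => Bool) s S with hTdef
  obtain ⟨c, hc⟩ := exists_wp s (S.indicator 1)
  have hc' : ∀ x, wp c x = T.indicator 1 x := fun x => by
    rw [hc]
    by_cases h : x ∈ T
    · rw [Set.indicator_of_mem h, Set.indicator_of_mem ((mem_cylinder _ _ _).1 h)]; rfl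
    · rw [Set.indicator_of_notMem h,
        Set.indicator_of_notMem (fun h' => h ((mem_cylinder _ _ _).2 h'))]
  have h0 : c ∅ = (bm K).real T := by
    rw [← integral_wp, ← integral_indicator_one hm]
    simp only [hc']
  have h1 : ∑' I, c I ^ 2 = (bm K).real T := by
    rw [← parseval, ← integral_indicator_one hm]
    refine integral_congr_ae (ae_of_all _ fun x => ?_)
    simp only [hc']
    by_cases h : x ∈ T <;> simp [h]
  have h2 : ∀ g : Γ, ∑' I, (c (g • I) - c I) ^ 2 = (bm K).real ((sh g ⁻¹' T) ∆ T) := by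
    intro g
    rw [← energy, ← integral_indicator_one ((measurable_sh g hm).symmDiff hm)]
    refine integral_congr_ae (ae_of_all _ fun x => ?_)
    simp only [hc']
    by_cases h : x ∈ T <;> by_cases h' : sh g x ∈ T <;> simp [h, h', Set.mem_symmDiff]
  have hs : Summable fun I => c I ^ 2 :=
    summable_of_ne_finset_zero (s := c.support) fun I hI => by
      simp [Finsupp.notMem_support_iff.1 hI]
  have h3 := hs.tsum_eq_add_tsum_ite ∅
  have h4 := pingpong ι (fun I : Finset K => I.Nonempty) (fun g I hI => hI.smul_finset)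
    (fun g I hI hg => by
      obtain ⟨k, hk⟩ := hI
      by_contra hne
      have h5 : ∀ n : ℕ, ι (g ^ n) • k ∈ I := by
        intro n
        induction n with
        | zero => simpa using hk
        | succ n ih =>
          rw [pow_succ', map_mul, mul_smul, ← hg]
          exact Finset.smul_mem_smul_finset ih
      obtain ⟨n, -, m, -, hnm, h6⟩ := Set.infinite_univ.exists_ne_map_eq_of_mapsTo
        (f := fun n : ℕ => ι (g ^ n) • k) (fun n _ => h5 n) I.finite_toSet
      have h7 : (g ^ n)⁻¹ * g ^ m = 1 := hfree _ k (by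
        rw [map_mul, mul_smul, map_inv, inv_smul_eq_iff]; exact h6.symm)
      exact hnm (injective_pow_iff_not_isOfFinOrder.2 (not_isOfFinOrder_of_isMulTorsionFree hne)
        (inv_mul_eq_one.1 h7)))
    (fun I => if I = ∅ then 0 else c I)
    (fun I hI => if_pos (Finset.not_nonempty_iff_eq_empty.1 hI))
    (Summable.of_nonneg_of_le (fun I => sq_nonneg _)
      (fun I => by split_ifs <;> simp [sq_nonneg]) hs)
  have h5 : ∀ g : Γ, ∀ I : Finset K, ((if g • I = ∅ then 0 else c (g • I)) -
      (if I = ∅ then 0 else c I)) ^ 2 = (c (g • I) - c I) ^ 2 := by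
    intro g I
    by_cases h : I = ∅
    · subst h; simp
    · simp [h]
  have h6 : ∀ I : Finset K, (if I = ∅ then 0 else c I) ^ 2 = if I = ∅ then 0 else c I ^ 2 := by
    intro I
    split_ifs <;> simp
  simp only [h5, h6, h2] at h4
  rw [h1, h0] at h3
  linarith

theorem poincare (ι : FA →* Γ) (hfree : ∀ (g : FA) (k : K), ι g • k = k → g = 1)
    {S : Set (K → Bool)} (hS : MeasurableSet S) :
    (bm K).real S * (1 - (bm K).real S) ≤
      6 * ((bm K).real ((sh (ι fa) ⁻¹' S) ∆ S) + (bm K).real ((sh (ι fb) ⁻¹' S) ∆ S)) := by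
  refine le_of_forall_pos_le_add fun ε hε => ?_
  obtain ⟨T, hT, hST⟩ := (Measure.MeasureDense.of_generateFrom_isSetAlgebra_finite (bm K)
    isSetAlgebra_measurableCylinders generateFrom_measurableCylinders.symm).approx S hS
    (measure_ne_top _ _) (ε / 25) (by positivity)
  have hm : MeasurableSet T := MeasurableSet.of_mem_measurableCylinders hT
  have h0 : (bm K).real (S ∆ T) ≤ ε / 25 :=
    ENNReal.toReal_le_of_le_ofReal (by positivity) hST.le
  have h1 := poincare_cyl ι hfree hT
  have h2 : ∀ g : Γ, (bm K).real ((sh g ⁻¹' T) ∆ T) ≤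
      (bm K).real ((sh g ⁻¹' S) ∆ S) + 2 * (ε / 25) := by
    intro g
    have a1 := measureReal_symmDiff_le (μ := bm K) (s := sh g ⁻¹' T) (t := sh g ⁻¹' S) T
      (measure_ne_top _ _) (measure_ne_top _ _)
    have a2 := measureReal_symmDiff_le (μ := bm K) (s := sh g ⁻¹' S) (t := S) T
      (measure_ne_top _ _) (measure_ne_top _ _)
    have a3 : (bm K).real ((sh g ⁻¹' T) ∆ (sh g ⁻¹' S)) = (bm K).real (S ∆ T) := by
      rw [← Set.preimage_symmDiff, (mp_sh g).measureReal_preimage
        (hm.symmDiff hS).nullMeasurableSet, symmDiff_comm]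
    linarith
  have h3 := abs_measureReal_sub_le_measureReal_symmDiff (μ := bm K) hS.nullMeasurableSet
    hm.nullMeasurableSet
  have h4 := abs_le.1 (h3.trans h0)
  have h5 : 0 ≤ (bm K).real S := measureReal_nonneg
  have h6 : 0 ≤ (bm K).real T := measureReal_nonneg
  have h7 : (bm K).real S ≤ 1 := measureReal_le_one
  have h8 : (bm K).real T ≤ 1 := measureReal_le_one
  have h9 := h2 (ι fa)
  have h10 := h2 (ι fb)
  nlinarith [h4.1, h4.2]

end Vale.Agent.P189.Bern
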