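import Vale.Agent.P189.Level2

/-!
The Euler characteristic count on the core graph of the subgroup generated by `a` and `u`.
-/

namespace Vale.Agent.P189

open MeasureTheory Relation Filter Topology

noncomputable section

theorem card_three {V : Type} [DecidableEq V] (a b c : V) :
    ({a, b, c} : Finset V).card ≤ 3 ∧ (a = b ∨ a = c ∨ b = c → ({a, b, c} : Finset V).card ≤ 2) ∧
      (a = b → a = c → ({a, b, c} : Finset V).card ≤ 1) := by
  refine ⟨Finset.card_le_three, ?_, ?_⟩
  · rintro (rfl | rfl | rfl)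
    · rw [Finset.insert_eq_of_mem (by simp)]
      exact Finset.card_le_two
    · rw [Finset.insert_eq_of_mem (by simp)]
      exact Finset.card_le_two
    · rw [Finset.insert_eq_of_mem (s := {b}) (by simp)]
      exact Finset.card_le_two
  · rintro rfl rfl
    simp

theorem card_four {E : Type} [DecidableEq E] {a b c d : E} (h1 : a ≠ c) (h2 : a ≠ d) (h3 : b ≠ c)
    (h4 : b ≠ d) : 4 ≤ ({a, b, c, d} : Finset E).card + (if a = b then 1 else 0) +
      (if c = d then 1 else 0) := by
  by_cases h : a = b <;> by_cases h' : c = d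
  · subst h h'
    simp [h1]
  · subst h
    simp [h1, h2, h']
  · subst h'
    simp [h1, h3, h]
  · simp [h1, h2, h3, h4, h, h']

theorem ind_five {X : Type} {S1 S2 S3 S4 S5 : Set X} {x : X} {A B D : Prop} {k : ℕ}
    (c1 : x ∈ S1 → A) (c2 : x ∈ S2 → B) (c3 : x ∈ S3 → D) (c4 : x ∈ S4 → A)
    (h5 : x ∈ S5 → ¬ ((x ∈ S1 ↔ x ∈ S4) ∧ (x ∈ S2 ↔ x ∈ S3) ∧ (x ∈ S2 → x ∈ S1)))
    (hAD : A → D → B) (hBD : B → D → A)
    (d1 : k ≤ 3) (d2 : A ∨ B ∨ D → k ≤ 2) (d3 : A → B → k ≤ 1) :
    ind S1 x + ind S2 x + ind S3 x + ind S4 x + ind S5 x ≤ 6 - 2 * (k : ℝ) := by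
  have e1 : (k : ℝ) ≤ 3 := by exact_mod_cast d1
  have e2 : A ∨ B ∨ D → (k : ℝ) ≤ 2 := fun h => by exact_mod_cast d2 h
  have e3 : A → B → (k : ℝ) ≤ 1 := fun h h' => by exact_mod_cast d3 h h'
  have u : ∀ S : Set X, ind S x ≤ 1 := fun S => by
    by_cases h : x ∈ S
    · rw [ind_of_mem h]
    · rw [ind_of_notMem h]; norm_num
  have u1 := u S1
  have u2 := u S2
  have u3 := u S3
  have u4 := u S4
  have u5 := u S5
  by_cases hA : A <;> by_cases hB : B
  · have := e3 hA hB
    by_cases g1 : x ∈ S1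
    · by_cases g2 : x ∈ S2
      · by_cases g3 : x ∈ S3
        · by_cases g4 : x ∈ S4
          · linarith [ind_of_notMem fun g5 => h5 g5 ⟨iff_of_true g1 g4, iff_of_true g2 g3, fun _ => g1⟩]
          · linarith [ind_of_notMem g4]
        · linarith [ind_of_notMem g3]
      · linarith [ind_of_notMem g2]
    · linarith [ind_of_notMem g1]
  · have := e2 (Or.inl hA)
    have g2 : x ∉ S2 := fun h => hB (c2 h)
    have g3 : x ∉ S3 := fun h => hB (hAD hA (c3 h))
    have := ind_of_notMem g2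
    have := ind_of_notMem g3
    by_cases g1 : x ∈ S1
    · by_cases g4 : x ∈ S4
      · linarith [ind_of_notMem fun g5 => h5 g5 ⟨iff_of_true g1 g4, iff_of_false g2 g3, fun _ => g1⟩]
      · linarith [ind_of_notMem g4]
    · linarith [ind_of_notMem g1]
  · have := e2 (Or.inr (Or.inl hB))
    linarith [ind_of_notMem fun h => hA (c1 h), ind_of_notMem fun h => hA (c4 h),
      ind_of_notMem fun h => hA (hBD hB (c3 h))]
  · have g1 : x ∉ S1 := fun h => hA (c1 h)
    have g2 : x ∉ S2 := fun h => hB (c2 h)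
    have g4 : x ∉ S4 := fun h => hA (c4 h)
    have := ind_of_notMem g1
    have := ind_of_notMem g2
    have := ind_of_notMem g4
    by_cases g3 : x ∈ S3
    · linarith [e2 (Or.inr (Or.inr (c3 g3)))]
    · linarith [ind_of_notMem g3, ind_of_notMem fun g5 =>
        h5 g5 ⟨iff_of_false g1 g4, iff_of_false g2 g3, fun h => absurd h g2⟩]

variable {Γ X : Type} [Group Γ] [MulAction Γ X] [MeasurableSpace X] [MeasurableConstSMul Γ X]

theorem core_bound {V E : Type} [Fintype V] [Fintype E] (H : LG Γ X V E) {ι : FA →* Γ}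
    (hι : Function.Injective ι) (hfree : ∀ (g : Γ) (x : X), g • x = x → g = 1)
    {μ : Measure X} [IsProbabilityMeasure μ] [SMulInvariantMeasure Γ X μ] {C : ℝ} (hC : 0 < C)
    (hexp : ∀ S : Set X, MeasurableSet S → μ.real S * (1 - μ.real S) ≤
      C * (μ.real {z | (ι fa)⁻¹ • z ∈ S ∧ z ∉ S} + μ.real {z | z ∈ S ∧ (ι fb)⁻¹ • z ∉ S}))
    (hl : ∀ e, ∃ c, H.lab e = ι (FreeGroup.of c)) {p q : V} {a0 a1 b0 b1 : E} (hne : a0 ≠ a1)
    (la0 : H.lab a0 = ι fa) (lb0 : H.lab b0 = ι fb) (la1 : H.lab a1 = ι fa) (lb1 : H.lab b1 = ι fb)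
    (sa0 : H.src a0 = H.o) (ta0 : H.tgt a0 = H.o) (sa1 : H.src a1 = p) (ta1 : H.tgt a1 = q)
    (sb0 : H.src b0 = p) (tb0 : H.tgt b0 = H.o) (sb1 : H.src b1 = q) (tb1 : H.tgt b1 = p)
    (pa0 : ∀ x, x ∈ H.PE a0) (pa1 : ∀ x, x ∈ H.PE a1) (pb0 : ∀ x, x ∈ H.PE b0)
    (pb1 : ∀ x, x ∈ H.PE b1) (hfull : ∀ x u, x ∈ H.PV u → H.conn ∅ (x, u) (x, H.o)) :
    1 / (2 * (48 * C + 6)) < H.val μ - 2 := by
  classical
  by_contra hm
  push Not at hm
  set m := H.val μ - 2 with hmdef
  have : Nonempty E := ⟨a0⟩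
  obtain ⟨sc, hsc⟩ := exists_sched (E × E × Bool)
  have hab : ι fa ≠ ι fb := fun h => by
    have := FreeGroup.of_injective (hι h)
    simp at this
  have hlim : ∀ x u, x ∈ H.PV u → ∃ n, (H.st sc n x).1 u = (H.st sc n x).1 H.o :=
    fun x u hu => LG.st_tree hsc hι hfree hl (hfull x u hu)
  have hp : ∀ x, x ∈ H.PV p := fun x => sa1 ▸ H.src_mem a1 x (pa1 x)
  have hq : ∀ x, x ∈ H.PV q := fun x => sb1 ▸ H.src_mem b1 x (pb1 x)
  let Sa : ℕ → Set X := fun n => {x | (H.st sc n x).2 a0 = (H.st sc n x).2 a1}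
  let Sb : ℕ → Set X := fun n => {x | (H.st sc n x).2 b0 = (H.st sc n x).2 b1}
  let NT : ℕ → Set X := fun n => {x | (H.st sc n x).1 H.o = (H.st sc n x).1 p ∨
    (H.st sc n x).1 H.o = (H.st sc n x).1 q}
  have mSa : ∀ n, MeasurableSet (Sa n) := fun n => (LG.st_fib n).set fun c => c.2 a0 = c.2 a1
  have mSb : ∀ n, MeasurableSet (Sb n) := fun n => (LG.st_fib n).set fun c => c.2 b0 = c.2 b1
  have mNT : ∀ n, MeasurableSet (NT n) := fun n =>
    (LG.st_fib n).set fun c => c.1 H.o = c.1 p ∨ c.1 H.o = c.1 q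
  have key : ∀ n, μ.real (Sa n) * (1 - μ.real (Sa n)) ≤ C * (6 * m) ∧
      μ.real (NT n) ≤ 2 * μ.real (Sa n) + 3 * m := by
    intro n
    let rv : X → ℝ := fun x => ((({H.o, p, q} : Finset V).image (H.st sc n x).1).card : ℝ)
    let re : X → ℝ := fun x => ((({a0, a1, b0, b1} : Finset E).image (H.st sc n x).2).card : ℝ)
    have irv : Integrable rv μ :=
      (LG.st_fib n).integrable fun c => ((({H.o, p, q} : Finset V).image c.1).card : ℝ)
    have ire : Integrable re μ :=
      (LG.st_fib n).integrable fun c => ((({a0, a1, b0, b1} : Finset E).image c.2).card : ℝ)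
    have h1 : ∫ x, re x ∂μ - ∫ x, rv x ∂μ ≤ H.val μ - 1 := by
      refine LG.real_count (o := H.o) ?_ (by simp) ?_ ?_ hlim n
      · intro r hr σ
        simp only [Finset.mem_insert, Finset.mem_singleton] at hr
        rcases hr with rfl | rfl | rfl | rfl <;> cases σ <;> simp [LG.en, *]
      · intro u hu
        simp only [Finset.mem_insert, Finset.mem_singleton] at hu
        rcases hu with rfl | rfl | rfl
        exacts [H.PV_o, hp, hq]
      · intro u hu
        simp only [Finset.mem_insert, Finset.mem_singleton] at hu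
        rcases hu with rfl | rfl | rfl | rfl
        exacts [pa0, pa1, pb0, pb1]
    have hinv := LG.st_inv (H := H) (sc := sc) n
    let Bad : Set X := {x | ¬ ((x ∈ Sa n ↔ (ι fb)⁻¹ • x ∈ Sb n) ∧
      ((ι fa)⁻¹ • x ∈ Sa n ↔ x ∈ Sb n) ∧ ((ι fa)⁻¹ • x ∈ Sa n → x ∈ Sa n))}
    have mBad : MeasurableSet Bad :=
      (((mSa n).iff (measurableSet_pre (mSb n) _)).inter
        (((measurableSet_pre (mSa n) _).iff (mSb n)).inter
          ((measurableSet_pre (mSa n) _).imp (mSa n)))).compl
    have h2 := sum_measure_le_of_pointwise (μ := μ)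
      ![Sa n, {x | (ι fa)⁻¹ • x ∈ Sa n}, Sb n, {x | (ι fb)⁻¹ • x ∈ Sb n}, Bad]
      (fun i => by
        fin_cases i
        exacts [mSa n, measurableSet_pre (mSa n) _, mSb n, measurableSet_pre (mSb n) _, mBad])
      (fun x => 6 - 2 * rv x) ((integrable_const _).sub (irv.const_mul _)) (fun x => by
        have c1 : x ∈ Sa n → (H.st sc n x).1 H.o = (H.st sc n x).1 p := fun h => by
          simpa [LG.sh, LG.en, sa0, sa1] using (hinv x _ _ h).2 false
        have c2 : (ι fa)⁻¹ • x ∈ Sa n → (H.st sc n x).1 H.o = (H.st sc n x).1 q := fun h => by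
          simpa [LG.sh, LG.en, ta0, ta1, la0] using (hinv _ _ _ h).2 true
        have c3 : x ∈ Sb n → (H.st sc n x).1 p = (H.st sc n x).1 q := fun h => by
          simpa [LG.sh, LG.en, sb0, sb1] using (hinv x _ _ h).2 false
        have c4 : (ι fb)⁻¹ • x ∈ Sb n → (H.st sc n x).1 H.o = (H.st sc n x).1 p := fun h => by
          simpa [LG.sh, LG.en, tb0, tb1, lb0] using (hinv _ _ _ h).2 true
        obtain ⟨d1, d2, d3⟩ :=
          card_three ((H.st sc n x).1 H.o) ((H.st sc n x).1 p) ((H.st sc n x).1 q)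
        have e : rv x = (({(H.st sc n x).1 H.o, (H.st sc n x).1 p, (H.st sc n x).1 q} :
          Finset V).card : ℝ) := by simp only [rv, Finset.image_insert, Finset.image_singleton]
        rw [e]
        simp only [Fin.sum_univ_five, Matrix.cons_val]
        exact ind_five c1 c2 c3 c4 id (fun h h' => h.trans h') (fun h h' => h.trans h'.symm)
          d1 d2 d3)
    have h3 := sum_measure_le_of_pointwise (μ := μ) ![NT n] (fun i => by fin_cases i; exact mNT n)
      (fun x => 3 - rv x) ((integrable_const _).sub irv) (fun x => by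
        obtain ⟨d1, d2, d3⟩ :=
          card_three ((H.st sc n x).1 H.o) ((H.st sc n x).1 p) ((H.st sc n x).1 q)
        have e : rv x = (({(H.st sc n x).1 H.o, (H.st sc n x).1 p, (H.st sc n x).1 q} :
          Finset V).card : ℝ) := by simp only [rv, Finset.image_insert, Finset.image_singleton]
        rw [e]
        simp only [Fin.sum_univ_one, Matrix.cons_val]
        by_cases hx : x ∈ NT n
        · have d4 := d2 (hx.elim Or.inl fun h => Or.inr (Or.inl h))
          rw [ind_of_mem hx, le_sub_iff_add_le]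
          norm_cast
          omega
        · rw [ind_of_notMem hx, sub_nonneg]
          exact_mod_cast d1)
    have h4 : ∫ x, (4 - re x) ∂μ ≤ ∫ x, (ind (Sa n) x + ind (Sb n) x) ∂μ := by
      refine integral_mono ((integrable_const _).sub ire)
        ((integrable_ind (mSa n)).add (integrable_ind (mSb n))) fun x => ?_
      have c : ∀ e e', H.lab e = ι fa → H.lab e' = ι fb →
          (H.st sc n x).2 e ≠ (H.st sc n x).2 e' := fun e e' h h' h'' =>
        hab (h.symm.trans ((hinv x e e' h'').1.trans h'))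
      have d := card_four (c _ _ la0 lb0) (c _ _ la0 lb1) (c _ _ la1 lb0) (c _ _ la1 lb1)
      have d' : (4 : ℝ) ≤ re x + ind (Sa n) x + ind (Sb n) x := by
        simp only [re, Finset.image_insert, Finset.image_singleton]
        split_ifs at d with d1 d2 d2
        · rw [ind_of_mem (S := Sa n) d1, ind_of_mem (S := Sb n) d2]
          exact_mod_cast d
        · rw [ind_of_mem (S := Sa n) d1, ind_of_notMem (S := Sb n) d2]
          exact_mod_cast d
        · rw [ind_of_notMem (S := Sa n) d1, ind_of_mem (S := Sb n) d2]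
          exact_mod_cast d
        · rw [ind_of_notMem (S := Sa n) d1, ind_of_notMem (S := Sb n) d2]
          exact_mod_cast d
      simp only
      linarith
    rw [integral_add (integrable_ind (mSa n)) (integrable_ind (mSb n)), integral_ind (mSa n),
      integral_ind (mSb n), integral_sub (integrable_const _) ire] at h4
    rw [integral_sub (integrable_const _) (irv.const_mul _), integral_const_mul] at h2
    rw [integral_sub (integrable_const _) irv] at h3
    simp only [Fin.sum_univ_five, Fin.sum_univ_one, Matrix.cons_val, real_pre, integral_const,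
      probReal_univ, smul_eq_mul, one_mul] at h2 h3 h4
    have h5 : μ.real Bad ≤ 2 * m := by linarith
    have h6 : μ.real {z | (ι fa)⁻¹ • z ∈ Sa n ∧ z ∉ Sa n} ≤ μ.real Bad :=
      measureReal_mono fun z hz h => hz.2 (h.2.2 hz.1)
    have h7 : μ.real {z | z ∈ Sa n ∧ (ι fb)⁻¹ • z ∉ Sa n} ≤
        μ.real Bad + μ.real {z | (ι fb)⁻¹ • z ∈ Bad} := by
      refine (measureReal_mono fun z hz => ?_).trans (measureReal_union_le _ _)
      by_contra h
      simp only [Set.mem_union, not_or, Bad, Set.mem_ofPred_eq, not_not] at h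
      exact hz.2 (h.2.2.2 (h.2.2.1.2 (h.1.1.1 hz.1)))
    have h8 : μ.real (Sb n) ≤ μ.real {z | (ι fa)⁻¹ • z ∈ Sa n} + μ.real Bad := by
      refine (measureReal_mono fun z hz => ?_).trans (measureReal_union_le _ _)
      by_contra h
      simp only [Set.mem_union, not_or, Bad, Set.mem_ofPred_eq, not_not] at h
      exact h.1 (h.2.2.1.2 hz)
    rw [real_pre] at h7 h8
    exact ⟨(hexp _ (mSa n)).trans (mul_le_mul_of_nonneg_left (by linarith) hC.le), by linarith⟩
  have grow : ∀ n, μ.real (Sa (n + 1)) ≤ 2 * μ.real (NT n) := by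
    intro n
    have h1 : μ.real (Sa (n + 1)) ≤ μ.real (NT n) + μ.real {x | ι fa • x ∈ NT n} := by
      refine (measureReal_mono fun z hz => ?_).trans (measureReal_union_le _ _)
      obtain ⟨_ | _, h⟩ := (LG.st_inv (H := H) (sc := sc) n).back hz
      · exact Or.inl (Or.inl (by simpa [LG.sh, LG.en, sa0, sa1] using h))
      · exact Or.inr (Or.inr (by simpa [LG.sh, LG.en, ta0, ta1, la0] using h))
    rw [real_pre] at h1
    linarith
  have half : ∀ n, μ.real (Sa n) ≤ 1 / 2 := by
    intro n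
    induction n with
    | zero =>
      have : Sa 0 = ∅ := Set.eq_empty_of_forall_notMem fun x hx => hne hx
      rw [this, measureReal_empty]
      norm_num
    | succ n ih =>
      have h1 := grow n
      obtain ⟨h2, h3⟩ := key n
      have h4 : 0 ≤ μ.real (Sa n) := measureReal_nonneg
      have h5 : μ.real (Sa n) ≤ 12 * C * m := by nlinarith
      rw [le_div_iff₀ (by positivity)] at hm
      nlinarith
  have hanti : Antitone fun n => (Sa n)ᶜ := fun n k hnk x hx h => hx (LG.st_mono2 hnk h)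
  have h0 : ⋂ n, (Sa n)ᶜ = ∅ := by
    ext x
    simp only [Set.mem_iInter, Set.mem_empty_iff_false, iff_false, not_forall, Set.mem_compl_iff,
      not_not]
    obtain ⟨n, hn⟩ := hlim x p (hp x)
    exact LG.st_fold (σ := false) (n := n) hsc (pa0 x) (pa1 x) (la0.trans la1.symm)
      (by simpa [LG.sh, LG.en, sa0, sa1] using hn.symm)
  obtain ⟨n, hn⟩ := small_tail (μ := μ) (fun n => (Sa n)ᶜ) (fun n => (mSa n).compl) hanti
    (by rw [h0, measure_empty]) (δ := 1 / 4) (by norm_num)
  rw [probReal_compl_eq_one_sub (mSa n)] at hn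
  linarith [half n]

omit [MeasurableConstSMul Γ X] in
/-- The graph together with the core graph of the subgroup generated by `a` and `u`. -/
def LG.ext {T E : Type} (G : LG Γ X T E) (a b : Γ) : LG Γ X (T ⊕ Bool) (E ⊕ Bool × Bool) where
  o := Sum.inl G.o
  PV := Sum.elim G.PV fun _ => Set.univ
  PE := Sum.elim G.PE fun _ => Set.univ
  lab := Sum.elim G.lab fun c => cond c.1 b a
  src := Sum.elim (fun ε => Sum.inl (G.src ε)) fun c =>
    cond c.1 (Sum.inr c.2) (cond c.2 (Sum.inr false) (Sum.inl G.o))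
  tgt := Sum.elim (fun ε => Sum.inl (G.tgt ε)) fun c =>
    cond c.2 (Sum.inr (!c.1)) (Sum.inl G.o)
  mPV := by
    rintro (τ | _)
    exacts [G.mPV τ, MeasurableSet.univ]
  mPE := by
    rintro (τ | _)
    exacts [G.mPE τ, MeasurableSet.univ]
  PV_o := G.PV_o
  src_mem := by
    rintro (ε | ⟨_ | _, _ | _⟩) x hx
    exacts [G.src_mem ε x hx, G.PV_o x, trivial, trivial, trivial]
  tgt_mem := by
    rintro (ε | ⟨_ | _, _ | _⟩) x hx
    exacts [G.tgt_mem ε x hx, G.PV_o _, trivial, G.PV_o _, trivial]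

theorem level2 {ι : FA →* Γ}
    (hι : Function.Injective ι) (hfree : ∀ (g : Γ) (x : X), g • x = x → g = 1)
    {μ : Measure X} [IsProbabilityMeasure μ] [SMulInvariantMeasure Γ X μ] {C : ℝ} (hC : 0 < C)
    (hexp : ∀ S : Set X, MeasurableSet S → μ.real S * (1 - μ.real S) ≤
      C * (μ.real {z | (ι fa)⁻¹ • z ∈ S ∧ z ∉ S} + μ.real {z | z ∈ S ∧ (ι fb)⁻¹ • z ∉ S}))
    {m : ℝ} (h : Has μ {ι fa, ι fu} (ι fb) (fun g => g ∈ ({ι fa, ι fb} : Set Γ)) m) :
    1 / (2 * (48 * C + 6)) < m := by
  obtain ⟨T, E, _, _, G, h1, h2, h3⟩ := h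
  let H := G.ext (ι fa) (ι fb)
  have hE := H.conn_equiv ∅
  have a0 : ∀ x, H.conn ∅ (x, H.o) (ι fa • x, H.o) := fun x =>
    LG.conn_edge (G := H) ∅ (ε := Sum.inr (false, false)) trivial
  have a1 : ∀ x, H.conn ∅ (x, Sum.inr false) (ι fa • x, Sum.inr true) := fun x =>
    LG.conn_edge (G := H) ∅ (ε := Sum.inr (false, true)) trivial
  have b0 : ∀ x, H.conn ∅ (x, Sum.inr false) (ι fb • x, H.o) := fun x =>
    LG.conn_edge (G := H) ∅ (ε := Sum.inr (true, false)) trivial
  have b1 : ∀ x, H.conn ∅ (x, Sum.inr true) (ι fb • x, Sum.inr false) := fun x =>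
    LG.conn_edge (G := H) ∅ (ε := Sum.inr (true, true)) trivial
  have htr : ∀ v w, G.conn {ι fa, ι fu} v w → H.conn ∅ (v.1, Sum.inl v.2) (w.1, Sum.inl w.2) := by
    intro v w h
    refine LG.conn_map hE (fun v => (v.1, Sum.inl v.2))
      (fun ε x hx => LG.conn_edge (G := H) ∅ (ε := Sum.inl ε) hx) ?_ h
    rintro r (rfl | rfl) x
    · exact a0 x
    · have c := b0 ((ι fb)⁻¹ • x)
      rw [smul_inv_smul] at c
      have d := hE.trans (hE.symm c) (hE.trans (a1 _) (hE.trans (b1 _) (b0 _)))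
      simp only [fu, map_mul, map_inv, mul_smul]
      exact d
  have hb : ∀ x, H.conn ∅ (x, H.o) (ι fb • x, H.o) := fun x => htr _ _ (h1 x).2
  have hp : ∀ x, H.conn ∅ (x, Sum.inr false) (x, H.o) := fun x => hE.trans (b0 x) (hE.symm (hb x))
  have h4 := core_bound H hι hfree hC hexp (p := Sum.inr false) (q := Sum.inr true)
    (a0 := Sum.inr (false, false)) (a1 := Sum.inr (false, true)) (b0 := Sum.inr (true, false))
    (b1 := Sum.inr (true, true)) ?_ (by simp) rfl rfl rfl rfl rfl rfl rfl rfl rfl rfl rfl rfl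
    (fun _ => trivial) (fun _ => trivial) (fun _ => trivial) (fun _ => trivial) ?_
  · have e : H.val μ = G.val μ + 2 := by
      simp only [LG.val, H, LG.ext, Fintype.sum_sum_type, Sum.elim_inl, Sum.elim_inr,
        probReal_univ, Finset.sum_const, Finset.card_univ, Fintype.card_prod, Fintype.card_bool]
      norm_num
      ring
    linarith
  · rintro (ε | ⟨_ | _, _⟩)
    · rcases h2 ε with h | h
      exacts [⟨0, h⟩, ⟨1, h⟩]
    exacts [⟨0, rfl⟩, ⟨1, rfl⟩]
  · rintro x (τ | _ | _) hτ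
    · exact htr _ _ ((h1 x).1 τ hτ)
    · exact hp x
    · exact hE.trans (b1 x) (hE.trans (hp _) (hE.symm (hb x)))

end

end Vale.Agent.P189
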