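import Mathlib

/-!
Definitions for problem P189: graphings, cost, essentially free p.m.p. actions.
-/

namespace Vale.Agent.P189

open MeasureTheory

noncomputable section

variable (Γ : Type) {X : Type} [Group Γ] [MulAction Γ X] [MeasurableSpace X] (μ : Measure X)

/-- The action is by measure-preserving Borel maps. -/
def IsPMP : Prop := ∀ g : Γ, MeasurePreserving (fun x : X => g • x) μ μ

/-- The action is essentially free: every `g ≠ 1` fixes only a null set of points. -/
def EssFree : Prop := ∀ g : Γ, g ≠ 1 → μ {x : X | g • x = x} = 0

/-- A graphing of the orbit equivalence relation: a countable family of measure-preserving Borel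
bijections `map i : dom i → cod i` between Borel sets, moving each point inside its orbit.
(Finite families are obtained by taking empty domains.) -/
structure Graphing where
  dom : ℕ → Set X
  cod : ℕ → Set X
  map : ℕ → X → X
  measurableSet_dom : ∀ i, MeasurableSet (dom i)
  measurableSet_cod : ∀ i, MeasurableSet (cod i)
  measurable_map : ∀ i, Measurable (map i)
  bijOn : ∀ i, Set.BijOn (map i) (dom i) (cod i)
  measurePreserving : ∀ i, MeasurePreserving (map i) (μ.restrict (dom i)) (μ.restrict (cod i))
  mem_orbit : ∀ i, ∀ x ∈ dom i, ∃ g : Γ, map i x = g • x

variable {Γ μ}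

/-- The graphing generates: for almost every `x`, every point of the orbit of `x` is reached from
`x` by a finite chain of the partial maps and their inverses. -/
def Graphing.Generates (Φ : Graphing Γ μ) : Prop :=
  ∀ᵐ x ∂μ, ∀ g : Γ, Relation.EqvGen (fun y z : X => ∃ i, y ∈ Φ.dom i ∧ Φ.map i y = z) x (g • x)

/-- The cost of a graphing: the sum of the measures of the domains. -/
def Graphing.cost (Φ : Graphing Γ μ) : ENNReal := ∑' i, μ (Φ.dom i)

variable (Γ μ)

/-- The cost of the action: the infimum of the costs of generating graphings. -/
def actionCost : ENNReal := ⨅ (Φ : Graphing Γ μ) (_ : Φ.Generates), Φ.cost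

end

end Vale.Agent.P189
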