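import Vale.Agent.P189.Graph

/-!
Elementary foldings of a labelled graph and the associated counts.
-/

namespace Vale.Agent.P189

open MeasureTheory Relation Filter Topology

noncomputable section

section Count

variable {V : Type} [DecidableEq V]

/-- Merge the classes of `i` and `j`. -/
def merge (f : V → V) (i j : V) : V → V := fun k => if f k = f j then f i else f k

theorem merge_mono {f : V → V} {i j k l : V} (h : f k = f l) : merge f i j k = merge f i j l := by
  simp only [merge, h]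

theorem merge_eq (f : V → V) (i j : V) : merge f i j i = merge f i j j := by
  simp only [merge]
  split_ifs <;> rfl

theorem merge_cases {f : V → V} {i j k l : V} (h : merge f i j k = merge f i j l) :
    f k = f l ∨ (f k = f i ∧ f l = f j) ∨ (f k = f j ∧ f l = f i) := by
  simp only [merge] at h
  split_ifs at h with h1 h2 h2
  · exact Or.inl (h1.trans h2.symm)
  · exact Or.inr (Or.inr ⟨h1, h.symm⟩)
  · exact Or.inr (Or.inl ⟨h, h2⟩)
  · exact Or.inl h

/-- Number of classes meeting `P` but not `R`. -/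
def cnt (f : V → V) (P R : Finset V) : ℕ := (P.image f \ R.image f).card

theorem mem_image_merge {f : V → V} {i j : V} {P : Finset V} {l : V} :
    l ∈ P.image (merge f i j) ↔ (l ∈ P.image f ∧ l ≠ f j) ∨ (l = f i ∧ f j ∈ P.image f) := by
  simp only [Finset.mem_image, merge]
  constructor
  · rintro ⟨k, hk, rfl⟩
    split_ifs with h
    · exact Or.inr ⟨rfl, k, hk, h⟩
    · exact Or.inl ⟨⟨k, hk, rfl⟩, h⟩
  · rintro (⟨⟨k, hk, rfl⟩, h⟩ | ⟨rfl, k, hk, h⟩)
    · exact ⟨k, hk, if_neg h⟩
    · exact ⟨k, hk, if_pos h⟩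

theorem cnt_merge_ge (f : V → V) (i j : V) (P R : Finset V) :
    cnt f P R ≤ cnt (merge f i j) P R + 1 := by
  have h : ∃ r, (P.image f \ R.image f).erase r ⊆
      P.image (merge f i j) \ R.image (merge f i j) := by
    by_cases h : f i ∈ P.image f \ R.image f ∧ f j ∉ P.image f \ R.image f
    · refine ⟨f i, fun l hl => ?_⟩
      simp only [Finset.mem_erase, Finset.mem_sdiff, mem_image_merge] at h hl ⊢
      grind
    · refine ⟨f j, fun l hl => ?_⟩
      simp only [Finset.mem_erase, Finset.mem_sdiff, mem_image_merge] at h hl ⊢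
      grind
  obtain ⟨r, hr⟩ := h
  have h1 := Finset.card_le_card hr
  have h2 := Finset.pred_card_le_card_erase (s := P.image f \ R.image f) (a := r)
  unfold cnt
  omega

theorem cnt_merge_real {f : V → V} {i j : V} (P : Finset V) {R : Finset V} (hi : f i ∈ R.image f)
    (hj : f j ∈ R.image f) : cnt f P R ≤ cnt (merge f i j) P R := by
  refine Finset.card_le_card fun l hl => ?_
  simp only [Finset.mem_sdiff, mem_image_merge] at hl ⊢
  grind

theorem cnt_merge_lt {f : V → V} {i j : V} {P R : Finset V} (hi : i ∈ P) (hj : j ∈ P)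
    (hne : f i ≠ f j) (h : ¬ (f i ∈ R.image f ∧ f j ∈ R.image f)) :
    cnt (merge f i j) P R + 1 ≤ cnt f P R := by
  have hi' : f i ∈ P.image f := Finset.mem_image_of_mem f hi
  have hj' : f j ∈ P.image f := Finset.mem_image_of_mem f hj
  have h : ∃ r ∈ P.image f \ R.image f, P.image (merge f i j) \ R.image (merge f i j) ⊆
      (P.image f \ R.image f).erase r := by
    by_cases h2 : f j ∈ R.image f
    · refine ⟨f i, Finset.mem_sdiff.2 ⟨hi', fun h3 => h ⟨h3, h2⟩⟩, fun l hl => ?_⟩
      simp only [Finset.mem_erase, Finset.mem_sdiff, mem_image_merge] at hl ⊢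
      grind
    · refine ⟨f j, Finset.mem_sdiff.2 ⟨hj', h2⟩, fun l hl => ?_⟩
      simp only [Finset.mem_erase, Finset.mem_sdiff, mem_image_merge] at hl ⊢
      grind
  obtain ⟨r, hr, hr'⟩ := h
  have h1 := Finset.card_le_card hr'
  have h2 := Finset.card_erase_add_one hr
  unfold cnt
  omega

theorem cnt_merge_le {f : V → V} {i j : V} {P R : Finset V} (hi : i ∈ P) :
    cnt (merge f i j) P R ≤ cnt f P R := by
  have hi' : f i ∈ P.image f := Finset.mem_image_of_mem f hi
  by_cases h2 : f i ∈ R.image f ∨ f j ∉ R.image f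
  · refine Finset.card_le_card fun l hl => ?_
    simp only [Finset.mem_sdiff, mem_image_merge] at hl ⊢
    grind
  · refine Finset.card_le_card fun l hl => ?_
    simp only [Finset.mem_sdiff, mem_image_merge] at hl ⊢
    grind

theorem cnt_add (f : V → V) {P R : Finset V} (h : R ⊆ P) :
    cnt f P ∅ = cnt f P R + (R.image f).card := by
  simp only [cnt, Finset.image_empty, Finset.sdiff_empty]
  exact (Finset.card_sdiff_add_card_eq_card (Finset.image_subset_image h)).symm

theorem cnt_id (P : Finset V) : cnt id P ∅ = P.card := by simp [cnt]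

theorem cnt_le (f : V → V) (P R : Finset V) : cnt f P R ≤ P.card :=
  (Finset.card_le_card Finset.sdiff_subset).trans Finset.card_image_le

theorem cnt_zero {f : V → V} {P R : Finset V} (h : ∀ k ∈ P, ∃ r ∈ R, f r = f k) :
    cnt f P R = 0 := by
  rw [cnt, Finset.card_eq_zero, Finset.sdiff_eq_empty_iff_subset]
  intro l hl
  obtain ⟨k, hk, rfl⟩ := Finset.mem_image.1 hl
  exact Finset.mem_image.2 (h k hk)

end Count

section Fib

variable {X : Type} [MeasurableSpace X]

/-- A function with measurable fibres. -/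
def Fib {S : Type} (f : X → S) : Prop := ∀ c, MeasurableSet {x | f x = c}

theorem Fib.set {S : Type} [Countable S] {f : X → S} (hf : Fib f) (P : S → Prop) :
    MeasurableSet {x | P (f x)} := by
  have : {x | P (f x)} = ⋃ (c : S) (_ : P c), {x | f x = c} := by
    ext x
    simp
  rw [this]
  exact MeasurableSet.iUnion fun c => MeasurableSet.iUnion fun _ => hf c

theorem Fib.comp {S S' : Type} [Countable S] {f : X → S} (hf : Fib f) (F : S → S') :
    Fib fun x => F (f x) := fun c => hf.set fun s => F s = c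

theorem Fib.prod {S S' : Type} {f : X → S} {g : X → S'} (hf : Fib f) (hg : Fib g) :
    Fib fun x => (f x, g x) := fun c => by
  have : {x | (f x, g x) = c} = {x | f x = c.1} ∩ {x | g x = c.2} := by
    ext x
    simp [Prod.ext_iff]
  rw [this]
  exact (hf _).inter (hg _)

theorem Fib.ite {S : Type} {f g : X → S} (hf : Fib f) (hg : Fib g) {D : X → Prop}
    [DecidablePred D] (hD : MeasurableSet {x | D x}) : Fib fun x => if D x then f x else g x :=
  fun c => by
  have : {x | (if D x then f x else g x) = c} =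
      ({x | D x} ∩ {x | f x = c}) ∪ ({x | D x}ᶜ ∩ {x | g x = c}) := by
    ext x
    by_cases h : D x <;> simp [h]
  rw [this]
  exact (hD.inter (hf c)).union (hD.compl.inter (hg c))

theorem Fib.const {S : Type} (c : S) : Fib fun _ : X => c := fun _ => MeasurableSet.const _

theorem Fib.smul {Γ : Type} [Group Γ] [MulAction Γ X] [MeasurableConstSMul Γ X] {S : Type}
    {f : X → S} (hf : Fib f) (g : Γ) : Fib fun x => f (g • x) :=
  fun c => measurableSet_pre (hf c) g

theorem Fib.measurable {S : Type} [Countable S] {f : X → S} (hf : Fib f) (F : S → ℝ) :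
    Measurable fun x => F (f x) := fun _ _ => hf.set fun s => F s ∈ _

theorem Fib.integrable {μ : Measure X} [IsFiniteMeasure μ] {S : Type} [Finite S] {f : X → S}
    (hf : Fib f) (F : S → ℝ) : Integrable (fun x => F (f x)) μ := by
  obtain ⟨C, hC⟩ := (Set.finite_range fun s => ‖F s‖).bddAbove
  exact Integrable.of_bound (hf.measurable F).aestronglyMeasurable C
    (Eventually.of_forall fun x => hC ⟨_, rfl⟩)

open Classical in
/-- The finite set of types present at a point. -/
def pres {T : Type} [Fintype T] (P : T → Set X) (x : X) : Finset T :=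
  Finset.univ.filter fun τ => x ∈ P τ

omit [MeasurableSpace X] in
theorem mem_pres {T : Type} [Fintype T] {P : T → Set X} {x : X} {τ : T} :
    τ ∈ pres P x ↔ x ∈ P τ := by simp [pres]

theorem fib_pres {T : Type} [Fintype T] {P : T → Set X} (hP : ∀ τ, MeasurableSet (P τ)) :
    Fib (pres P) := fun c => by
  have : {x | pres P x = c} = ⋂ τ, {x | x ∈ P τ ↔ τ ∈ c} := by
    ext x
    simp only [Set.mem_ofPred_eq, Set.mem_iInter, Finset.ext_iff, mem_pres]
  rw [this]
  exact MeasurableSet.iInter fun τ => (hP τ).iff (MeasurableSet.const _)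

theorem integral_card_pres {μ : Measure X} [IsProbabilityMeasure μ] {T : Type} [Fintype T]
    {P : T → Set X} (hP : ∀ τ, MeasurableSet (P τ)) :
    ∫ x, ((pres P x).card : ℝ) ∂μ = ∑ τ, μ.real (P τ) := by
  classical
  simp only [← integral_ind (hP _)]
  rw [← integral_finsetSum _ fun i _ => integrable_ind (hP i)]
  refine integral_congr_ae (Eventually.of_forall fun x => ?_)
  simp only [pres, Finset.card_filter]
  push_cast
  refine Finset.sum_congr rfl fun τ _ => ?_
  split_ifs with h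
  · exact (ind_of_mem h).symm
  · exact (ind_of_notMem h).symm

end Fib

variable {Γ X : Type} [Group Γ] [MulAction Γ X] [MeasurableSpace X] {V E : Type}

namespace LG

variable (H : LG Γ X V E)

/-- The type of an end of an edge. -/
def en (σ : Bool) (e : E) : V := cond σ (H.tgt e) (H.src e)

/-- The location of an end of an edge. -/
def sh (σ : Bool) (e : E) : Γ := cond σ (H.lab e) 1

theorem sh_eq {e e' : E} (h : H.lab e = H.lab e') (σ : Bool) : H.sh σ e = H.sh σ e' := by
  simp only [sh, h]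

variable [DecidableEq V] [DecidableEq E]

/-- The set where a fold is performed. -/
def fset (s : X → (V → V) × (E → E)) (p : E × E × Bool) : Set X :=
  {x | x ∈ H.PE p.1 ∧ x ∈ H.PE p.2.1 ∧ H.lab p.1 = H.lab p.2.1 ∧
    (s (H.sh p.2.2 p.1 • x)).1 (H.en p.2.2 p.1) = (s (H.sh p.2.2 p.1 • x)).1 (H.en p.2.2 p.2.1) ∧
    (s x).2 p.1 ≠ (s x).2 p.2.1}

open Classical in
/-- One elementary fold. -/
def fstep (s : X → (V → V) × (E → E)) (p : E × E × Bool) (x : X) : (V → V) × (E → E) :=
  (if (H.sh (!p.2.2) p.1)⁻¹ • x ∈ H.fset s p then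
      merge (s x).1 (H.en (!p.2.2) p.1) (H.en (!p.2.2) p.2.1) else (s x).1,
    if x ∈ H.fset s p then merge (s x).2 p.1 p.2.1 else (s x).2)

/-- The invariant: identified edges have the same label and identified ends. -/
def FInv (s : X → (V → V) × (E → E)) : Prop :=
  ∀ x e e', (s x).2 e = (s x).2 e' → H.lab e = H.lab e' ∧
    ∀ σ, (s (H.sh σ e • x)).1 (H.en σ e) = (s (H.sh σ e • x)).1 (H.en σ e')

variable {H} {s : X → (V → V) × (E → E)} {p : E × E × Bool}

theorem fstep_mono1 {x : X} {u v : V} (h : (s x).1 u = (s x).1 v) :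
    (H.fstep s p x).1 u = (H.fstep s p x).1 v := by
  simp only [fstep]
  split_ifs
  exacts [merge_mono h, h]

theorem fstep_mono2 {x : X} {u v : E} (h : (s x).2 u = (s x).2 v) :
    (H.fstep s p x).2 u = (H.fstep s p x).2 v := by
  simp only [fstep]
  split_ifs
  exacts [merge_mono h, h]

theorem fstep_done {x : X} (h : x ∈ H.fset s p) :
    (H.fstep s p x).2 p.1 = (H.fstep s p x).2 p.2.1 := by
  simp only [fstep, if_pos h]
  exact merge_eq _ _ _

theorem fstep_fst_pos {x : X} (h : x ∈ H.fset s p) : (H.fstep s p (H.sh (!p.2.2) p.1 • x)).1 =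
    merge (s (H.sh (!p.2.2) p.1 • x)).1 (H.en (!p.2.2) p.1) (H.en (!p.2.2) p.2.1) :=
  if_pos (by rwa [inv_smul_smul])

theorem fstep_fst_neg {x : X} (h : x ∉ H.fset s p) : (H.fstep s p (H.sh (!p.2.2) p.1 • x)).1 =
    (s (H.sh (!p.2.2) p.1 • x)).1 :=
  if_neg (by rwa [inv_smul_smul])

theorem fstep_ends {x : X} (h : x ∈ H.fset s p) (σ : Bool) :
    (H.fstep s p (H.sh σ p.1 • x)).1 (H.en σ p.1) =
      (H.fstep s p (H.sh σ p.1 • x)).1 (H.en σ p.2.1) := by
  by_cases hσ : σ = p.2.2
  · subst hσ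
    exact fstep_mono1 h.2.2.2.1
  · obtain rfl : σ = !p.2.2 := Bool.eq_not_of_ne hσ
    rw [fstep_fst_pos h]
    exact merge_eq _ _ _

theorem fstep_cases {x : X} {e e' : E} (h : (H.fstep s p x).2 e = (H.fstep s p x).2 e') :
    (s x).2 e = (s x).2 e' ∨ (x ∈ H.fset s p ∧
      (((s x).2 e = (s x).2 p.1 ∧ (s x).2 e' = (s x).2 p.2.1) ∨
        ((s x).2 e = (s x).2 p.2.1 ∧ (s x).2 e' = (s x).2 p.1))) := by
  simp only [fstep] at h
  split_ifs at h with hx
  · rcases merge_cases h with h | h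
    exacts [Or.inl h, Or.inr ⟨hx, h⟩]
  · exact Or.inl h

theorem FInv.step (hs : H.FInv s) : H.FInv (H.fstep s p) := by
  intro x e e' h
  rcases fstep_cases h with h | ⟨hx, ⟨h1, h2⟩ | ⟨h1, h2⟩⟩
  · exact ⟨(hs x e e' h).1, fun σ => fstep_mono1 ((hs x e e' h).2 σ)⟩
  · obtain ⟨a1, a2⟩ := hs x _ _ h1
    obtain ⟨b1, b2⟩ := hs x _ _ h2
    refine ⟨a1.trans (hx.2.2.1.trans b1.symm), fun σ => ?_⟩
    have c1 := fstep_mono1 (H := H) (p := p) (a2 σ)
    have c2 := fstep_mono1 (H := H) (p := p) (b2 σ)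
    have c3 := fstep_ends hx σ
    rw [H.sh_eq (b1.trans hx.2.2.1.symm)] at c2
    rw [H.sh_eq a1] at c1 ⊢
    exact c1.trans (c3.trans c2.symm)
  · obtain ⟨a1, a2⟩ := hs x _ _ h1
    obtain ⟨b1, b2⟩ := hs x _ _ h2
    refine ⟨a1.trans (hx.2.2.1.symm.trans b1.symm), fun σ => ?_⟩
    have c1 := fstep_mono1 (H := H) (p := p) (a2 σ)
    have c2 := fstep_mono1 (H := H) (p := p) (b2 σ)
    have c3 := fstep_ends hx σ
    rw [H.sh_eq b1] at c2
    rw [H.sh_eq (a1.trans hx.2.2.1.symm)] at c1 ⊢
    exact c1.trans (c3.symm.trans c2.symm)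

theorem FInv.back (hs : H.FInv s) {x : X} {e e' : E}
    (h : (H.fstep s p x).2 e = (H.fstep s p x).2 e') :
    ∃ σ, (s (H.sh σ e • x)).1 (H.en σ e) = (s (H.sh σ e • x)).1 (H.en σ e') := by
  rcases fstep_cases h with h | ⟨hx, ⟨h1, h2⟩ | ⟨h1, h2⟩⟩
  · exact ⟨true, (hs x e e' h).2 _⟩
  · obtain ⟨a1, a2⟩ := hs x _ _ h1
    obtain ⟨b1, b2⟩ := hs x _ _ h2
    refine ⟨p.2.2, ?_⟩
    have c1 := a2 p.2.2
    have c2 := b2 p.2.2
    rw [H.sh_eq (b1.trans hx.2.2.1.symm)] at c2
    rw [H.sh_eq a1] at c1 ⊢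
    exact c1.trans (hx.2.2.2.1.trans c2.symm)
  · obtain ⟨a1, a2⟩ := hs x _ _ h1
    obtain ⟨b1, b2⟩ := hs x _ _ h2
    refine ⟨p.2.2, ?_⟩
    have c1 := a2 p.2.2
    have c2 := b2 p.2.2
    rw [H.sh_eq b1] at c2
    rw [H.sh_eq (a1.trans hx.2.2.1.symm)] at c1 ⊢
    exact c1.trans (hx.2.2.2.1.symm.trans c2.symm)

variable [Fintype V] [Fintype E] [MeasurableConstSMul Γ X]

omit [DecidableEq V] [DecidableEq E] in
theorem measurableSet_fset (hs : Fib s) : MeasurableSet (H.fset s p) :=
  (H.mPE _).inter ((H.mPE _).inter ((MeasurableSet.const _).inter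
    (((hs.smul _).set fun c => c.1 (H.en p.2.2 p.1) = c.1 (H.en p.2.2 p.2.1)).inter
      (hs.set fun c => c.2 p.1 ≠ c.2 p.2.1))))

theorem fib_fstep (hs : Fib s) : Fib (H.fstep s p) := by
  classical
  exact Fib.prod (Fib.ite (hs.comp fun c => merge c.1 _ _) (hs.comp fun c => c.1)
    (measurableSet_pre (measurableSet_fset hs) _))
    (Fib.ite (hs.comp fun c => merge c.2 _ _) (hs.comp fun c => c.2) (measurableSet_fset hs))

variable (H) in
/-- Extra edge classes minus extra vertex classes. -/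
def pot (μ : Measure X) (RV : Finset V) (RE : Finset E) (s : X → (V → V) × (E → E)) : ℝ :=
  ∫ x, (cnt (s x).2 (pres H.PE x) RE : ℝ) ∂μ - ∫ x, (cnt (s x).1 (pres H.PV x) RV : ℝ) ∂μ

omit [MeasurableConstSMul Γ X] [DecidableEq V] in
theorem integrable_cnt2 {μ : Measure X} [IsFiniteMeasure μ] (hs : Fib s) (RE : Finset E) :
    Integrable (fun x => (cnt (s x).2 (pres H.PE x) RE : ℝ)) μ :=
  (hs.prod (fib_pres H.mPE)).integrable fun c => (cnt c.1.2 c.2 RE : ℝ)

omit [MeasurableConstSMul Γ X] [DecidableEq E] in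
theorem integrable_cnt1 {μ : Measure X} [IsFiniteMeasure μ] (hs : Fib s) (RV : Finset V) :
    Integrable (fun x => (cnt (s x).1 (pres H.PV x) RV : ℝ)) μ :=
  (hs.prod (fib_pres H.mPV)).integrable fun c => (cnt c.1.1 c.2 RV : ℝ)

theorem pot_step {μ : Measure X} [IsProbabilityMeasure μ] [SMulInvariantMeasure Γ X μ]
    {RV : Finset V} {RE : Finset E} (hR : ∀ r ∈ RE, ∀ σ, H.en σ r ∈ RV) (hs : Fib s)
    (hi : H.FInv s) : H.pot μ RV RE (H.fstep s p) ≤ H.pot μ RV RE s := by
  let D : Set X := H.fset s p ∩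
    {x | ¬ ((s x).2 p.1 ∈ RE.image (s x).2 ∧ (s x).2 p.2.1 ∈ RE.image (s x).2)}
  have hD : MeasurableSet D := (measurableSet_fset hs).inter
    (hs.set fun c => ¬ (c.2 p.1 ∈ RE.image c.2 ∧ c.2 p.2.1 ∈ RE.image c.2))
  have hs' : Fib (H.fstep s p) := fib_fstep hs
  have h1 : ∀ x, (cnt (H.fstep s p x).2 (pres H.PE x) RE : ℝ) + ind D x ≤
      cnt (s x).2 (pres H.PE x) RE := by
    intro x
    by_cases hx : x ∈ H.fset s p
    · simp only [fstep, if_pos hx]
      by_cases hx' : x ∈ D
      · rw [ind_of_mem hx']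
        exact_mod_cast cnt_merge_lt (mem_pres.2 hx.1) (mem_pres.2 hx.2.1) hx.2.2.2.2 hx'.2
      · rw [ind_of_notMem hx', add_zero]
        exact_mod_cast cnt_merge_le (mem_pres.2 hx.1)
    · simp only [fstep, if_neg hx]
      rw [ind_of_notMem fun h => hx h.1, add_zero]
  have h2 : ∀ y, (cnt (s y).1 (pres H.PV y) RV : ℝ) ≤ cnt (H.fstep s p y).1 (pres H.PV y) RV +
      ind {y | (H.sh (!p.2.2) p.1)⁻¹ • y ∈ D} y := by
    intro y
    obtain ⟨x, rfl⟩ : ∃ x, y = H.sh (!p.2.2) p.1 • x := ⟨_, (smul_inv_smul _ y).symm⟩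
    by_cases hx : x ∈ H.fset s p
    · rw [fstep_fst_pos hx]
      by_cases hx' : x ∈ D
      · rw [ind_of_mem (by simpa using hx')]
        exact_mod_cast cnt_merge_ge _ _ _ _ _
      · rw [ind_of_notMem (by simpa using hx'), add_zero]
        have h3 : (s x).2 p.1 ∈ RE.image (s x).2 ∧ (s x).2 p.2.1 ∈ RE.image (s x).2 := by
          by_contra h
          exact hx' ⟨hx, h⟩
        obtain ⟨r, hr, hr'⟩ := Finset.mem_image.1 h3.1
        obtain ⟨r2, hr2, hr2'⟩ := Finset.mem_image.1 h3.2
        have a := (hi x _ _ hr'.symm).2 (!p.2.2)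
        have b := (hi x _ _ hr2'.symm).2 (!p.2.2)
        rw [← H.sh_eq hx.2.2.1] at b
        exact_mod_cast cnt_merge_real _ (Finset.mem_image.2 ⟨_, hR r hr _, a.symm⟩)
          (Finset.mem_image.2 ⟨_, hR r2 hr2 _, b.symm⟩)
    · rw [fstep_fst_neg hx]
      exact le_add_of_nonneg_right (ind_nonneg _ _)
  have i1 := integral_mono ((integrable_cnt2 (μ := μ) hs' RE).add (integrable_ind hD))
    (integrable_cnt2 hs RE) h1
  have i2 := integral_mono (integrable_cnt1 (μ := μ) hs RV)
    ((integrable_cnt1 hs' RV).add (integrable_ind (measurableSet_pre hD _))) h2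
  simp only [Pi.add_apply] at i1 i2
  rw [integral_add (integrable_cnt2 hs' RE) (integrable_ind hD), integral_ind hD] at i1
  rw [integral_add (integrable_cnt1 hs' RV) (integrable_ind (measurableSet_pre hD _)),
    integral_ind (measurableSet_pre hD _), real_pre] at i2
  unfold pot
  linarith

end LG

end

end Vale.Agent.P189
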