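import Vale.Agent.P189.Basic

/-!
Labelled graphs over an action: truncation, subdivision and reorientation.
-/

namespace Vale.Agent.P189

open MeasureTheory Relation Filter Topology

noncomputable section

theorem eqvGen_map {α β : Type} {r : α → α → Prop} {s : β → β → Prop} (hs : Equivalence s)
    (φ : α → β) (h : ∀ a b, r a b → s (φ a) (φ b)) {a b : α} (hab : EqvGen r a b) :
    s (φ a) (φ b) := by
  induction hab with
  | rel a b hab => exact h a b hab
  | refl => exact hs.refl _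
  | symm a b _ ih => exact hs.symm ih
  | trans a b c _ _ h1 h2 => exact hs.trans h1 h2

theorem equiv_exists {α : Type} {r : ℕ → α → α → Prop} (h : ∀ n, Equivalence (r n))
    (hm : Monotone r) : Equivalence fun a b => ∃ n, r n a b :=
  ⟨fun a => ⟨0, (h 0).refl a⟩, fun ⟨n, hn⟩ => ⟨n, (h n).symm hn⟩, fun ⟨n, hn⟩ ⟨m, hm'⟩ =>
    ⟨max n m, (h _).trans (hm (le_max_left n m) _ _ hn) (hm (le_max_right n m) _ _ hm')⟩⟩

theorem exists_sched (P : Type) [Countable P] [Nonempty P] :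
    ∃ s : ℕ → P, ∀ p n, ∃ m, n ≤ m ∧ s m = p := by
  obtain ⟨f, hf⟩ := exists_surjective_nat P
  refine ⟨fun m => f (Nat.unpair m).1, fun p n => ?_⟩
  obtain ⟨k, rfl⟩ := hf p
  exact ⟨Nat.pair k n, Nat.right_le_pair k n, by simp⟩

/-- A labelled graph over the action, with vertex types `T` and edge types `E`. -/
structure LG (Γ X T E : Type) [Group Γ] [MulAction Γ X] [MeasurableSpace X] where
  o : T
  PV : T → Set X
  PE : E → Set X
  lab : E → Γ
  src : E → T
  tgt : E → T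
  mPV : ∀ τ, MeasurableSet (PV τ)
  mPE : ∀ ε, MeasurableSet (PE ε)
  PV_o : ∀ x, x ∈ PV o
  src_mem : ∀ ε, ∀ x ∈ PE ε, x ∈ PV (src ε)
  tgt_mem : ∀ ε, ∀ x ∈ PE ε, lab ε • x ∈ PV (tgt ε)

variable {Γ X : Type} [Group Γ] [MulAction Γ X] [MeasurableSpace X]

namespace LG

variable {T E : Type} (G : LG Γ X T E)

/-- The edges of the graph. -/
def edge (v w : X × T) : Prop :=
  ∃ ε, v.2 = G.src ε ∧ v.1 ∈ G.PE ε ∧ w = (G.lab ε • v.1, G.tgt ε)

/-- The free edges between distinguished vertices. -/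
def real (R : Set Γ) (v w : X × T) : Prop := ∃ r ∈ R, v.2 = G.o ∧ w = (r • v.1, G.o)

/-- Connectivity. -/
def conn (R : Set Γ) : X × T → X × T → Prop := EqvGen fun v w => G.edge v w ∨ G.real R v w

/-- Everything at `x` is connected. -/
def FullAt (R : Set Γ) (b : Γ) (x : X) : Prop :=
  (∀ τ, x ∈ G.PV τ → G.conn R (x, τ) (x, G.o)) ∧ G.conn R (x, G.o) (b • x, G.o)

/-- Edges minus extra vertices. -/
def val [Fintype T] [Fintype E] (μ : Measure X) : ℝ :=
  ∑ ε, μ.real (G.PE ε) - ∑ τ, μ.real (G.PV τ) + 1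

theorem conn_equiv (R : Set Γ) : Equivalence (G.conn R) := EqvGen.is_equivalence _

variable {G}

theorem conn_edge (R : Set Γ) {ε : E} {x : X} (h : x ∈ G.PE ε) :
    G.conn R (x, G.src ε) (G.lab ε • x, G.tgt ε) := EqvGen.rel _ _ (Or.inl ⟨ε, rfl, h, rfl⟩)

theorem conn_real {R : Set Γ} {r : Γ} (h : r ∈ R) (x : X) :
    G.conn R (x, G.o) (r • x, G.o) := EqvGen.rel _ _ (Or.inr ⟨r, h, rfl, rfl⟩)

theorem conn_map {β : Type} {s : β → β → Prop} (hs : Equivalence s) {R : Set Γ} (φ : X × T → β)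
    (h1 : ∀ ε, ∀ x ∈ G.PE ε, s (φ (x, G.src ε)) (φ (G.lab ε • x, G.tgt ε)))
    (h2 : ∀ r ∈ R, ∀ x, s (φ (x, G.o)) (φ (r • x, G.o))) {v w : X × T} (h : G.conn R v w) :
    s (φ v) (φ w) := by
  refine eqvGen_map hs φ ?_ h
  rintro ⟨x, τ⟩ w (⟨ε, h3, h4, rfl⟩ | ⟨r, hr, h3, rfl⟩)
  · simp only at h3
    subst h3
    exact h1 ε x h4
  · simp only at h3
    subst h3
    exact h2 r hr x

end LG

omit [MeasurableSpace X] in
theorem closure_conn {β : Type} {s : β → β → Prop} (hs : Equivalence s) (φ : X → β) (S : Set Γ)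
    (h : ∀ g ∈ S, ∀ x, s (φ x) (φ (g • x))) {g : Γ} (hg : g ∈ Subgroup.closure S) (x : X) :
    s (φ x) (φ (g • x)) := by
  induction hg using Subgroup.closure_induction generalizing x with
  | mem g hg => exact h g hg x
  | one => rw [one_smul]; exact hs.refl _
  | mul g g' _ _ h1 h2 => rw [mul_smul]; exact hs.trans (h2 x) (h1 _)
  | inv g _ h1 =>
    have := h1 (g⁻¹ • x)
    rw [smul_inv_smul] at this
    exact hs.symm this

theorem LG.conn_closure {T E : Type} {G : LG Γ X T E} {R : Set Γ} {b : Γ}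
    (hG : ∀ x, G.FullAt R b x) {g : Γ} (hg : g ∈ Subgroup.closure (insert b R)) (x : X) :
    G.conn R (x, G.o) (g • x, G.o) := by
  refine closure_conn (G.conn_equiv R) (fun x => (x, G.o)) _ ?_ hg x
  rintro g (rfl | hg) x
  · exact (hG x).2
  · exact LG.conn_real hg x

/-- There is a connected finite-type graph with labels in `Q` and value at most `m`. -/
def Has (μ : Measure X) (R : Set Γ) (b : Γ) (Q : Γ → Prop) (m : ℝ) : Prop :=
  ∃ (T E : Type) (_ : Fintype T) (_ : Fintype E) (G : LG Γ X T E),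
    (∀ x, G.FullAt R b x) ∧ (∀ ε, Q (G.lab ε)) ∧ G.val μ ≤ m

theorem Has.mono {μ : Measure X} {R : Set Γ} {b : Γ} {Q Q' : Γ → Prop} {m m' : ℝ}
    (h : Has μ R b Q m) (hQ : ∀ g, Q g → Q' g) (hm : m ≤ m') : Has μ R b Q' m' := by
  obtain ⟨T, E, _, _, G, h1, h2, h3⟩ := h
  exact ⟨T, E, _, _, G, h1, fun ε => hQ _ (h2 ε), h3.trans hm⟩

theorem MR.single (hfree : ∀ (g : Γ) (x : X), g • x = x → g = 1) {T : Type} {P : Set X}
    (hP : MeasurableSet P) (g0 : Γ) (τ0 τ1 : T) :
    MR Γ fun v w : X × T => v.2 = τ0 ∧ v.1 ∈ P ∧ w = (g0 • v.1, τ1) := by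
  refine ⟨fun v w h => ⟨g0, by rw [h.2.2]⟩, fun g τ τ' => ?_⟩
  by_cases h : τ = τ0 ∧ g = g0 ∧ τ' = τ1
  · obtain ⟨rfl, rfl, rfl⟩ := h
    simpa using hP
  · have : {x : X | τ = τ0 ∧ x ∈ P ∧ (g • x, τ') = (g0 • x, τ1)} = ∅ := by
      ext x
      simp only [Prod.mk.injEq, Set.mem_ofPred_eq, Set.mem_empty_iff_false, iff_false]
      rintro ⟨h1, -, h2, h3⟩
      refine h ⟨h1, ?_, h3⟩
      have := hfree (g0⁻¹ * g) x (by rw [mul_smul, h2, inv_smul_smul])
      rw [inv_mul_eq_one] at this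
      exact this.symm
    rw [this]
    exact MeasurableSet.empty

theorem MR.real [Countable Γ] (hfree : ∀ (g : Γ) (x : X), g • x = x → g = 1) {T E : Type}
    (G : LG Γ X T E) (R : Set Γ) : MR Γ (G.real R) := by
  have h := MR.exists fun r : R => MR.single hfree MeasurableSet.univ (r : Γ) G.o G.o
  have e : G.real R = fun v w : X × T => ∃ r : R, v.2 = G.o ∧ v.1 ∈ Set.univ ∧
      w = ((r : Γ) • v.1, G.o) := by
    ext v w
    simp only [LG.real, Set.mem_univ, true_and, Subtype.exists, exists_prop]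
  rwa [e]

variable [MeasurableConstSMul Γ X]

theorem MR.conn [Countable Γ] (hfree : ∀ (g : Γ) (x : X), g • x = x → g = 1) {T E : Type}
    [Countable T] [Countable E] (G : LG Γ X T E) (R : Set Γ) : MR Γ (G.conn R) :=
  MR.eqvGen hfree ((MR.exists fun ε =>
    MR.single hfree (G.mPE ε) (G.lab ε) (G.src ε) (G.tgt ε)).or (MR.real hfree G R))

theorem LG.measurableSet_full [Countable Γ] (hfree : ∀ (g : Γ) (x : X), g • x = x → g = 1)
    {T E : Type} [Countable T] [Countable E] (G : LG Γ X T E) (R : Set Γ) (b : Γ) :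
    MeasurableSet {x | G.FullAt R b x} := by
  have h := MR.conn hfree G R
  have e : {x | G.FullAt R b x} = (⋂ τ, ((G.PV τ)ᶜ ∪ {x | G.conn R (x, τ) ((1 : Γ) • x, G.o)})) ∩
      {x | G.conn R (x, G.o) (b • x, G.o)} := by
    ext x
    simp only [LG.FullAt, Set.mem_ofPred_eq, one_smul, Set.mem_inter_iff, Set.mem_iInter,
      Set.mem_union, Set.mem_compl_iff, imp_iff_not_or]
  rw [e]
  exact (MeasurableSet.iInter fun τ => (G.mPV τ).compl.union (h.2 _ _ _)).inter (h.2 _ _ _)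

/-- Restriction to the edge types satisfying `p`. -/
def LG.restr {T E : Type} (G : LG Γ X T E) (p : E → Prop) : LG Γ X T {ε // p ε} where
  o := G.o
  PV := G.PV
  PE := fun ε => G.PE ε
  lab := fun ε => G.lab ε
  src := fun ε => G.src ε
  tgt := fun ε => G.tgt ε
  mPV := G.mPV
  mPE := fun ε => G.mPE ε
  PV_o := G.PV_o
  src_mem := fun ε => G.src_mem ε
  tgt_mem := fun ε => G.tgt_mem ε

/-- Adding repair edges on a set `B`. -/
def LG.fix {T E : Type} (G : LG Γ X T E) (b : Γ) (B : Set X) (hB : MeasurableSet B) :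
    LG Γ X T (E ⊕ Option T) where
  o := G.o
  PV := G.PV
  PE := Sum.elim G.PE fun ν => ν.elim B fun τ => B ∩ G.PV τ
  lab := Sum.elim G.lab fun ν => ν.elim b fun _ => 1
  src := Sum.elim G.src fun ν => ν.elim G.o id
  tgt := Sum.elim G.tgt fun _ => G.o
  mPV := G.mPV
  mPE := by
    rintro (ε | _ | τ)
    exacts [G.mPE ε, hB, hB.inter (G.mPV τ)]
  PV_o := G.PV_o
  src_mem := by
    rintro (ε | _ | τ) x hx
    exacts [G.src_mem ε x hx, G.PV_o x, hx.2]
  tgt_mem := by
    rintro (ε | _ | τ) x hx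
    exacts [G.tgt_mem ε x hx, G.PV_o _, G.PV_o _]

theorem has_of_countable [Countable Γ] (hfree : ∀ (g : Γ) (x : X), g • x = x → g = 1)
    {μ : Measure X} [IsProbabilityMeasure μ] {T E : Type} [Fintype T] [Countable E]
    (G : LG Γ X T E) {R : Set Γ} {b : Γ} (hG : ∀ᵐ x ∂μ, G.FullAt R b x) {Q : Γ → Prop}
    (hQ : ∀ ε, Q (G.lab ε)) (h1 : Q 1) (hb : Q b) {s δ : ℝ} (hδ : 0 < δ)
    (hs : ∀ F : Finset E, ∑ ε ∈ F, μ.real (G.PE ε) ≤ s) :
    Has μ R b Q (s - ∑ τ, μ.real (G.PV τ) + 1 + δ) := by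
  classical
  obtain ⟨e, he⟩ := exists_injective_nat E
  let H : ∀ N : ℕ, LG Γ X T {ε // e ε < N} := fun N => G.restr fun ε => e ε < N
  have hmono : Monotone fun N => (H N).conn R := by
    intro N M hNM v w h
    exact LG.conn_map (G := H N) ((H M).conn_equiv R) id
      (fun ε x hx => LG.conn_edge (G := H M) R (ε := ⟨ε.1, lt_of_lt_of_le ε.2 hNM⟩) hx)
      (fun r hr x => LG.conn_real (G := H M) hr x) h
  have hlim : ∀ v w, G.conn R v w → ∃ N, (H N).conn R v w := fun v w h =>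
    LG.conn_map (equiv_exists (fun N => (H N).conn_equiv R) hmono) id
      (fun ε x hx => ⟨e ε + 1, LG.conn_edge (G := H (e ε + 1)) R (ε := ⟨ε, Nat.lt_succ_self _⟩) hx⟩)
      (fun r hr x => ⟨0, LG.conn_real (G := H 0) hr x⟩) h
  let B : ℕ → Set X := fun N => {x | (H N).FullAt R b x}ᶜ
  have hB : ∀ N, MeasurableSet (B N) := fun N => ((H N).measurableSet_full hfree R b).compl
  have hanti : Antitone B := fun N M hNM x hx h =>
    hx ⟨fun τ hτ => hmono hNM _ _ (h.1 τ hτ), hmono hNM _ _ h.2⟩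
  have h0 : μ (⋂ N, B N) = 0 := by
    refine measure_mono_null ?_ (ae_iff.1 hG)
    intro x hx h
    have h2 : ∀ τ, ∃ N, x ∈ G.PV τ → (H N).conn R (x, τ) (x, G.o) := fun τ => by
      by_cases hτ : x ∈ G.PV τ
      · obtain ⟨N, hN⟩ := hlim _ _ (h.1 τ hτ)
        exact ⟨N, fun _ => hN⟩
      · exact ⟨0, fun h => absurd h hτ⟩
    choose n hn using h2
    obtain ⟨N, hN⟩ := hlim _ _ h.2
    obtain ⟨M, hM⟩ := (Set.finite_range n).bddAbove
    refine Set.mem_iInter.1 hx (max M N) ⟨fun τ hτ => ?_, hmono (le_max_right _ _) _ _ hN⟩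
    exact hmono ((hM ⟨τ, rfl⟩).trans (le_max_left _ _)) _ _ (hn τ hτ)
  have hc : (0 : ℝ) < Fintype.card T + 1 := by positivity
  obtain ⟨N, hN⟩ := small_tail B hB hanti h0 (div_pos hδ hc)
  have hfin : {ε | e ε < N}.Finite := (Set.finite_lt_nat N).preimage he.injOn
  have : Fintype {ε // e ε < N} := hfin.fintype
  let G' := (H N).fix b (B N) (hB N)
  have htr : ∀ v w, (H N).conn R v w → G'.conn R v w := fun v w h =>
    LG.conn_map (G'.conn_equiv R) id (fun ε x hx => LG.conn_edge (G := G') R (ε := Sum.inl ε) hx)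
      (fun r hr x => LG.conn_real (G := G') hr x) h
  refine ⟨T, _, inferInstance, inferInstance, G', fun x => ?_, ?_, ?_⟩
  · by_cases hx : x ∈ B N
    · refine ⟨fun τ hτ => ?_, LG.conn_edge (G := G') R (ε := Sum.inr none) hx⟩
      have := LG.conn_edge (G := G') R (ε := Sum.inr (some τ)) (x := x) ⟨hx, hτ⟩
      change G'.conn R (x, τ) ((1 : Γ) • x, G'.o) at this
      rwa [one_smul] at this
    · have hx' : (H N).FullAt R b x := not_not.1 hx
      exact ⟨fun τ hτ => htr _ _ (hx'.1 τ hτ), htr _ _ hx'.2⟩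
  · rintro (ε | _ | τ)
    exacts [hQ ε, hb, h1]
  · have e1 : ∑ ε : {ε // e ε < N}, μ.real (G.PE ε) ≤ s := by
      have := hs (Finset.univ.map (Function.Embedding.subtype fun ε => e ε < N))
      rwa [Finset.sum_map] at this
    have e2 : ∑ ν : Option T, μ.real (G'.PE (Sum.inr ν)) ≤ δ := by
      have : ∀ ν : Option T, μ.real (G'.PE (Sum.inr ν)) ≤ δ / (Fintype.card T + 1) := by
        rintro (_ | τ)
        · exact hN
        · exact (measureReal_mono Set.inter_subset_left).trans hN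
      refine (Finset.sum_le_sum fun ν _ => this ν).trans (le_of_eq ?_)
      simp only [Finset.sum_const, Finset.card_univ, Fintype.card_option, nsmul_eq_mul]
      push_cast
      field_simp
    have e3 : G'.val μ = ∑ ε : {ε // e ε < N}, μ.real (G.PE ε) +
        ∑ ν : Option T, μ.real (G'.PE (Sum.inr ν)) - ∑ τ, μ.real (G.PV τ) + 1 := by
      rw [LG.val, Fintype.sum_sum_type]
      rfl
    linarith

/-- Subdivision of the edges of the types satisfying `β`. -/
def LG.split {T E : Type} (G : LG Γ X T E) (β : E → Prop) [DecidablePred β] (s g : E → Γ)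
    (h1 : ∀ ε, β ε → G.lab ε = s ε * g ε) (h2 : ∀ ε, ¬ β ε → G.lab ε = g ε) :
    LG Γ X (T ⊕ E) (E ⊕ E) where
  o := Sum.inl G.o
  PV := Sum.elim G.PV fun ε => {y | β ε ∧ (g ε)⁻¹ • y ∈ G.PE ε}
  PE := Sum.elim G.PE fun ε => {y | β ε ∧ (g ε)⁻¹ • y ∈ G.PE ε}
  lab := Sum.elim g s
  src := Sum.elim (fun ε => Sum.inl (G.src ε)) Sum.inr
  tgt := Sum.elim (fun ε => if β ε then Sum.inr ε else Sum.inl (G.tgt ε))
    fun ε => Sum.inl (G.tgt ε)
  mPV := by
    rintro (τ | ε)
    exacts [G.mPV τ, (MeasurableSet.const _).inter (measurableSet_pre (G.mPE ε) _)]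
  mPE := by
    rintro (τ | ε)
    exacts [G.mPE τ, (MeasurableSet.const _).inter (measurableSet_pre (G.mPE ε) _)]
  PV_o := G.PV_o
  src_mem := by
    rintro (ε | ε) x hx
    exacts [G.src_mem ε x hx, hx]
  tgt_mem := by
    rintro (ε | ε) x hx
    · by_cases h : β ε
      · simp only [Sum.elim_inl, if_pos h, Sum.elim_inr, Set.mem_ofPred_eq, inv_smul_smul]
        exact ⟨h, hx⟩
      · simp only [Sum.elim_inl, if_neg h, ← h2 ε h]
        exact G.tgt_mem ε x hx
    · have := G.tgt_mem ε _ hx.2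
      rw [h1 ε hx.1, mul_smul, smul_inv_smul] at this
      exact this

/-- Products of at most `n + 1` (and at least one) elements satisfying `S`. -/
def Wd (S : Γ → Prop) : ℕ → Γ → Prop
  | 0, g => S g
  | n + 1, g => Wd S n g ∨ ∃ s g', S s ∧ Wd S n g' ∧ g = s * g'

omit [MeasurableConstSMul Γ X] in
theorem Wd.mono {S : Γ → Prop} {n m : ℕ} (h : n ≤ m) {g : Γ} (hg : Wd S n g) : Wd S m g := by
  induction h with
  | refl => exact hg
  | step _ ih => exact Or.inl ih

theorem Wd.mem {S : Γ → Prop} {H : Subgroup Γ} (hS : ∀ g, S g → g ∈ H) {n : ℕ} {g : Γ}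
    (hg : Wd S n g) : g ∈ H := by
  induction n generalizing g with
  | zero => exact hS g hg
  | succ n ih =>
    rcases hg with hg | ⟨s, g', h1, h2, rfl⟩
    · exact ih hg
    · exact mul_mem (hS s h1) (ih h2)

theorem Wd.exists {S : Set Γ} (hS : S.Nonempty) {g : Γ} (hg : g ∈ Subgroup.closure S) :
    ∃ n, Wd (fun s => s ∈ S ∨ s⁻¹ ∈ S) n g := by
  induction hg using Subgroup.closure_induction_left with
  | one =>
    obtain ⟨s, hs⟩ := hS
    exact ⟨1, Or.inr ⟨s, s⁻¹, Or.inl hs, Or.inr (by simpa using hs), by simp⟩⟩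
  | mul_left s hs g _ ih =>
    obtain ⟨n, hn⟩ := ih
    exact ⟨n + 1, Or.inr ⟨s, g, Or.inl hs, hn, rfl⟩⟩
  | inv_mul_cancel s hs g _ ih =>
    obtain ⟨n, hn⟩ := ih
    exact ⟨n + 1, Or.inr ⟨s⁻¹, g, Or.inr (by simpa using hs), hn, rfl⟩⟩

theorem Has.split {μ : Measure X} {R : Set Γ} {b : Γ} {S : Γ → Prop}
    (hS : ∀ g, S g → g ∈ Subgroup.closure (insert b R)) {n : ℕ} {m : ℝ}
    (h : Has μ R b (Wd S (n + 1)) m) : Has μ R b (Wd S n) m := by
  classical
  obtain ⟨T, E, _, _, G, h1, h2, h3⟩ := h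
  have h4 : ∀ ε, ∃ (β : Prop) (s g : Γ), (β → G.lab ε = s * g) ∧ (¬ β → G.lab ε = g) ∧
      Wd S n s ∧ Wd S n g := fun ε => by
    rcases h2 ε with h | ⟨s, g', h5, h6, h7⟩
    · exact ⟨False, _, _, False.elim, fun _ => rfl, h, h⟩
    · exact ⟨True, s, g', fun _ => h7, fun h => absurd trivial h, Wd.mono (Nat.zero_le n) h5, h6⟩
  choose β s g h5 h6 h7 h8 using h4
  let G' := G.split β s g h5 h6
  have hE := G'.conn_equiv R
  have a1 : ∀ ε, β ε → ∀ x ∈ G.PE ε,
      G'.conn R (x, Sum.inl (G.src ε)) (g ε • x, Sum.inr ε) := fun ε hε x hx => by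
    have := LG.conn_edge (G := G') R (ε := Sum.inl ε) hx
    simp only [G', LG.split, Sum.elim_inl, if_pos hε] at this
    exact this
  have htr : ∀ v w, G.conn R v w → G'.conn R (v.1, Sum.inl v.2) (w.1, Sum.inl w.2) := by
    intro v w h
    refine LG.conn_map hE (fun v => (v.1, Sum.inl v.2)) (fun ε x hx => ?_)
      (fun r hr x => LG.conn_real (G := G') hr x) h
    by_cases hε : β ε
    · refine hE.trans (a1 ε hε x hx) ?_
      have := LG.conn_edge (G := G') R (ε := Sum.inr ε) (x := g ε • x)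
        ⟨hε, by rw [inv_smul_smul]; exact hx⟩
      rw [h5 ε hε, mul_smul]
      exact this
    · have := LG.conn_edge (G := G') R (ε := Sum.inl ε) hx
      simp only [G', LG.split, Sum.elim_inl, if_neg hε] at this
      rw [h6 ε hε]
      exact this
  refine ⟨_, _, inferInstance, inferInstance, G', fun x => ⟨?_, htr _ _ (h1 x).2⟩, ?_, ?_⟩
  · rintro (τ | ε) hτ
    · exact htr _ _ ((h1 x).1 τ hτ)
    · have b1 := a1 ε hτ.1 _ hτ.2
      have b2 := htr _ _ ((h1 _).1 _ (G.src_mem ε _ hτ.2))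
      have b3 := htr _ _ (LG.conn_closure h1 (Wd.mem hS (h8 ε)) ((g ε)⁻¹ • x))
      rw [smul_inv_smul] at b1 b3
      exact hE.trans (hE.symm b1) (hE.trans b2 b3)
  · rintro (ε | ε)
    exacts [h8 ε, h7 ε]
  · refine le_trans (le_of_eq ?_) h3
    simp only [LG.val, Fintype.sum_sum_type, G', LG.split, Sum.elim_inl, Sum.elim_inr]
    ring

/-- Reorientation of the edges of the types satisfying `β`. -/
def LG.flip {T E : Type} (G : LG Γ X T E) (β : E → Prop) [DecidablePred β] : LG Γ X T E where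
  o := G.o
  PV := G.PV
  PE := fun ε => if β ε then {y | (G.lab ε)⁻¹ • y ∈ G.PE ε} else G.PE ε
  lab := fun ε => if β ε then (G.lab ε)⁻¹ else G.lab ε
  src := fun ε => if β ε then G.tgt ε else G.src ε
  tgt := fun ε => if β ε then G.src ε else G.tgt ε
  mPV := G.mPV
  mPE := fun ε => by
    split_ifs
    exacts [measurableSet_pre (G.mPE ε) _, G.mPE ε]
  PV_o := G.PV_o
  src_mem := fun ε x hx => by
    split_ifs at hx ⊢
    · have := G.tgt_mem ε _ hx
      rwa [smul_inv_smul] at this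
    · exact G.src_mem ε x hx
  tgt_mem := fun ε x hx => by
    split_ifs at hx ⊢
    · exact G.src_mem ε _ hx
    · exact G.tgt_mem ε x hx

theorem Has.flip {μ : Measure X} [SMulInvariantMeasure Γ X μ] {R : Set Γ} {b : Γ} {S : Set Γ}
    {m : ℝ} (h : Has μ R b (fun s => s ∈ S ∨ s⁻¹ ∈ S) m) : Has μ R b (fun s => s ∈ S) m := by
  classical
  obtain ⟨T, E, _, _, G, h1, h2, h3⟩ := h
  let G' := G.flip fun ε => G.lab ε ∉ S
  have hE := G'.conn_equiv R
  have htr : ∀ v w, G.conn R v w → G'.conn R v w := by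
    intro v w h
    refine LG.conn_map (G := G) hE id (fun ε x hx => ?_)
      (fun r hr x => LG.conn_real (G := G') hr x) h
    by_cases hε : G.lab ε ∉ S
    · have := LG.conn_edge (G := G') R (ε := ε) (x := G.lab ε • x)
        (by simp only [G', LG.flip, if_pos hε, Set.mem_ofPred_eq, inv_smul_smul]; exact hx)
      simp only [G', LG.flip, if_pos hε, inv_smul_smul] at this
      exact hE.symm this
    · have := LG.conn_edge (G := G') R (ε := ε) (x := x)
        (by simp only [G', LG.flip, if_neg hε]; exact hx)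
      simp only [G', LG.flip, if_neg hε] at this
      exact this
  refine ⟨_, _, inferInstance, inferInstance, G',
    fun x => ⟨fun τ hτ => htr _ _ ((h1 x).1 τ hτ), htr _ _ (h1 x).2⟩, fun ε => ?_, ?_⟩
  · by_cases hε : G.lab ε ∉ S
    · simp only [G', LG.flip, if_pos hε]
      exact (h2 ε).resolve_left hε
    · simp only [G', LG.flip, if_neg hε]
      exact not_not.1 hε
  · refine le_trans (le_of_eq ?_) h3
    simp only [LG.val, G', LG.flip]
    congr 2
    refine Finset.sum_congr rfl fun ε _ => ?_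
    split_ifs
    · rfl
    · exact real_pre _ _

theorem Has.letters {μ : Measure X} [SMulInvariantMeasure Γ X μ] {R : Set Γ} {b : Γ} {S : Set Γ}
    (hne : S.Nonempty) (hS : S ⊆ Subgroup.closure (insert b R)) {m : ℝ}
    (h : Has μ R b (fun g => g ∈ Subgroup.closure S) m) : Has μ R b (fun s => s ∈ S) m := by
  have h1 : ∃ n, Has μ R b (Wd (fun s => s ∈ S ∨ s⁻¹ ∈ S) n) m := by
    obtain ⟨T, E, _, _, G, h1, h2, h3⟩ := h
    choose n hn using fun ε => Wd.exists hne (h2 ε)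
    obtain ⟨M, hM⟩ := (Set.finite_range n).bddAbove
    exact ⟨M, T, E, _, _, G, h1, fun ε => (hn ε).mono (hM ⟨ε, rfl⟩), h3⟩
  obtain ⟨n, hn⟩ := h1
  refine Has.flip ?_
  induction n with
  | zero => exact hn
  | succ n ih =>
    refine ih (hn.split fun g hg => ?_)
    rcases hg with hg | hg
    · exact hS hg
    · exact inv_mem_iff.1 (hS hg)

end

end Vale.Agent.P189
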