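import Vale.Agent.P189.Defs

/-!
The group used for problem P189: the HNN extension of the free group `F(a,b)` in which the stable
letter centralises the subgroup generated by `a` and `u = b b a b⁻¹`.
-/

namespace Vale.Agent.P189

/-- The free group on two letters. -/
abbrev FA : Type := FreeGroup (Fin 2)

/-- The first generator. -/
def fa : FA := FreeGroup.of 0

/-- The second generator. -/
def fb : FA := FreeGroup.of 1

/-- The element `b b a b⁻¹`. -/
def fu : FA := fb * fb * fa * fb⁻¹

/-- The subgroup generated by `a` and `u`. -/
def JJ : Subgroup FA := Subgroup.closure {fa, fu}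

/-- The HNN extension. -/
abbrev Gam : Type := HNNExtension FA JJ JJ (MulEquiv.refl JJ)

/-- The inclusion of the free group. -/
abbrev io : FA →* Gam := HNNExtension.of

/-- The stable letter. -/
abbrev gt : Gam := HNNExtension.t

theorem io_injective : Function.Injective io := HNNExtension.of_injective _

theorem gt_comm {j : FA} (hj : j ∈ JJ) : gt * io j = io j * gt :=
  HNNExtension.t_mul_of (φ := MulEquiv.refl JJ) ⟨j, hj⟩

theorem fa_mem : fa ∈ JJ := Subgroup.subset_closure (by simp)

theorem fu_mem : fu ∈ JJ := Subgroup.subset_closure (by simp)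

theorem closure_fa_fb : Subgroup.closure ({fa, fb} : Set FA) = ⊤ := by
  rw [← FreeGroup.closure_range_of]
  congr 1
  ext x
  simp [fa, fb, Fin.exists_fin_two, eq_comm]

/-- The group is generated by `a`, `b` and `t`. -/
theorem closure_gens : Subgroup.closure ({io fa, io fb, gt} : Set Gam) = ⊤ := by
  rw [eq_top_iff]
  intro g hg
  clear hg
  induction g using HNNExtension.induction_on with
  | of g =>
    have h : g ∈ Subgroup.closure ({fa, fb} : Set FA) := by rw [closure_fa_fb]; trivial
    have h2 := Subgroup.mem_map_of_mem io h
    rw [MonoidHom.map_closure] at h2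
    refine Subgroup.closure_mono ?_ h2
    rintro _ ⟨y, hy, rfl⟩
    rcases hy with rfl | rfl <;> simp
  | t => exact Subgroup.subset_closure (by simp)
  | mul x y hx hy => exact mul_mem hx hy
  | inv x hx => exact inv_mem hx

theorem gam_fg : Group.FG Gam :=
  Group.fg_iff.2 ⟨_, closure_gens, Set.toFinite _⟩

instance : Countable Gam := by
  let f : FreeGroup (Fin 3) →* Gam := FreeGroup.lift ![io fa, io fb, gt]
  refine Function.Surjective.countable (f := f) ?_
  rw [← MonoidHom.range_eq_top, eq_top_iff, ← closure_gens, Subgroup.closure_le]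
  rintro _ (rfl | rfl | rfl)
  · exact ⟨FreeGroup.of 0, by simp [f]⟩
  · exact ⟨FreeGroup.of 1, by simp [f]⟩
  · exact ⟨FreeGroup.of 2, by simp [f]⟩

end Vale.Agent.P189
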