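import Vale.Agent.P189.Fold
import Vale.Agent.P189.Grp

/-!
Removing the edges labelled by the stable letter: the weighted merging process.
-/

namespace Vale.Agent.P189

open MeasureTheory Relation Filter Topology

noncomputable section

/-- Parameters of one merging step. -/
structure Par (E : Type) where
  l : Option E
  n : Option E
  j : FA
  md : Option Bool
  k : ℕ
  b : Bool

instance {E : Type} [Countable E] : Countable (Par E) :=
  Function.Injective.countable (f := fun p : Par E => (p.l, p.n, p.j, p.md, p.k, p.b)) (by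
    rintro ⟨⟩ ⟨⟩ h
    simp only [Prod.mk.injEq] at h
    simp only [Par.mk.injEq]
    exact h)

instance {E : Type} : Nonempty (Par E) := ⟨⟨none, none, 1, none, 0, true⟩⟩

/-- Location of the two ends of an edge labelled by the stable letter. -/
def hh (σ : Bool) : Gam := cond σ gt 1

theorem hh_comm {j : FA} (hj : j ∈ JJ) (σ : Bool) : hh σ * io j = io j * hh σ := by
  cases σ
  · simp [hh]
  · exact gt_comm hj

/-- The potential of a weight. -/
def phi (K w : ℕ) : ℝ := if w = 0 then 0 else K + w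

variable {X : Type} [MulAction Gam X] [MeasurableSpace X] {T E : Type}

omit [MulAction Gam X] in
theorem Fib.integrable_bdd {μ : Measure X} [IsFiniteMeasure μ] {S : Type} [Countable S]
    {f : X → S} (hf : Fib f) (F : S → ℝ) (C : ℝ) (h : ∀ x, ‖F (f x)‖ ≤ C) :
    Integrable (fun x => F (f x)) μ :=
  Integrable.of_bound (hf.measurable F).aestronglyMeasurable C (Eventually.of_forall h)

omit [MulAction Gam X] in
theorem fib_pi {ι S : Type} [Countable ι] {f : X → ι → S} (h : ∀ i, Fib fun x => f x i) :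
    Fib f := fun c => by
  have : {x | f x = c} = ⋂ i, {x | f x i = c i} := by
    ext x
    simp [funext_iff]
  rw [this]
  exact MeasurableSet.iInter fun i => h i (c i)

/-- A state: weights of the nodes and the current connectivity relation. -/
abbrev KSt (X T E : Type) : Type := (X → Option E → ℕ) × (X × T → X × T → Prop)

namespace LG

variable (G : LG Gam X T E)

/-- Type of an end of a node. -/
def en' (σ : Bool) (ν : Option E) : T := ν.elim G.o (G.en σ)

/-- An end of a node. -/
def nd (σ : Bool) (x : X) (ν : Option E) : X × T := (hh σ • x, G.en' σ ν)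

variable (K : ℕ) (f : X → ℕ → Bool)

/-- The set where a node is removed. -/
def kset (s : KSt X T E) (p : Par E) : Set X :=
  {x | 0 < s.1 x p.l ∧ p.j ∈ JJ ∧ (p.md = none → K ≤ s.1 x p.l ∧ p.n = none) ∧
    ∀ σ, p.md = some σ → s.1 x p.l < K ∧ (p.n = none ∨ 0 < s.1 (io p.j • x) p.n) ∧
      s.2 (G.nd σ x p.l) (G.nd σ (io p.j • x) p.n) ∧ f x p.k = p.b ∧
      (p.l ≠ p.n ∨ f (io p.j • x) p.k ≠ p.b)}

/-- The domain of the new edge on side `σ`. -/
def newE (s : KSt X T E) (p : Par E) (σ : Bool) : Set X :=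
  {y | (hh σ)⁻¹ • y ∈ {x | p.md ≠ some σ ∧ x ∈ G.kset K f s p}}

open Classical in
/-- One merging step. -/
def kstep (s : KSt X T E) (p : Par E) : KSt X T E :=
  (fun y ν => if ν = p.l ∧ y ∈ G.kset K f s p then 0
    else if ν = p.n ∧ ν ≠ none ∧ (io p.j)⁻¹ • y ∈ G.kset K f s p then
      min K (s.1 y ν + s.1 ((io p.j)⁻¹ • y) p.l) else s.1 y ν,
   EqvGen fun v w => s.2 v w ∨ ∃ σ, v.2 = G.en' σ p.l ∧ v.1 ∈ G.newE K f s p σ ∧
     w = (io p.j • v.1, G.en' σ p.n))

variable {G K f} {s : KSt X T E} {p : Par E}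

theorem kset_target {x : X} (h : x ∈ G.kset K f s p) (hn : p.n ≠ none) :
    s.1 x p.l < K ∧ 0 < s.1 (io p.j • x) p.n ∧ ¬ (p.n = p.l ∧ io p.j • x ∈ G.kset K f s p) := by
  obtain ⟨σ, hσ⟩ : ∃ σ, p.md = some σ := by
    rcases hm : p.md with _ | σ
    · exact absurd (h.2.2.1 hm).2 hn
    · exact ⟨σ, rfl⟩
  obtain ⟨h1, h2, -, -, h3⟩ := h.2.2.2 σ hσ
  refine ⟨h1, h2.resolve_left hn, fun h4 => ?_⟩
  rcases h3 with h3 | h3
  · exact h3 h4.1.symm
  · exact h3 (h4.2.2.2.2 σ hσ).2.2.2.1

theorem kstep_pos {y : X} {ν : Option E} (h : 0 < (G.kstep K f s p).1 y ν) : 0 < s.1 y ν := by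
  simp only [kstep] at h
  split_ifs at h with h1 h2
  · exact absurd h (lt_irrefl 0)
  · have := (kset_target h2.2.2 (h2.1 ▸ h2.2.1)).2.1
    rwa [smul_inv_smul, ← h2.1] at this
  · exact h

theorem kstep_le (hs : ∀ y ν, s.1 y ν ≤ K) (y : X) (ν : Option E) :
    (G.kstep K f s p).1 y ν ≤ K := by
  simp only [kstep]
  split_ifs
  exacts [Nat.zero_le _, min_le_left _ _, hs y ν]

theorem kstep_ge (hs : ∀ y ν, s.1 y ν ≤ K) {y : X} {ν : Option E}
    (h : ¬ (ν = p.l ∧ y ∈ G.kset K f s p)) : s.1 y ν ≤ (G.kstep K f s p).1 y ν := by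
  simp only [kstep, if_neg h]
  split_ifs
  exacts [le_min (hs y ν) (Nat.le_add_right _ _), le_rfl]

theorem kstep_kill {y : X} (h : y ∈ G.kset K f s p) : (G.kstep K f s p).1 y p.l = 0 :=
  if_pos ⟨rfl, h⟩

theorem kstep_target {x : X} (h : x ∈ G.kset K f s p) (hn : p.n ≠ none) :
    s.1 x p.l < (G.kstep K f s p).1 (io p.j • x) p.n := by
  obtain ⟨h1, h2, h3⟩ := kset_target h hn
  have h4 : p.n = p.n ∧ p.n ≠ none ∧ (io p.j)⁻¹ • io p.j • x ∈ G.kset K f s p :=
    ⟨rfl, hn, by rwa [inv_smul_smul]⟩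
  have e : (G.kstep K f s p).1 (io p.j • x) p.n =
      min K (s.1 (io p.j • x) p.n + s.1 ((io p.j)⁻¹ • io p.j • x) p.l) :=
    (if_neg h3).trans (if_pos h4)
  rw [e, inv_smul_smul]
  omega

theorem kstep_rel {v w : X × T} (h : s.2 v w) : (G.kstep K f s p).2 v w :=
  EqvGen.rel _ _ (Or.inl h)

theorem kstep_link {x : X} (h : x ∈ G.kset K f s p) (σ : Bool) :
    (G.kstep K f s p).2 (G.nd σ x p.l) (G.nd σ (io p.j • x) p.n) := by
  by_cases hm : p.md = some σ
  · exact kstep_rel (h.2.2.2 σ hm).2.2.1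
  · refine EqvGen.rel _ _ (Or.inr ⟨σ, rfl, ?_, ?_⟩)
    · simp only [newE, nd, Set.mem_ofPred_eq, inv_smul_smul]
      exact ⟨hm, h⟩
    · simp only [nd, ← mul_smul, hh_comm h.2.1]

variable [MeasurableConstSMul Gam X] [Fintype E]

theorem measurableSet_kset (hf : ∀ k, Fib fun x => f x k) (h1 : Fib s.1) (h2 : MR Gam s.2) :
    MeasurableSet (G.kset K f s p) := by
  refine (h1.set fun c => 0 < c p.l).inter ((MeasurableSet.const _).inter
    ((h1.set fun c => p.md = none → K ≤ c p.l ∧ p.n = none).inter ?_))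
  have : ∀ σ, MeasurableSet {x | p.md = some σ → s.1 x p.l < K ∧
      (p.n = none ∨ 0 < s.1 (io p.j • x) p.n) ∧
      s.2 (G.nd σ x p.l) (G.nd σ (io p.j • x) p.n) ∧ f x p.k = p.b ∧
      (p.l ≠ p.n ∨ f (io p.j • x) p.k ≠ p.b)} := fun σ => by
    refine (MeasurableSet.const _).imp ((h1.set fun c => c p.l < K).inter
      (((h1.smul (io p.j)).set fun c => p.n = none ∨ 0 < c p.n).inter (MeasurableSet.inter ?_
        ((hf p.k p.b).inter (((hf p.k).smul (io p.j)).set fun c => p.l ≠ p.n ∨ c ≠ p.b)))))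
    have := measurableSet_pre (h2.2 (hh σ * io p.j * (hh σ)⁻¹) (G.en' σ p.l) (G.en' σ p.n)) (hh σ)
    simp only [Set.mem_ofPred_eq, mul_smul, inv_smul_smul] at this
    exact this
  have h3 := MeasurableSet.iInter this
  rw [← Set.ofPred_forall] at h3
  exact h3

theorem measurableSet_newE (hf : ∀ k, Fib fun x => f x k) (h1 : Fib s.1) (h2 : MR Gam s.2)
    (σ : Bool) : MeasurableSet (G.newE K f s p σ) :=
  measurableSet_pre ((MeasurableSet.const _).inter (measurableSet_kset hf h1 h2)) _

theorem kstep_meas [Countable T] (hfree : ∀ (g : Gam) (x : X), g • x = x → g = 1)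
    (hf : ∀ k, Fib fun x => f x k) (h1 : Fib s.1) (h2 : MR Gam s.2) :
    Fib (G.kstep K f s p).1 ∧ MR Gam (G.kstep K f s p).2 := by
  classical
  have hD := measurableSet_kset (G := G) (K := K) (p := p) hf h1 h2
  refine ⟨fib_pi fun ν => ?_, MR.eqvGen hfree (h2.or (MR.exists fun σ =>
    MR.single hfree (measurableSet_newE hf h1 h2 σ) _ _ _))⟩
  have a1 : MeasurableSet {y | ν = p.n ∧ ν ≠ none ∧ (io p.j)⁻¹ • y ∈ G.kset K f s p} :=
    (MeasurableSet.const _).inter ((MeasurableSet.const _).inter (measurableSet_pre hD _))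
  have a2 : MeasurableSet {y | ν = p.l ∧ y ∈ G.kset K f s p} := (MeasurableSet.const _).inter hD
  exact Fib.ite (Fib.const 0) (Fib.ite
    ((h1.prod (h1.smul (io p.j)⁻¹)).comp fun c => min K (c.1 ν + c.2 p.l)) (h1.comp fun c => c ν)
    a1) a2

omit [MulAction Gam X] [MeasurableConstSMul Gam X] in
theorem integrable_phi {μ : Measure X} [IsFiniteMeasure μ] {w : X → Option E → ℕ} (h1 : Fib w)
    (hs : ∀ y ν, w y ν ≤ K) : Integrable (fun x => ∑ ν, phi K (w x ν)) μ := by
  refine integrable_finsetSum _ fun ν _ => Fib.integrable_bdd h1 (fun c => phi K (c ν)) (K + K)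
    fun x => ?_
  have : (w x ν : ℝ) ≤ K := by exact_mod_cast hs x ν
  unfold phi
  split_ifs
  · rw [norm_zero]
    positivity
  · rw [Real.norm_of_nonneg (by positivity)]
    linarith

theorem kstep_pot [Countable T] (hfree : ∀ (g : Gam) (x : X), g • x = x → g = 1)
    {μ : Measure X} [IsProbabilityMeasure μ] [SMulInvariantMeasure Gam X μ]
    (hf : ∀ k, Fib fun x => f x k) (h1 : Fib s.1) (h2 : MR Gam s.2) (hs : ∀ y ν, s.1 y ν ≤ K) :
    ∫ x, ∑ ν, phi K ((G.kstep K f s p).1 x ν) ∂μ + K * ∑ σ, μ.real (G.newE K f s p σ) ≤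
      ∫ x, ∑ ν, phi K (s.1 x ν) ∂μ := by
  classical
  have hD := measurableSet_kset (G := G) (K := K) (p := p) hf h1 h2
  let D : Bool → Set X := fun σ => {x | p.md ≠ some σ ∧ x ∈ G.kset K f s p}
  have mD : ∀ σ, MeasurableSet (D σ) := fun σ => (MeasurableSet.const _).inter hD
  let g : X → ℕ := fun x => if p.n ≠ none ∧ x ∈ G.kset K f s p then s.1 x p.l else 0
  have fg : Fib g := Fib.ite (h1.comp fun c => c p.l) (Fib.const 0)
    ((MeasurableSet.const _).inter hD)
  have gK : ∀ x, ‖(g x : ℝ)‖ ≤ K := fun x => by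
    rw [Real.norm_of_nonneg (Nat.cast_nonneg _)]
    simp only [g]
    split_ifs
    · exact_mod_cast hs _ _
    · exact_mod_cast Nat.zero_le _
  have ig : Integrable (fun x => (g x : ℝ)) μ := fg.integrable_bdd (fun c => (c : ℝ)) K gK
  have ig' : Integrable (fun x => (g ((io p.j)⁻¹ • x) : ℝ)) μ :=
    (fg.smul (io p.j)⁻¹).integrable_bdd (fun c => (c : ℝ)) K fun x => gK _
  have hK : (0 : ℝ) ≤ K := Nat.cast_nonneg _
  have key : ∀ x ν, phi K ((G.kstep K f s p).1 x ν) +
      (if ν = p.l then K * (ind (D true) x + ind (D false) x) + g x else 0) ≤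
      phi K (s.1 x ν) + (if ν = p.n then (g ((io p.j)⁻¹ • x) : ℝ) else 0) := by
    intro x ν
    have a0 : (0 : ℝ) ≤ if ν = p.n then (g ((io p.j)⁻¹ • x) : ℝ) else 0 := by
      split_ifs
      exacts [Nat.cast_nonneg _, le_rfl]
    by_cases c1 : ν = p.l ∧ x ∈ G.kset K f s p
    · obtain ⟨rfl, hx⟩ := c1
      rw [kstep_kill hx, if_pos rfl]
      simp only [phi, if_true, if_neg hx.1.ne']
      rcases hm : p.md with _ | σ
      · have b1 : (K : ℝ) ≤ s.1 x p.l := by exact_mod_cast (hx.2.2.1 hm).1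
        have b2 : g x = 0 := if_neg fun h => h.1 (hx.2.2.1 hm).2
        rw [ind_of_mem (S := D true) ⟨by simp [hm], hx⟩,
          ind_of_mem (S := D false) ⟨by simp [hm], hx⟩, b2, Nat.cast_zero]
        linarith
      · have b2 : (g x : ℝ) ≤ s.1 x p.l := by
          simp only [g]
          split_ifs
          exacts [le_rfl, by exact_mod_cast Nat.zero_le _]
        have b3 : ind (D true) x + ind (D false) x = 1 := by
          cases σ
          · rw [ind_of_mem (S := D true) ⟨by simp [hm], hx⟩,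
              ind_of_notMem (S := D false) fun h => h.1 hm, add_zero]
          · rw [ind_of_mem (S := D false) ⟨by simp [hm], hx⟩,
              ind_of_notMem (S := D true) fun h => h.1 hm, zero_add]
        rw [b3]
        linarith
    · have a1 : (if ν = p.l then K * (ind (D true) x + ind (D false) x) + g x else 0 : ℝ) = 0 := by
        split_ifs with h
        · have hx : x ∉ G.kset K f s p := fun h' => c1 ⟨h, h'⟩
          have b2 : g x = 0 := if_neg fun h => hx h.2
          rw [ind_of_notMem (S := D true) fun h => hx h.2,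
            ind_of_notMem (S := D false) fun h => hx h.2, b2]
          simp
        · rfl
      rw [a1, add_zero]
      by_cases c2 : ν = p.n ∧ ν ≠ none ∧ (io p.j)⁻¹ • x ∈ G.kset K f s p
      · have e : (G.kstep K f s p).1 x ν = min K (s.1 x ν + s.1 ((io p.j)⁻¹ • x) p.l) :=
          (if_neg c1).trans (if_pos c2)
        have b1 := (kset_target c2.2.2 (c2.1 ▸ c2.2.1)).2.1
        rw [smul_inv_smul, ← c2.1] at b1
        have b2 : g ((io p.j)⁻¹ • x) = s.1 ((io p.j)⁻¹ • x) p.l := if_pos ⟨c2.1 ▸ c2.2.1, c2.2.2⟩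
        have b3 : ((min K (s.1 x ν + s.1 ((io p.j)⁻¹ • x) p.l) : ℕ) : ℝ) ≤
            s.1 x ν + s.1 ((io p.j)⁻¹ • x) p.l := by exact_mod_cast min_le_right _ _
        rw [e, if_pos c2.1, b2]
        simp only [phi, if_neg b1.ne']
        split_ifs
        · positivity
        · linarith
      · have e : (G.kstep K f s p).1 x ν = s.1 x ν := (if_neg c1).trans (if_neg c2)
        rw [e]
        linarith
  have key2 : ∀ x, ∑ ν, phi K ((G.kstep K f s p).1 x ν) +
      (K * (ind (D true) x + ind (D false) x) + g x) ≤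
      ∑ ν, phi K (s.1 x ν) + g ((io p.j)⁻¹ • x) := fun x => by
    have := Finset.sum_le_sum fun ν (_ : ν ∈ Finset.univ) => key x ν
    simpa only [Finset.sum_add_distrib, Finset.sum_ite_eq', Finset.mem_univ, if_true] using this
  have i1 := integrable_phi (μ := μ) (kstep_meas (G := G) (K := K) (p := p) hfree hf h1 h2).1
    (kstep_le hs)
  have i2 := integrable_phi (μ := μ) h1 hs
  have i3 : Integrable (fun x => ind (D true) x + ind (D false) x) μ :=
    (integrable_ind (mD true)).add (integrable_ind (mD false))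
  have i4 : Integrable (fun x => K * (ind (D true) x + ind (D false) x) + g x) μ :=
    (i3.const_mul _).add ig
  have h3 := integral_mono (i1.add i4) (i2.add ig') key2
  simp only [Pi.add_apply] at h3
  rw [integral_add i1 i4, integral_add i2 ig', integral_add (i3.const_mul _) ig,
    integral_const_mul, integral_add (integrable_ind (mD true)) (integrable_ind (mD false)),
    integral_ind (mD true), integral_ind (mD false),
    integral_smul_eq_self (fun x => (g x : ℝ))] at h3
  simp only [Fintype.sum_bool, newE, real_pre]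
  linarith

end LG

end

end Vale.Agent.P189
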