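import Vale.Agent.P189.Kill

/-!
From the HNN extension down to the free group.
-/

namespace Vale.Agent.P189

open MeasureTheory Relation Filter Topology

noncomputable section

variable {X : Type} [MulAction Gam X] [MeasurableSpace X] {T E : Type}

namespace LG

section Britton

variable (G : LG Gam X T E)

/-- A node is either free or an edge labelled by the stable letter. -/
def Valid (x : X) (ν : Option E) : Prop := ν = none ∨ ∃ ε, ν = some ε ∧ G.lab ε = gt ∧ x ∈ G.PE ε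

/-- Crossing a node. -/
def TS (u : ℤˣ) (v w : X × T) : Prop :=
  ∃ x ν σ, G.Valid x ν ∧ u = cond σ 1 (-1) ∧ v = G.nd (!σ) x ν ∧ w = G.nd σ x ν

/-- Paths modulo `q` reading a word of the HNN extension. -/
def WalkT (q : X × T → X × T → Prop) (v : X × T) : List (ℤˣ × FA) → FA → X × T → Prop
  | [], h, w => q v w ∧ w.1 = io h • v.1
  | l :: L, h, w => ∃ w1 w2, WalkT q v L l.2 w1 ∧ G.TS l.1 w1 w2 ∧ q w2 w ∧ w.1 = io h • w2.1

variable {G}

theorem TS.loc {u : ℤˣ} {v w : X × T} (h : G.TS u v w) : w.1 = gt ^ (u : ℤ) • v.1 := by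
  obtain ⟨x, ν, _ | _, -, rfl, rfl, rfl⟩ := h <;> simp [nd, hh]

theorem britton (hfree : ∀ (g : Gam) (x : X), g • x = x → g = 1)
    (hl : ∀ ε, G.lab ε ∈ io.range ∨ G.lab ε = gt) {q : X × T → X × T → Prop} (hq : Equivalence q)
    (h1 : ∀ ε, G.lab ε ≠ gt → ∀ x ∈ G.PE ε, q (x, G.src ε) (G.lab ε • x, G.tgt ε))
    (h2 : ∀ j ∈ JJ, ∀ x, q (x, G.o) (io j • x, G.o))
    (hb : ∀ x ν ν' σ, ∀ j ∈ JJ, G.Valid x ν → G.Valid (io j • x) ν' →
      q (G.nd σ x ν) (G.nd σ (io j • x) ν') → q (G.nd (!σ) x ν) (G.nd (!σ) (io j • x) ν'))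
    {v w : X × T} (h : G.conn {io fa, io fu, gt} v w) {α : FA} (hvw : w.1 = io α • v.1) :
    q v w := by
  let Ch : List (ℤˣ × FA) → Prop := fun L =>
    L.IsChain fun a b => a.2 ∈ HNNExtension.toSubgroup JJ JJ a.1 → a.1 = b.1
  have a1 : ∀ L g w w' β, G.WalkT q v L g w → q w w' → w'.1 = io β • w.1 →
      G.WalkT q v L (β * g) w' := by
    rintro (_ | ⟨l, L⟩) g w w' β h h' h''
    · exact ⟨hq.trans h.1 h', by rw [h'', h.2, map_mul, mul_smul]⟩
    · obtain ⟨w1, w2, b1, b2, b3, b4⟩ := h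
      exact ⟨w1, w2, b1, b2, hq.trans b3 h', by rw [h'', b4, map_mul, mul_smul]⟩
  have a2 : ∀ L g w, G.WalkT q v L g w →
      w.1 = (io g * (L.map fun x => gt ^ (x.1 : ℤ) * io x.2).prod) • v.1 := by
    intro L
    induction L with
    | nil =>
      intro g w h
      simpa using h.2
    | cons l L ih =>
      rintro g w ⟨w1, w2, b1, b2, b3, b4⟩
      rw [b4, b2.loc, ih _ _ b1]
      simp only [List.map_cons, List.prod_cons, mul_smul]
  have a3 : ∀ L g w w' u, Ch L → G.WalkT q v L g w → G.TS u w w' →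
      ∃ L' g', Ch L' ∧ G.WalkT q v L' g' w' := by
    rintro (_ | ⟨l0, L⟩) g w w' u hL h h'
    · exact ⟨[(u, g)], 1, List.isChain_singleton _, w, w', h, h', hq.refl _, by simp⟩
    by_cases hc : g ∈ HNNExtension.toSubgroup JJ JJ u → u = l0.1
    · exact ⟨(u, g) :: l0 :: L, 1, List.isChain_cons_cons.2 ⟨hc, hL⟩, w, w', h, h', hq.refl _,
        by simp⟩
    push Not at hc
    have hg : g ∈ JJ := by simpa [HNNExtension.toSubgroup] using hc.1
    obtain ⟨w1, w2, b1, ⟨x0, ν0, σ0, c1, c2, rfl, rfl⟩, b3, b4⟩ := h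
    obtain ⟨x, ν, σ, d1, d2, rfl, rfl⟩ := h'
    obtain rfl : σ = !σ0 := Bool.eq_not_of_ne fun h => hc.2 (by rw [d2, c2, h])
    rw [Bool.not_not] at b3 b4
    obtain rfl : x = io g • x0 := by
      simp only [nd, ← mul_smul, ← hh_comm hg] at b4
      rw [mul_smul] at b4
      exact MulAction.injective _ b4
    refine ⟨L, _, hL.tail, a1 L _ _ _ g b1 (hb x0 ν0 ν σ0 g hg c1 d1 b3) ?_⟩
    simp only [nd, ← mul_smul, hh_comm hg]
  have e1 : ∀ v' w', (G.edge v' w' ∨ G.real {io fa, io fu, gt} v' w') →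
      (q v' w' ∧ ∃ β, w'.1 = io β • v'.1) ∨
        ∃ x ν, G.Valid x ν ∧ v' = G.nd false x ν ∧ w' = G.nd true x ν := by
    rintro ⟨x, τ⟩ w' (⟨ε, h3, h4, rfl⟩ | ⟨r, hr, h3, rfl⟩)
    · simp only at h3
      subst h3
      by_cases hε : G.lab ε = gt
      · exact Or.inr ⟨x, some ε, Or.inr ⟨ε, rfl, hε, h4⟩, by simp [nd, hh, en', en],
          by simp [nd, hh, en', en, hε]⟩
      · obtain ⟨β, hβ⟩ := (hl ε).resolve_right hε
        exact Or.inl ⟨h1 ε hε x h4, β, by rw [hβ]⟩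
    · simp only at h3
      subst h3
      rcases hr with rfl | rfl | rfl
      · exact Or.inl ⟨h2 _ fa_mem x, _, rfl⟩
      · exact Or.inl ⟨h2 _ fu_mem x, _, rfl⟩
      · exact Or.inr ⟨x, none, Or.inl rfl, by simp [nd, hh, en'], by simp [nd, hh, en']⟩
  have a4 : ∃ L g, Ch L ∧ G.WalkT q v L g w := by
    clear hvw
    rw [conn, ← Relation.EqvGen.reflTransGen_symmGen] at h
    induction h with
    | refl => exact ⟨[], 1, List.isChain_nil, hq.refl _, by simp⟩
    | @tail w w' _ h3 ih =>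
      obtain ⟨L, g, hL, hw⟩ := ih
      rcases h3 with h3 | h3
      · rcases e1 _ _ h3 with ⟨h4, β, h5⟩ | ⟨x, ν, h4, h5, h6⟩
        · exact ⟨L, _, hL, a1 L g _ _ β hw h4 h5⟩
        · exact a3 L g _ _ 1 hL hw ⟨x, ν, true, h4, rfl, h5, h6⟩
      · rcases e1 _ _ h3 with ⟨h4, β, h5⟩ | ⟨x, ν, h4, h5, h6⟩
        · exact ⟨L, _, hL, a1 L g _ _ β⁻¹ hw (hq.symm h4) (by rw [h5, map_inv, inv_smul_smul])⟩
        · exact a3 L g _ _ (-1) hL hw ⟨x, ν, false, h4, rfl, h6, h5⟩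
  obtain ⟨L, g, hL, hw⟩ := a4
  have h3 := a2 L g w hw
  have h4 := hfree ((io α)⁻¹ * (io g * (L.map fun x => gt ^ (x.1 : ℤ) * io x.2).prod)) v.1
    (by rw [mul_smul, ← h3, hvw, inv_smul_smul])
  rw [inv_mul_eq_one] at h4
  have h5 : L = [] := HNNExtension.ReducedWord.toList_eq_nil_of_mem_of_range
    (MulEquiv.refl JJ) ⟨g, L, hL⟩ ⟨α, h4⟩
  subst h5
  exact hw.1

end Britton

section Iter

variable (G : LG Gam X T E) (K : ℕ) (f : X → ℕ → Bool) (sc : ℕ → Par E)

open Classical in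
/-- The sequence of states. -/
def ks : ℕ → KSt X T E
  | 0 => (fun x ν => if ∃ ε, ν = some ε ∧ G.lab ε = gt ∧ x ∈ G.PE ε then 1 else 0,
      (G.restr fun ε => G.lab ε ≠ gt).conn {io fa, io fu})
  | n + 1 => G.kstep K f (ks n) (sc n)

/-- The limit relation. -/
def kr (v w : X × T) : Prop := ∃ n, (G.ks K f sc n).2 v w

variable {G K f sc}

theorem ks_le (hK : 0 < K) : ∀ n y ν, (G.ks K f sc n).1 y ν ≤ K
  | 0, y, ν => by
    simp only [ks]
    split_ifs
    exacts [hK, Nat.zero_le _]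
  | n + 1, y, ν => kstep_le (ks_le hK n) y ν

theorem ks_anti {n m : ℕ} (h : n ≤ m) {y : X} {ν : Option E} (h' : 0 < (G.ks K f sc m).1 y ν) :
    0 < (G.ks K f sc n).1 y ν := by
  induction h with
  | refl => exact h'
  | step _ ih => exact ih (kstep_pos h')

theorem ks_valid {n : ℕ} {y : X} {ν : Option E} (h : 0 < (G.ks K f sc n).1 y ν) :
    ∃ ε, ν = some ε ∧ G.lab ε = gt ∧ y ∈ G.PE ε := by
  have := ks_anti (Nat.zero_le n) h
  simp only [ks] at this
  split_ifs at this with h1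
  · exact h1
  · exact absurd this (lt_irrefl 0)

theorem ks_mono (hK : 0 < K) {n m : ℕ} (h : n ≤ m) {y : X} {ν : Option E}
    (h' : 0 < (G.ks K f sc m).1 y ν) : (G.ks K f sc n).1 y ν ≤ (G.ks K f sc m).1 y ν := by
  induction h with
  | refl => exact le_rfl
  | @step m _ ih =>
    refine (ih (kstep_pos h')).trans (kstep_ge (ks_le hK m) ?_)
    rintro ⟨rfl, h1⟩
    exact h'.ne' (kstep_kill h1)

theorem ks_equiv : ∀ n, Equivalence (G.ks K f sc n).2
  | 0 => EqvGen.is_equivalence _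
  | _ + 1 => EqvGen.is_equivalence _

theorem ks_rel_mono : Monotone fun n => (G.ks K f sc n).2 :=
  monotone_nat_of_le_succ fun _ _ _ h => kstep_rel h

theorem kr_equiv : Equivalence (G.kr K f sc) := equiv_exists ks_equiv ks_rel_mono

theorem kr_real {j : FA} (hj : j ∈ JJ) (x : X) : G.kr K f sc (x, G.o) (io j • x, G.o) := by
  have h := Subgroup.mem_map_of_mem (K := Subgroup.closure {fa, fu}) io hj
  rw [MonoidHom.map_closure, Set.image_pair] at h
  exact ⟨0, closure_conn (ks_equiv 0) (fun x => (x, G.o)) _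
    (fun g hg x => conn_real (G := G.restr fun ε => G.lab ε ≠ gt) hg x) h x⟩

theorem ks_lt (hK : 0 < K) (hsc : ∀ p n, ∃ m, n ≤ m ∧ sc m = p) {x : X} {ν : Option E}
    (h : ∀ n, 0 < (G.ks K f sc n).1 x ν) (n : ℕ) : (G.ks K f sc n).1 x ν < K := by
  by_contra hc
  obtain ⟨m, hm, hp⟩ := hsc ⟨ν, none, 1, none, 0, true⟩ n
  have h1 : x ∈ G.kset K f (G.ks K f sc m) ⟨ν, none, 1, none, 0, true⟩ :=
    ⟨h m, one_mem _, fun _ => ⟨(not_lt.1 hc).trans (ks_mono hK hm (h m)), rfl⟩,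
      fun σ hσ => absurd hσ (by simp)⟩
  have h2 := h (m + 1)
  rw [ks, hp] at h2
  exact h2.ne' (kstep_kill h1)

theorem ks_uniq (hf : Function.Injective f)
    (hK : 0 < K) (hsc : ∀ p n, ∃ m, n ≤ m ∧ sc m = p) {x : X} {ν ν' : Option E} {j : FA}
    (hj : j ∈ JJ) (h : ∀ n, 0 < (G.ks K f sc n).1 x ν)
    (h' : ν' = none ∨ ∀ n, 0 < (G.ks K f sc n).1 (io j • x) ν') {σ : Bool}
    (hr : G.kr K f sc (G.nd σ x ν) (G.nd σ (io j • x) ν')) : io j • x = x ∧ ν = ν' := by
  by_contra hc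
  obtain ⟨k, hk⟩ : ∃ k, ν ≠ ν' ∨ f (io j • x) k ≠ f x k := by
    by_contra h1
    push Not at h1
    exact hc ⟨hf (funext fun k => (h1 k).2), (h1 0).1⟩
  obtain ⟨n, hn⟩ := hr
  obtain ⟨m, hm, hp⟩ := hsc ⟨ν, ν', j, some σ, k, f x k⟩ n
  have h1 : x ∈ G.kset K f (G.ks K f sc m) ⟨ν, ν', j, some σ, k, f x k⟩ := by
    refine ⟨h m, hj, fun h => absurd h (by simp), fun σ' hσ => ?_⟩
    obtain rfl : σ = σ' := Option.some.inj hσ
    exact ⟨ks_lt hK hsc h m, h'.imp id fun h => h m, ks_rel_mono hm _ _ hn, rfl, hk⟩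
  have h2 := h (m + 1)
  rw [ks, hp] at h2
  exact h2.ne' (kstep_kill h1)

theorem ks_good (hK : 0 < K) (i : ℕ) : ∀ n x ν, 0 < (G.ks K f sc n).1 x ν →
    K ≤ (G.ks K f sc n).1 x ν + i → ∃ j ∈ JJ, ∃ ν',
      (ν' = none ∨ ∀ n, 0 < (G.ks K f sc n).1 (io j • x) ν') ∧
      ∀ σ, G.kr K f sc (G.nd σ x ν) (G.nd σ (io j • x) ν') := by
  induction i using Nat.strong_induction_on with
  | _ i ih =>
  intro n x ν h hi
  by_cases hc : ∀ n, 0 < (G.ks K f sc n).1 x ν
  · refine ⟨1, one_mem _, ν, Or.inr (by simpa using hc), fun σ => ?_⟩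
    rw [map_one, one_smul]
    exact kr_equiv.refl _
  obtain ⟨m, hnm, h1, h2⟩ : ∃ m, n ≤ m ∧ 0 < (G.ks K f sc m).1 x ν ∧
      ¬ 0 < (G.ks K f sc (m + 1)).1 x ν := by
    by_contra h1
    push Not at h1 hc
    obtain ⟨k, hk⟩ := hc
    have h2 : ∀ m, n ≤ m → 0 < (G.ks K f sc m).1 x ν := fun m hm =>
      Nat.le_induction h (fun m hm ih => h1 m hm ih) m hm
    exact absurd (ks_anti (le_max_right n k) (h2 _ (le_max_left n k))) (not_lt.2 hk)
  obtain ⟨rfl, hx⟩ : ν = (sc m).l ∧ x ∈ G.kset K f (G.ks K f sc m) (sc m) := by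
    by_contra h3
    exact h2 (h1.trans_le (kstep_ge (ks_le hK m) h3))
  have h3 : ∀ σ, G.kr K f sc (G.nd σ x (sc m).l) (G.nd σ (io (sc m).j • x) (sc m).n) :=
    fun σ => ⟨m + 1, kstep_link hx σ⟩
  by_cases hn : (sc m).n = none
  · exact ⟨_, hx.2.1, _, Or.inl hn, h3⟩
  have h4 : (G.ks K f sc m).1 x (sc m).l < (G.ks K f sc (m + 1)).1 (io (sc m).j • x) (sc m).n :=
    kstep_target hx hn
  have h5 := (kset_target hx hn).1
  have h6 := ks_mono hK hnm h1
  obtain ⟨j, hj, ν', h7, h8⟩ := ih (i - 1) (by omega) (m + 1) _ _ (h1.trans h4) (by omega)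
  refine ⟨j * (sc m).j, mul_mem hj hx.2.1, ν', ?_, fun σ => ?_⟩
  · rw [map_mul, mul_smul]
    exact h7
  · rw [map_mul, mul_smul]
    exact kr_equiv.trans (h3 σ) (h8 σ)

theorem ks_band (hf : Function.Injective f)
    (hK : 0 < K) (hsc : ∀ p n, ∃ m, n ≤ m ∧ sc m = p) (x : X) (ν ν' : Option E) (σ : Bool)
    (j : FA) (hj : j ∈ JJ) (h : G.Valid x ν) (h' : G.Valid (io j • x) ν')
    (hr : G.kr K f sc (G.nd σ x ν) (G.nd σ (io j • x) ν')) :
    G.kr K f sc (G.nd (!σ) x ν) (G.nd (!σ) (io j • x) ν') := by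
  have a : ∀ x ν, G.Valid x ν → ∃ j ∈ JJ, ∃ ν',
      (ν' = none ∨ ∀ n, 0 < (G.ks K f sc n).1 (io j • x) ν') ∧
      ∀ σ, G.kr K f sc (G.nd σ x ν) (G.nd σ (io j • x) ν') := by
    rintro x ν (h | h)
    · refine ⟨1, one_mem _, ν, Or.inl h, fun σ => ?_⟩
      rw [map_one, one_smul]
      exact kr_equiv.refl _
    · exact ks_good hK K 0 x ν (by simp only [ks, if_pos h]; exact Nat.one_pos)
        (Nat.le_add_left _ _)
  obtain ⟨j1, hj1, ν1, b1, b2⟩ := a x ν h
  obtain ⟨j2, hj2, ν2, c1, c2⟩ := a _ ν' h'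
  have hE := kr_equiv (G := G) (K := K) (f := f) (sc := sc)
  have d := hE.trans (hE.symm (b2 σ)) (hE.trans hr (c2 σ))
  refine hE.trans (b2 _) (hE.trans ?_ (hE.symm (c2 _)))
  have hj3 : j2 * j * j1⁻¹ ∈ JJ := mul_mem (mul_mem hj2 hj) (inv_mem hj1)
  have e : io j2 • io j • x = io (j2 * j * j1⁻¹) • io j1 • x := by
    simp only [map_mul, map_inv, mul_smul, inv_smul_smul]
  rw [e] at c1 d ⊢
  generalize io j1 • x = y at b1 c1 d ⊢
  generalize j2 * j * j1⁻¹ = j3 at hj3 c1 d ⊢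
  rcases b1 with rfl | b1
  · rcases c1 with rfl | c1
    · have := kr_real (G := G) (K := K) (f := f) (sc := sc) hj3 (hh (!σ) • y)
      rw [← mul_smul, ← hh_comm hj3, mul_smul] at this
      exact this
    · have e2 : y = io j3⁻¹ • io j3 • y := by rw [map_inv, inv_smul_smul]
      have d' := hE.symm d
      nth_rewrite 2 [e2] at d'
      obtain ⟨h1, h2⟩ := ks_uniq hf hK hsc (inv_mem hj3) c1 (Or.inl rfl) d'
      rw [← e2] at h1
      rw [← h1, h2]
      exact hE.refl _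
  · obtain ⟨h1, h2⟩ := ks_uniq hf hK hsc hj3 b1 c1 d
    rw [h1, h2]
    exact hE.refl _

variable [MeasurableConstSMul Gam X] [Fintype E] [Fintype T]

theorem ks_meas (hfree : ∀ (g : Gam) (x : X), g • x = x → g = 1) (hf : ∀ k, Fib fun x => f x k) :
    ∀ n, Fib (G.ks K f sc n).1 ∧ MR Gam (G.ks K f sc n).2
  | 0 => by
    classical
    refine ⟨fib_pi fun ν => ?_, MR.conn hfree _ _⟩
    have : MeasurableSet {x | ∃ ε, ν = some ε ∧ G.lab ε = gt ∧ x ∈ G.PE ε} := by
      rw [Set.ofPred_exists]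
      exact MeasurableSet.iUnion fun ε =>
        (MeasurableSet.const _).inter ((MeasurableSet.const _).inter (G.mPE ε))
    exact Fib.ite (Fib.const 1) (Fib.const 0) this
  | n + 1 => kstep_meas hfree hf (ks_meas hfree hf n).1 (ks_meas hfree hf n).2

theorem ks_budget (hfree : ∀ (g : Gam) (x : X), g • x = x → g = 1) (hf : ∀ k, Fib fun x => f x k)
    (hK : 0 < K) {μ : Measure X} [IsProbabilityMeasure μ] [SMulInvariantMeasure Gam X μ] (N : ℕ) :
    K * ∑ n ∈ Finset.range N, ∑ σ, μ.real (G.newE K f (G.ks K f sc n) (sc n) σ) ≤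
      (K + 1) * ∑ ε, μ.real {x | G.lab ε = gt ∧ x ∈ G.PE ε} := by
  have h1 : ∀ N, ∫ x, ∑ ν, phi K ((G.ks K f sc N).1 x ν) ∂μ +
      K * ∑ n ∈ Finset.range N, ∑ σ, μ.real (G.newE K f (G.ks K f sc n) (sc n) σ) ≤
      ∫ x, ∑ ν, phi K ((G.ks K f sc 0).1 x ν) ∂μ := by
    intro N
    induction N with
    | zero => simp
    | succ n ih =>
      have := kstep_pot (G := G) (p := sc n) (μ := μ) hfree hf (ks_meas hfree hf n).1
        (ks_meas hfree hf n).2 (ks_le (G := G) (f := f) (sc := sc) hK n)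
      rw [Finset.sum_range_succ, mul_add]
      exact le_trans (by rw [ks]; linarith) ih
  have h2 : 0 ≤ ∫ x, ∑ ν, phi K ((G.ks K f sc N).1 x ν) ∂μ :=
    integral_nonneg fun x => Finset.sum_nonneg fun ν _ => by
      unfold phi
      split_ifs
      exacts [le_rfl, by positivity]
  have m : ∀ ε, MeasurableSet {x | G.lab ε = gt ∧ x ∈ G.PE ε} := fun ε =>
    (MeasurableSet.const _).inter (G.mPE ε)
  have h3 : ∫ x, ∑ ν, phi K ((G.ks K f sc 0).1 x ν) ∂μ =
      (K + 1) * ∑ ε, μ.real {x | G.lab ε = gt ∧ x ∈ G.PE ε} := by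
    simp only [← integral_ind (m _)]
    rw [← integral_finsetSum _ fun i _ => integrable_ind (m i), ← integral_const_mul]
    refine integral_congr_ae (Eventually.of_forall fun x => ?_)
    simp only [Fintype.sum_option, ks, reduceCtorEq, false_and, exists_false, if_false,
      Option.some.injEq, exists_eq_left', Finset.mul_sum]
    rw [phi, if_pos rfl, zero_add]
    refine Finset.sum_congr rfl fun ε _ => ?_
    split_ifs with h
    · rw [ind_of_mem (by simpa using h)]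
      simp [phi]
    · rw [ind_of_notMem (by simpa using h)]
      simp [phi]
  linarith [h1 N]

variable (G K sc) in
/-- The new graph. -/
def out (hfree : ∀ (g : Gam) (x : X), g • x = x → g = 1) (hf : ∀ k, Fib fun x => f x k) :
    LG Gam X T ({ε // G.lab ε ≠ gt} ⊕ ℕ × Bool) where
  o := G.o
  PV := G.PV
  PE := Sum.elim (fun ε => G.PE ε) fun c => G.newE K f (G.ks K f sc c.1) (sc c.1) c.2
  lab := Sum.elim (fun ε => G.lab ε) fun c => io (sc c.1).j
  src := Sum.elim (fun ε => G.src ε) fun c => G.en' c.2 (sc c.1).l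
  tgt := Sum.elim (fun ε => G.tgt ε) fun c => G.en' c.2 (sc c.1).n
  mPV := G.mPV
  mPE := by
    rintro (ε | c)
    exacts [G.mPE ε, measurableSet_newE hf (ks_meas hfree hf _).1 (ks_meas hfree hf _).2 _]
  PV_o := G.PV_o
  src_mem := by
    rintro (ε | ⟨n, σ⟩) y hy
    · exact G.src_mem ε y hy
    · obtain ⟨ε, h1, h2, h3⟩ := ks_valid hy.2.1
      simp only [Sum.elim_inr, h1]
      cases σ
      · exact G.src_mem ε y (by simpa [hh] using h3)
      · have := G.tgt_mem ε _ h3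
        rw [h2] at this
        exact (smul_inv_smul gt y) ▸ this
  tgt_mem := by
    rintro (ε | ⟨n, σ⟩) y hy
    · exact G.tgt_mem ε y hy
    · by_cases hn : (sc n).n = none
      · simp only [Sum.elim_inr, hn]
        exact G.PV_o _
      obtain ⟨ε, h1, h2, h3⟩ := ks_valid (kset_target hy.2 hn).2.1
      simp only [Sum.elim_inr, h1]
      cases σ
      · exact G.src_mem ε _ (by simpa [hh] using h3)
      · have := G.tgt_mem ε _ h3
        rw [h2, ← mul_smul, gt_comm hy.2.2.1, mul_smul] at this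
        exact (smul_inv_smul gt y) ▸ this

theorem out_conn (hfree : ∀ (g : Gam) (x : X), g • x = x → g = 1) (hf : ∀ k, Fib fun x => f x k) :
    ∀ n v w, (G.ks K f sc n).2 v w → (G.out K sc hfree hf).conn {io fa, io fu} v w
  | 0, _, _, h => conn_map (G := G.restr fun ε => G.lab ε ≠ gt) (conn_equiv _ _) id
      (fun ε _ hx => conn_edge (G := G.out K sc hfree hf) _ (ε := Sum.inl ε) hx)
      (fun _ hr x => conn_real (G := G.out K sc hfree hf) hr x) h
  | n + 1, _, _, h => by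
    refine eqvGen_map (conn_equiv _ _) id ?_ h
    rintro v w (h | ⟨σ, h1, h2, h3⟩)
    · exact out_conn hfree hf n v w h
    · exact EqvGen.rel _ _ (Or.inl ⟨Sum.inr (n, σ), h1, h2, h3⟩)

end Iter

end LG

theorem level1 [MeasurableConstSMul Gam X] [MeasurableSpace.CountablySeparated X]
    (hfree : ∀ (g : Gam) (x : X), g • x = x → g = 1)
    {μ : Measure X} [IsProbabilityMeasure μ] [SMulInvariantMeasure Gam X μ] {m δ : ℝ} (hδ : 0 < δ)
    (h : Has μ {io fa, io fu, gt} (io fb) (fun g => g ∈ io.range ∨ g = gt) m) :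
    Has μ {io fa, io fu} (io fb) (fun g => g ∈ io.range) (m + δ) := by
  classical
  obtain ⟨T, E, _, _, G, h1, h2, h3⟩ := h
  obtain ⟨f, hf, hinj⟩ := MeasurableSpace.measurable_injection_nat_bool_of_countablySeparated X
  have hf' : ∀ k, Fib fun x => f x k := fun k c =>
    (measurable_pi_apply k).comp hf (measurableSet_singleton c)
  obtain ⟨sc, hsc⟩ := exists_sched (Par E)
  obtain ⟨K, hK⟩ := exists_nat_gt (Fintype.card E / (δ / 2))
  have hK0 : (0 : ℝ) < K := lt_of_le_of_lt (by positivity) hK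
  have hK1 : 0 < K := by exact_mod_cast hK0
  have htr : ∀ v w α, G.conn {io fa, io fu, gt} v w → w.1 = io α • v.1 →
      (G.out K sc hfree hf').conn {io fa, io fu} v w := fun v w α h h' => by
    obtain ⟨n, hn⟩ := LG.britton hfree h2 (LG.kr_equiv (G := G) (K := K) (f := f) (sc := sc))
      (fun ε hε x hx => ⟨0, LG.conn_edge (G := G.restr fun ε => G.lab ε ≠ gt) _ (ε := ⟨ε, hε⟩) hx⟩)
      (fun j hj x => LG.kr_real hj x) (LG.ks_band hinj hK1 hsc) h h'
    exact LG.out_conn hfree hf' n v w hn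
  refine (has_of_countable hfree (G.out K sc hfree hf') (Eventually.of_forall fun x =>
    ⟨fun τ hτ => htr _ _ 1 ((h1 x).1 τ hτ) (by simp), htr _ _ fb (h1 x).2 rfl⟩) ?_ ⟨1, map_one _⟩
    ⟨fb, rfl⟩ (s := ∑ ε, μ.real (G.PE ε) + δ / 2) (half_pos hδ) fun F => ?_).mono
    (fun _ h => h) ?_
  · rintro (ε | c)
    exacts [(h2 ε).resolve_right ε.2, ⟨_, rfl⟩]
  · rw [Finset.sum_sum_eq_sum_toLeft_add_sum_toRight]
    obtain ⟨N, hN⟩ := (F.toRight.image Prod.fst).bddAbove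
    have a1 : ∑ ε ∈ F.toLeft, μ.real ((G.out K sc hfree hf').PE (Sum.inl ε)) ≤
        ∑ ε : {ε // G.lab ε ≠ gt}, μ.real (G.PE ε) :=
      Finset.sum_le_sum_of_subset_of_nonneg (Finset.subset_univ _) fun _ _ _ => measureReal_nonneg
    have a2 : ∑ c ∈ F.toRight, μ.real ((G.out K sc hfree hf').PE (Sum.inr c)) ≤
        ∑ n ∈ Finset.range (N + 1), ∑ σ, μ.real (G.newE K f (G.ks K f sc n) (sc n) σ) := by
      rw [← Finset.sum_product']
      refine Finset.sum_le_sum_of_subset_of_nonneg (fun c hc => ?_) fun _ _ _ => measureReal_nonneg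
      exact Finset.mem_product.2 ⟨Finset.mem_range.2 (Nat.lt_succ_of_le
        (hN (Finset.mem_coe.2 (Finset.mem_image_of_mem _ hc)))), Finset.mem_univ _⟩
    have a3 := LG.ks_budget (G := G) (sc := sc) (μ := μ) hfree hf' hK1 (N + 1)
    have a4 : ∑ ε : {ε // G.lab ε ≠ gt}, μ.real (G.PE ε) +
        ∑ ε, μ.real {x | G.lab ε = gt ∧ x ∈ G.PE ε} = ∑ ε, μ.real (G.PE ε) := by
      rw [← Finset.sum_subtype (Finset.univ.filter fun ε => G.lab ε ≠ gt) (by simp)
        fun ε => μ.real (G.PE ε), Finset.sum_filter, ← Finset.sum_add_distrib]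
      refine Finset.sum_congr rfl fun ε _ => ?_
      by_cases hε : G.lab ε = gt <;> simp [hε]
    have a5 : ∑ ε, μ.real {x | G.lab ε = gt ∧ x ∈ G.PE ε} ≤ Fintype.card E := by
      refine (Finset.sum_le_sum fun ε _ => measureReal_le_one).trans (le_of_eq ?_)
      simp
    rw [div_lt_iff₀ (half_pos hδ)] at hK
    have a6 : ∑ n ∈ Finset.range (N + 1), ∑ σ, μ.real (G.newE K f (G.ks K f sc n) (sc n) σ) ≤
        ∑ ε, μ.real {x | G.lab ε = gt ∧ x ∈ G.PE ε} + δ / 2 := by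
      refine le_of_mul_le_mul_left ?_ hK0
      linarith
    linarith
  · have : (G.out K sc hfree hf').PV = G.PV := rfl
    rw [this]
    unfold LG.val at h3
    linarith

end

end Vale.Agent.P189
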