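import Vale.Agent.P189.Fold
import Vale.Agent.P189.Grp

/-!
The lower bound for the cost of `F(a,b)` relative to the subgroup generated by `a` and `u`.
-/

namespace Vale.Agent.P189

open MeasureTheory Relation Filter Topology

noncomputable section

variable {Γ X : Type} [Group Γ] [MulAction Γ X] [MeasurableSpace X]

namespace LG

section Tree

variable {V E : Type} (H : LG Γ X V E) (ι : FA →* Γ)

/-- Crossing an edge with a given signed letter. -/
def Step (l : Fin 2 × Bool) (v w : X × V) : Prop :=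
  ∃ e x, x ∈ H.PE e ∧ H.lab e = ι (FreeGroup.of l.1) ∧
    v = (H.sh (!l.2) e • x, H.en (!l.2) e) ∧ w = (H.sh l.2 e • x, H.en l.2 e)

/-- Paths modulo `q` reading a word. -/
def Walk (q : X × V → X × V → Prop) (v : X × V) : List (Fin 2 × Bool) → X × V → Prop
  | [], w => q v w
  | l :: L, w => ∃ w1 w2, Walk q v L w1 ∧ H.Step ι l w1 w2 ∧ q w2 w

variable {H ι}

theorem Step.loc {l : Fin 2 × Bool} {v w : X × V} (h : H.Step ι l v w) :
    w.1 = ι (FreeGroup.mk [l]) • v.1 := by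
  obtain ⟨e, x, -, h2, rfl, rfl⟩ := h
  obtain ⟨c, _ | _⟩ := l
  · have : FreeGroup.mk [(c, false)] = (FreeGroup.of c)⁻¹ := rfl
    simp only at h2
    simp [sh, this, h2]
  · have : FreeGroup.mk [(c, true)] = FreeGroup.of c := rfl
    simp only at h2
    simp [sh, this, h2]

theorem tree (hι : Function.Injective ι) (hfree : ∀ (g : Γ) (x : X), g • x = x → g = 1)
    (hl : ∀ e, ∃ c, H.lab e = ι (FreeGroup.of c)) {q : X × V → X × V → Prop} (hq : Equivalence q)
    (hq1 : ∀ v w, q v w → v.1 = w.1)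
    (hf : ∀ x e e' σ, x ∈ H.PE e → x ∈ H.PE e' → H.lab e = H.lab e' →
      q (H.sh σ e • x, H.en σ e) (H.sh σ e • x, H.en σ e') →
      q (H.sh (!σ) e • x, H.en (!σ) e) (H.sh (!σ) e • x, H.en (!σ) e'))
    {v w : X × V} (h : H.conn ∅ v w) (hvw : v.1 = w.1) : q v w := by
  have a1 : ∀ L w w', H.Walk ι q v L w → q w w' → H.Walk ι q v L w' := by
    rintro (_ | ⟨l, L⟩) w w' h h'
    · exact hq.trans h h'
    · obtain ⟨w1, w2, h1, h2, h3⟩ := h
      exact ⟨w1, w2, h1, h2, hq.trans h3 h'⟩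
  have a2 : ∀ L w, H.Walk ι q v L w → w.1 = ι (FreeGroup.mk L) • v.1 := by
    intro L
    induction L with
    | nil =>
      intro w h
      rw [← FreeGroup.one_eq_mk, map_one, one_smul]
      exact (hq1 _ _ h).symm
    | cons l L ih =>
      rintro w ⟨w1, w2, h1, h2, h3⟩
      rw [← hq1 _ _ h3, h2.loc, ih w1 h1, ← mul_smul, ← map_mul, FreeGroup.mul_mk]
      rfl
  have a3 : ∀ L w w' l, FreeGroup.IsReduced L → H.Walk ι q v L w → H.Step ι l w w' →
      ∃ L', FreeGroup.IsReduced L' ∧ H.Walk ι q v L' w' := by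
    rintro (_ | ⟨l0, L⟩) w w' l hL h h'
    · exact ⟨[l], FreeGroup.IsReduced.singleton, w, w', h, h', hq.refl _⟩
    by_cases hc : l.1 = l0.1 → l.2 = l0.2
    · exact ⟨l :: l0 :: L, List.isChain_cons_cons.2 ⟨hc, hL⟩, w, w', h, h', hq.refl _⟩
    push Not at hc
    obtain ⟨w1, w2, h1, ⟨e, x, b1, b2, rfl, rfl⟩, h3⟩ := h
    obtain ⟨e', x', c1, c2, rfl, rfl⟩ := h'
    have hlab : H.lab e = H.lab e' := by rw [b2, c2, hc.1]
    have hs : l.2 = !l0.2 := Bool.eq_not_of_ne hc.2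
    rw [hs, Bool.not_not, ← H.sh_eq hlab] at h3
    obtain rfl : x = x' := MulAction.injective _ (hq1 _ _ h3)
    refine ⟨L, List.IsChain.tail hL, a1 L _ _ h1 ?_⟩
    rw [hs, ← H.sh_eq hlab]
    exact hf x e e' _ b1 c1 hlab h3
  have a4 : ∃ L, FreeGroup.IsReduced L ∧ H.Walk ι q v L w := by
    clear hvw
    rw [conn, ← Relation.EqvGen.reflTransGen_symmGen] at h
    induction h with
    | refl => exact ⟨[], FreeGroup.IsReduced.nil, hq.refl _⟩
    | @tail w w' _ h2 ih =>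
      obtain ⟨L, hL, hw⟩ := ih
      rcases h2 with (⟨e, h3, h4, rfl⟩ | ⟨r, hr, -⟩) | (⟨e, h3, h4, rfl⟩ | ⟨r, hr, -⟩)
      · obtain ⟨c, hc⟩ := hl e
        exact a3 L _ _ (c, true) hL hw ⟨e, w.1, h4, hc, Prod.ext (by simp [sh]) h3, rfl⟩
      · exact absurd hr (Set.notMem_empty r)
      · obtain ⟨c, hc⟩ := hl e
        exact a3 L _ _ (c, false) hL hw ⟨e, w'.1, h4, hc, rfl, Prod.ext (by simp [sh]) h3⟩
      · exact absurd hr (Set.notMem_empty r)
  obtain ⟨L, hL, hw⟩ := a4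
  have h1 := a2 L w hw
  rw [← hvw] at h1
  have h2 : FreeGroup.mk L = 1 := hι ((hfree _ _ h1.symm).trans (map_one ι).symm)
  have h3 : L = [] := by
    rw [← hL.reduce_eq, ← FreeGroup.toWord_mk, h2, FreeGroup.toWord_one]
  subst h3
  exact hw

end Tree

section Iter

variable {V E : Type} [DecidableEq V] [DecidableEq E] (H : LG Γ X V E) (sc : ℕ → E × E × Bool)

/-- The sequence of folded states. -/
def st : ℕ → X → (V → V) × (E → E)
  | 0 => fun _ => (id, id)
  | n + 1 => H.fstep (st n) (sc n)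

variable {H sc}

theorem st_inv : ∀ n, H.FInv (H.st sc n)
  | 0 => by
    intro x e e' h
    obtain rfl : e = e' := h
    exact ⟨rfl, fun _ => rfl⟩
  | n + 1 => (st_inv n).step

theorem st_mono1 {n m : ℕ} (h : n ≤ m) {x : X} {u v : V}
    (huv : (H.st sc n x).1 u = (H.st sc n x).1 v) : (H.st sc m x).1 u = (H.st sc m x).1 v := by
  induction h with
  | refl => exact huv
  | step _ ih => exact fstep_mono1 ih

theorem st_mono2 {n m : ℕ} (h : n ≤ m) {x : X} {u v : E}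
    (huv : (H.st sc n x).2 u = (H.st sc n x).2 v) : (H.st sc m x).2 u = (H.st sc m x).2 v := by
  induction h with
  | refl => exact huv
  | step _ ih => exact fstep_mono2 ih

theorem st_fold (hsc : ∀ p n, ∃ m, n ≤ m ∧ sc m = p) {x : X} {e e' : E} {σ : Bool}
    (h1 : x ∈ H.PE e) (h2 : x ∈ H.PE e') (h3 : H.lab e = H.lab e') {n : ℕ}
    (h : (H.st sc n (H.sh σ e • x)).1 (H.en σ e) = (H.st sc n (H.sh σ e • x)).1 (H.en σ e')) :
    ∃ m, (H.st sc m x).2 e = (H.st sc m x).2 e' := by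
  obtain ⟨m, hm, hp⟩ := hsc (e, e', σ) n
  by_cases hc : (H.st sc m x).2 e = (H.st sc m x).2 e'
  · exact ⟨m, hc⟩
  · refine ⟨m + 1, ?_⟩
    have : x ∈ H.fset (H.st sc m) (e, e', σ) := ⟨h1, h2, h3, st_mono1 hm h, hc⟩
    have h4 := fstep_done this
    rw [← hp] at h4
    rw [st, hp]
    rw [hp] at h4
    exact h4

theorem st_tree (hsc : ∀ p n, ∃ m, n ≤ m ∧ sc m = p) {ι : FA →* Γ} (hι : Function.Injective ι)
    (hfree : ∀ (g : Γ) (x : X), g • x = x → g = 1) (hl : ∀ e, ∃ c, H.lab e = ι (FreeGroup.of c))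
    {x : X} {u v : V} (h : H.conn ∅ (x, u) (x, v)) :
    ∃ n, (H.st sc n x).1 u = (H.st sc n x).1 v := by
  let q : ℕ → X × V → X × V → Prop := fun n v w =>
    v.1 = w.1 ∧ (H.st sc n v.1).1 v.2 = (H.st sc n v.1).1 w.2
  have hq : ∀ n, Equivalence (q n) := fun n =>
    ⟨fun _ => ⟨rfl, rfl⟩, fun h => ⟨h.1.symm, h.1 ▸ h.2.symm⟩,
      fun h h' => ⟨h.1.trans h'.1, h.2.trans (h.1 ▸ h'.2)⟩⟩
  have hm : Monotone q := fun n m hnm v w h => ⟨h.1, st_mono1 hnm h.2⟩
  obtain ⟨n, hn⟩ := tree hι hfree hl (equiv_exists hq hm) (fun v w ⟨n, h⟩ => h.1)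
    (fun x e e' σ h1 h2 h3 ⟨n, h⟩ => by
      obtain ⟨m, hm⟩ := st_fold hsc h1 h2 h3 h.2
      exact ⟨m, rfl, (st_inv m x e e' hm).2 _⟩) h rfl
  exact ⟨n, hn.2⟩

variable [Fintype V] [Fintype E] [MeasurableConstSMul Γ X]

theorem st_fib : ∀ n, Fib (H.st sc n)
  | 0 => Fib.const _
  | n + 1 => fib_fstep (st_fib n)

theorem pot_anti {μ : Measure X} [IsProbabilityMeasure μ] [SMulInvariantMeasure Γ X μ]
    {RV : Finset V} {RE : Finset E} (hR : ∀ r ∈ RE, ∀ σ, H.en σ r ∈ RV) :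
    Antitone fun n => H.pot μ RV RE (H.st sc n) :=
  antitone_nat_of_succ_le fun n => pot_step hR (st_fib n) (st_inv n)

theorem pot_nonneg {μ : Measure X} [IsProbabilityMeasure μ] [SMulInvariantMeasure Γ X μ]
    {RV : Finset V} {RE : Finset E} (hR : ∀ r ∈ RE, ∀ σ, H.en σ r ∈ RV) {o : V} (ho : o ∈ RV)
    (h : ∀ x u, x ∈ H.PV u → ∃ n, (H.st sc n x).1 u = (H.st sc n x).1 o) (n : ℕ) :
    0 ≤ H.pot μ RV RE (H.st sc n) := by
  refine le_of_forall_pos_le_add fun δ hδ => ?_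
  let B : ℕ → Set X := fun n =>
    {x | ¬ ∀ u ∈ pres H.PV x, (H.st sc n x).1 u = (H.st sc n x).1 o}
  have hB : ∀ n, MeasurableSet (B n) := fun n =>
    ((st_fib n).prod (fib_pres H.mPV)).set fun c => ¬ ∀ u ∈ c.2, c.1.1 u = c.1.1 o
  have hanti : Antitone B := fun n m hnm x hx h => hx fun u hu => st_mono1 hnm (h u hu)
  have h0 : ⋂ n, B n = ∅ := by
    ext x
    simp only [Set.mem_iInter, Set.mem_empty_iff_false, iff_false]
    intro hx
    choose! k hk using h x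
    obtain ⟨M, hM⟩ := (Set.finite_range k).bddAbove
    exact hx M fun u hu => st_mono1 (hM ⟨u, rfl⟩) (hk u (mem_pres.1 hu))
  have hc : (0 : ℝ) < Fintype.card V + 1 := by positivity
  obtain ⟨N, hN⟩ := small_tail (μ := μ) B hB hanti (by rw [h0, measure_empty]) (div_pos hδ hc)
  have h1 := pot_anti (H := H) (sc := sc) (μ := μ) hR (le_max_left n N)
  have h2 : μ.real (B (max n N)) ≤ δ / (Fintype.card V + 1) :=
    (measureReal_mono (hanti (le_max_right n N))).trans hN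
  have h3 : ∫ x, (cnt (H.st sc (max n N) x).1 (pres H.PV x) RV : ℝ) ∂μ ≤
      ∫ x, (Fintype.card V + 1) * ind (B (max n N)) x ∂μ := by
    refine integral_mono (integrable_cnt1 (st_fib _) RV) ((integrable_ind (hB _)).const_mul _)
      fun x => ?_
    by_cases hx : x ∈ B (max n N)
    · simp only [ind_of_mem hx, mul_one]
      have := (cnt_le (H.st sc (max n N) x).1 (pres H.PV x) RV).trans (Finset.card_le_univ _)
      exact_mod_cast this.trans (Nat.le_succ _)
    · simp only [ind_of_notMem hx, mul_zero]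
      rw [cnt_zero fun u hu => ⟨o, ho, (not_not.1 hx u hu).symm⟩, Nat.cast_zero]
  rw [integral_const_mul, integral_ind (hB _)] at h3
  have h4 : 0 ≤ ∫ x, (cnt (H.st sc (max n N) x).2 (pres H.PE x) RE : ℝ) ∂μ :=
    integral_nonneg fun x => Nat.cast_nonneg _
  rw [le_div_iff₀ hc] at h2
  simp only [pot] at h1 ⊢
  linarith

theorem real_count {μ : Measure X} [IsProbabilityMeasure μ] [SMulInvariantMeasure Γ X μ]
    {RV : Finset V} {RE : Finset E} (hR : ∀ r ∈ RE, ∀ σ, H.en σ r ∈ RV) {o : V} (ho : o ∈ RV)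
    (hRV : ∀ u ∈ RV, ∀ x, x ∈ H.PV u) (hRE : ∀ e ∈ RE, ∀ x, x ∈ H.PE e)
    (h : ∀ x u, x ∈ H.PV u → ∃ n, (H.st sc n x).1 u = (H.st sc n x).1 o) (n : ℕ) :
    ∫ x, ((RE.image (H.st sc n x).2).card : ℝ) ∂μ - ∫ x, ((RV.image (H.st sc n x).1).card : ℝ) ∂μ
      ≤ H.val μ - 1 := by
  have h1 := pot_nonneg (μ := μ) hR ho h n
  have h2 := pot_anti (H := H) (sc := sc) (μ := μ) (RV := ∅) (RE := ∅) (by simp) (Nat.zero_le n)
  have h3 : H.pot μ ∅ ∅ (H.st sc 0) = H.val μ - 1 := by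
    simp only [pot, st, cnt_id, integral_card_pres H.mPE, integral_card_pres H.mPV, val]
    ring
  have e1 : ∀ x, (cnt (H.st sc n x).2 (pres H.PE x) ∅ : ℝ) =
      cnt (H.st sc n x).2 (pres H.PE x) RE + (RE.image (H.st sc n x).2).card := fun x => by
    exact_mod_cast cnt_add _ fun e he => mem_pres.2 (hRE e he x)
  have e2 : ∀ x, (cnt (H.st sc n x).1 (pres H.PV x) ∅ : ℝ) =
      cnt (H.st sc n x).1 (pres H.PV x) RV + (RV.image (H.st sc n x).1).card := fun x => by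
    exact_mod_cast cnt_add _ fun e he => mem_pres.2 (hRV e he x)
  simp only [h3] at h2
  simp only [pot, e1, e2] at h1 h2
  rw [integral_add (integrable_cnt2 (st_fib n) RE)
      ((st_fib n).integrable fun c => ((RE.image c.2).card : ℝ)),
    integral_add (integrable_cnt1 (st_fib n) RV)
      ((st_fib n).integrable fun c => ((RV.image c.1).card : ℝ))] at h2
  linarith

end Iter

end LG

end

end Vale.Agent.P189
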