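import Vale.Agent.P189.Level1
import Vale.Agent.P189.Core

/-!
The lower bound for the cost of free actions in which `F(a,b)` has a spectral gap.
-/

namespace Vale.Agent.P189

open MeasureTheory Relation Filter Topology

noncomputable section

variable {Γ X : Type} [Group Γ] [MulAction Γ X] [MeasurableSpace X] [MeasurableConstSMul Γ X]

theorem exists_marker [MeasurableSpace.CountablySeparated X] {μ : Measure X}
    [IsProbabilityMeasure μ] [SMulInvariantMeasure Γ X μ]
    (hfree : ∀ (g : Γ) (x : X), g • x = x → g = 1) (a : Γ)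
    (ha : Function.Injective fun n : ℕ => a ^ n) {δ : ℝ} (hδ : 0 < δ) :
    ∃ L : Set X, MeasurableSet L ∧ μ.real L ≤ δ ∧ ∀ x, ∃ n : ℤ, a ^ n • x ∈ L := by
  classical
  obtain ⟨K, hK⟩ := exists_nat_gt (1 / (δ / 2))
  have hK0 : (0 : ℝ) < K := lt_of_le_of_lt (by positivity) hK
  have hK1 : 0 < K := by exact_mod_cast hK0
  obtain ⟨n, c, hc, mB, hB⟩ := exists_colour (μ := μ) hfree
    (Set.range fun p : Fin K × Fin K => a ^ (p.1 : ℕ) * (a ^ (p.2 : ℕ))⁻¹) (Set.finite_range _)
    (div_pos (half_pos hδ) hK0)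
  set B := {x | ∃ g ∈ Set.range fun p : Fin K × Fin K => a ^ (p.1 : ℕ) * (a ^ (p.2 : ℕ))⁻¹,
    g ≠ 1 ∧ c (g • x) = c x} with hBdef
  let Cl : X → Set (Fin n → Bool) := fun x => Set.range fun k : ℤ => c (a ^ k • x)
  have hCl : ∀ c0, MeasurableSet {x | c0 ∈ Cl x} := fun c0 => by
    simp only [Cl, Set.mem_range]
    rw [Set.ofPred_exists]
    exact MeasurableSet.iUnion fun k => measurableSet_pre (hc c0) _
  obtain ⟨π, -, hπ⟩ := marker (μ := μ) (Λ := Unit) (fun _ => c) (fun _ => Cl) (fun _ => hc)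
    (fun _ => hCl) K hK1
  simp only [Finset.univ_unique, Finset.sum_singleton, Fintype.card_unique, Nat.cast_one] at hπ
  refine ⟨{x | K ≤ (Cl x).ncard ∧ c x ∈ Cl x ∧ ∀ c' ∈ Cl x, π (c x) ≤ π c'} ∪
    ⋃ i : Fin K, {x | a ^ (i : ℕ) • x ∈ B}, ?_, ?_, fun x => ?_⟩
  · exact (measurableSet_fin c Cl hc hCl fun c0 A =>
      K ≤ A.ncard ∧ c0 ∈ A ∧ ∀ c' ∈ A, π c0 ≤ π c').union
      (MeasurableSet.iUnion fun i => measurableSet_pre mB _)
  · refine (measureReal_union_le _ _).trans ?_
    have h1 := measureReal_iUnion_fintype_le (μ := μ) fun i : Fin K => {x | a ^ (i : ℕ) • x ∈ B}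
    simp only [real_pre, Finset.sum_const, Finset.card_univ, Fintype.card_fin, nsmul_eq_mul] at h1
    rw [le_div_iff₀ hK0] at hB hπ
    rw [div_lt_iff₀ (half_pos hδ)] at hK
    have h2 : μ.real {x | K ≤ (Cl x).ncard ∧ c x ∈ Cl x ∧ ∀ c' ∈ Cl x, π (c x) ≤ π c'} ≤ δ / 2 :=
      le_of_mul_le_mul_right (by linarith) hK0
    linarith
  · by_cases hx : x ∈ ⋃ i : Fin K, {x | a ^ (i : ℕ) • x ∈ B}
    · exact ⟨0, Or.inr (by simpa using hx)⟩
    simp only [Set.mem_iUnion, not_exists, Set.mem_ofPred_eq] at hx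
    have h1 : K ≤ (Cl x).ncard := by
      have h2 : Function.Injective fun i : Fin K => c (a ^ (i : ℕ) • x) := by
        intro i j hij
        by_contra hne
        refine hx j ⟨_, ⟨(i, j), rfl⟩, fun h => hne (Fin.ext (ha (mul_inv_eq_one.1 h))), ?_⟩
        simp only [mul_smul, inv_smul_smul]
        exact hij
      have h3 := Set.ncard_le_ncard (s := Set.range fun i : Fin K => c (a ^ (i : ℕ) • x))
        (t := Cl x) (by
          rintro _ ⟨i, rfl⟩
          exact ⟨(i : ℕ), by simp⟩) (Set.toFinite _)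
      rwa [Set.ncard_range_of_injective h2, Nat.card_eq_fintype_card, Fintype.card_fin] at h3
    obtain ⟨k, hk⟩ : ∃ k : ℤ, ∀ k' : ℤ, π (c (a ^ k • x)) ≤ π (c (a ^ k' • x)) :=
      ⟨_, fun k' => Function.argmin_le (fun k : ℤ => π (c (a ^ k • x))) k'⟩
    have e : Cl (a ^ k • x) = Cl x := by
      ext c0
      simp only [Cl, Set.mem_range, ← mul_smul, ← zpow_add]
      exact ⟨fun ⟨i, hi⟩ => ⟨_, hi⟩, fun ⟨i, hi⟩ => ⟨i - k, by rw [sub_add_cancel, hi]⟩⟩
    refine ⟨k, Or.inl ?_⟩
    simp only [Set.mem_ofPred_eq, e]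
    refine ⟨h1, ⟨k, rfl⟩, ?_⟩
    rintro _ ⟨k', rfl⟩
    exact hk k'

/-- The graph attached to a graphing. -/
def Graphing.toLG [MeasurableEq X] {μ : Measure X} (Φ : Graphing Γ μ) (L : Set X)
    (hL : MeasurableSet L) : LG Γ X Bool ((ℕ × Γ) ⊕ Unit) where
  o := true
  PV := fun _ => Set.univ
  PE := Sum.elim (fun p => {x | x ∈ Φ.dom p.1 ∧ Φ.map p.1 x = p.2 • x}) fun _ => L
  lab := Sum.elim (fun p => p.2) fun _ => 1
  src := fun _ => false
  tgt := Sum.elim (fun _ => false) fun _ => true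
  mPV := fun _ => MeasurableSet.univ
  mPE := by
    rintro (p | _)
    exacts [(Φ.measurableSet_dom _).inter
      (measurableSet_eq_fun (Φ.measurable_map _) (measurable_const_smul _)), hL]
  PV_o := fun _ => trivial
  src_mem := fun _ _ _ => trivial
  tgt_mem := fun _ _ _ => trivial

theorem has_of_graphing [Countable Γ] [StandardBorelSpace X] {μ : Measure X}
    [IsProbabilityMeasure μ] [SMulInvariantMeasure Γ X μ]
    (hfree : ∀ (g : Γ) (x : X), g • x = x → g = 1) {R : Set Γ} {a : Γ} (haR : a ∈ R)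
    (ha : Function.Injective fun n : ℕ => a ^ n) (b : Γ) (Φ : Graphing Γ μ) (hΦ : Φ.Generates)
    (hc : Φ.cost ≠ ⊤) {δ : ℝ} (hδ : 0 < δ) :
    Has μ R b (fun _ => True) (Φ.cost.toReal - 1 + δ) := by
  classical
  obtain ⟨L, mL, hL, hL'⟩ := exists_marker (μ := μ) hfree a ha (half_pos hδ)
  let G := Φ.toLG L mL
  have hE := G.conn_equiv R
  refine (has_of_countable hfree G (R := R) (b := b) ?_ (fun _ => trivial) trivial trivial
    (s := Φ.cost.toReal + δ / 2) (half_pos hδ) fun F => ?_).mono (fun _ h => h) ?_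
  · filter_upwards [hΦ] with x hx
    have h1 : ∀ g : Γ, G.conn R (x, false) (g • x, false) := fun g => by
      refine eqvGen_map hE (fun y => (y, false)) ?_ (hx g)
      rintro y _ ⟨i, hi, rfl⟩
      obtain ⟨k, hk⟩ := Φ.mem_orbit i y hi
      rw [hk]
      exact LG.conn_edge (G := G) R (ε := Sum.inl (i, k)) ⟨hi, hk⟩
    have h2 : ∀ g : Γ, G.conn R (x, false) (g • x, true) := fun g => by
      obtain ⟨n, hn⟩ := hL' (g • x)
      have h3 := LG.conn_edge (G := G) R (ε := Sum.inr ()) hn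
      have h4 := closure_conn hE (fun y => (y, true)) R (fun r hr y => LG.conn_real (G := G) hr y)
        (zpow_mem (Subgroup.subset_closure haR) n) (g • x)
      have h5 := h1 (a ^ n * g)
      rw [mul_smul] at h5
      change G.conn R (a ^ n • g • x, false) ((1 : Γ) • a ^ n • g • x, true) at h3
      rw [one_smul] at h3
      exact hE.trans h5 (hE.trans h3 (hE.symm h4))
    have h3 := h2 1
    rw [one_smul] at h3
    refine ⟨?_, hE.trans (hE.symm h3) (h2 b)⟩
    rintro (_ | _) -
    exacts [h3, hE.refl _]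
  · rw [Finset.sum_sum_eq_sum_toLeft_add_sum_toRight]
    refine add_le_add ?_ ?_
    · have h1 : ∑ p ∈ F.toLeft, μ (G.PE (Sum.inl p)) ≤ Φ.cost := by
        refine (ENNReal.sum_le_tsum _).trans ?_
        rw [ENNReal.tsum_prod']
        refine ENNReal.tsum_le_tsum fun i => ?_
        rw [← measure_iUnion _ fun g => G.mPE (Sum.inl (i, g))]
        · exact measure_mono (Set.iUnion_subset fun g x hx => hx.1)
        · intro g g' hne
          refine Set.disjoint_left.2 fun x hx hx' => hne ?_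
          have := hfree (g'⁻¹ * g) x (by rw [mul_smul, ← hx.2, hx'.2, inv_smul_smul])
          rw [inv_mul_eq_one] at this
          exact this.symm
      have h2 := ENNReal.toReal_mono hc h1
      rwa [ENNReal.toReal_sum fun _ _ => measure_ne_top _ _] at h2
    · refine (Finset.sum_le_sum_of_subset_of_nonneg (Finset.subset_univ _)
        fun _ _ _ => measureReal_nonneg).trans ?_
      rw [Finset.univ_unique, Finset.sum_singleton]
      exact hL
  · have : ∑ τ, μ.real (G.PV τ) = 2 := by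
      simp only [G, Graphing.toLG, probReal_univ, Finset.sum_const, Finset.card_univ,
        Fintype.card_bool]
      norm_num
    rw [this]
    linarith

theorem lower {X : Type} [MulAction Gam X] [MeasurableSpace X] [MeasurableConstSMul Gam X]
    [StandardBorelSpace X] {μ : Measure X} [IsProbabilityMeasure μ] [SMulInvariantMeasure Gam X μ]
    (hfree : ∀ (g : Gam) (x : X), g • x = x → g = 1) {C : ℝ} (hC : 0 < C)
    (hexp : ∀ S : Set X, MeasurableSet S → μ.real S * (1 - μ.real S) ≤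
      C * (μ.real {z | (io fa)⁻¹ • z ∈ S ∧ z ∉ S} + μ.real {z | z ∈ S ∧ (io fb)⁻¹ • z ∉ S})) :
    1 + ENNReal.ofReal (1 / (2 * (48 * C + 6))) ≤ actionCost Gam μ := by
  refine le_iInf fun Φ => le_iInf fun hΦ => ?_
  by_cases hc : Φ.cost = ⊤
  · rw [hc]
    exact le_top
  have ha : Function.Injective fun n : ℕ => io fa ^ n :=
    injective_pow_iff_not_isOfFinOrder.2 fun h =>
      not_isOfFinOrder_of_isMulTorsionFree (FreeGroup.of_ne_one _)
        (io_injective.isOfFinOrder_iff.1 h)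
  have key : ∀ δ : ℝ, 0 < δ → 1 / (2 * (48 * C + 6)) ≤ Φ.cost.toReal - 1 + δ := by
    intro δ hδ
    have h1 := has_of_graphing hfree (R := {io fa, io fu, gt}) (by simp) ha (io fb) Φ hΦ hc
      (half_pos hδ)
    have h2 : Has μ {io fa, io fu, gt} (io fb) (fun g => g ∈ ({io fa, io fb, gt} : Set Gam))
        (Φ.cost.toReal - 1 + δ / 2) := by
      refine Has.letters (by simp) ?_ (h1.mono (fun g _ => by rw [closure_gens]; trivial) le_rfl)
      rintro _ (rfl | rfl | rfl) <;> exact Subgroup.subset_closure (by simp)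
    have h3 := level1 hfree (half_pos hδ) (h2.mono (by
      rintro _ (rfl | rfl | rfl)
      exacts [Or.inl ⟨_, rfl⟩, Or.inl ⟨_, rfl⟩, Or.inr rfl]) le_rfl)
    have h4 : Has μ {io fa, io fu} (io fb) (fun g => g ∈ ({io fa, io fb} : Set Gam))
        (Φ.cost.toReal - 1 + δ / 2 + δ / 2) := by
      refine Has.letters (by simp) ?_ (h3.mono ?_ le_rfl)
      · rintro _ (rfl | rfl) <;> exact Subgroup.subset_closure (by simp)
      · rintro _ ⟨g, rfl⟩
        have h := Subgroup.mem_map_of_mem (K := Subgroup.closure {fa, fb}) (x := g) io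
          (by rw [closure_fa_fb]; trivial)
        rwa [MonoidHom.map_closure, Set.image_pair] at h
    linarith [level2 io_injective hfree hC hexp h4]
  have h1 : 1 + 1 / (2 * (48 * C + 6)) ≤ Φ.cost.toReal := by
    linarith [le_of_forall_pos_le_add key]
  rw [← ENNReal.ofReal_one, ← ENNReal.ofReal_add zero_le_one (by positivity)]
  exact ENNReal.ofReal_le_of_le_toReal h1

end

end Vale.Agent.P189
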